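import Vale.Agent.P254.Decomp

open MeasureTheory Set Finset Real
open scoped BigOperators Pointwise

namespace P254

variable {n : ℕ}

/-- The total positive mass of the barycentric coordinates of `p`. -/
noncomputable def TT (p : Fin n → ℝ) : ℝ := ∑ l, pos (lam l p)

lemma TT_ge_one (p : Fin n → ℝ) : 1 ≤ TT p := by
  unfold TT
  rw [← lam_sum p]
  exact Finset.sum_le_sum (fun l _ => le_max_left _ _)

lemma TT_pos (p : Fin n → ℝ) : 0 < TT p := lt_of_lt_of_le one_pos (TT_ge_one p)

lemma sum_pos_ee (p : Fin n → ℝ) (i : Fin n) :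
    ∑ l, pos (lam l p) * ee l i = pos (p i) := by
  rw [Fin.sum_univ_succ]
  simp [ee_zero, ee_succ, lam_succ]

lemma Tk_apply (p : Fin n → ℝ) (k : Fin (n + 1)) (t : Fin n → ℝ) (i : Fin n) :
    Tk p k t i = lam i.succ t + lam k t * (p i - ee k i) := by
  simp [Tk, lam_succ]

lemma int_T1 (p : Fin n → ℝ) (k : Fin (n + 1)) (i : Fin n) :
    ∫ t in sig n, Tk p k t i = v0 n / (n + 1) * (1 + (p i - ee k i)) := by
  simp only [Tk_apply]
  rw [integral_add (cont_int (lam_continuous _)) ((cont_int (lam_continuous _)).mul_const _),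
    integral_mul_const, lam_mom1, lam_mom1]
  ring

lemma int_T2 (p : Fin n → ℝ) (k : Fin (n + 1)) (i j : Fin n) :
    ∫ t in sig n, Tk p k t i * Tk p k t j = v0 n / ((n + 1) * (n + 2)) *
      ((if i = j then 1 else 0) + p i * p j + (1 + p i) * (1 + p j)
        - ee k i * (1 + p j) - ee k j * (1 + p i)) := by
  have hexp : ∀ t : Fin n → ℝ, Tk p k t i * Tk p k t j
      = lam i.succ t * lam j.succ t + (p j - ee k j) * (lam i.succ t * lam k t)
        + (p i - ee k i) * (lam k t * lam j.succ t)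
        + (p i - ee k i) * (p j - ee k j) * (lam k t * lam k t) := by
    intro t
    rw [Tk_apply, Tk_apply]
    ring
  simp only [hexp]
  have c1 := lam_continuous (n := n) i.succ
  have c2 := lam_continuous (n := n) j.succ
  have c3 := lam_continuous (n := n) k
  rw [integral_add (cont_int (by fun_prop)) (cont_int (by fun_prop)),
    integral_add (cont_int (by fun_prop)) (cont_int (by fun_prop)),
    integral_add (cont_int (by fun_prop)) (cont_int (by fun_prop))]
  simp only [integral_const_mul, lam_mom2]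
  have e1 : (if i.succ = j.succ then (1 : ℝ) else 0) = if i = j then 1 else 0 := by
    simp [Fin.succ_inj]
  have e2 : (if i.succ = k then (1 : ℝ) else 0) = ee k i := by
    simp [ee, eq_comm]
  have e3 : (if k = j.succ then (1 : ℝ) else 0) = ee k j := by
    simp [ee]
  rw [e1, e2, e3]
  simp only [if_true]
  have hn : ((n : ℝ) + 1) * ((n : ℝ) + 2) ≠ 0 := by positivity
  field_simp
  ring

theorem K0_vol (p : Fin n → ℝ) : vol (K0 p) = TT p * v0 n := by
  rw [vol_eq_integral, K0_integral p continuous_const]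
  simp only [mom0]
  rw [← Finset.sum_mul]
  rfl

theorem K0_m1 (p : Fin n → ℝ) (i : Fin n) :
    ∫ x in K0 p, x i = v0 n / (n + 1) * (TT p * (1 + p i) - pos (p i)) := by
  rw [K0_integral p (continuous_apply i)]
  simp only [int_T1]
  rw [← sum_pos_ee p i, TT, Finset.sum_mul, ← Finset.sum_sub_distrib, Finset.mul_sum]
  apply Finset.sum_congr rfl
  intro l _
  ring

theorem K0_m2 (p : Fin n → ℝ) (i j : Fin n) :
    ∫ x in K0 p, x i * x j = v0 n / ((n + 1) * (n + 2)) *
      (TT p * ((if i = j then 1 else 0) + p i * p j + (1 + p i) * (1 + p j))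
        - pos (p i) * (1 + p j) - pos (p j) * (1 + p i)) := by
  rw [K0_integral p (g := fun x => x i * x j) (by fun_prop)]
  simp only [int_T2]
  rw [← sum_pos_ee p i, ← sum_pos_ee p j, TT, Finset.sum_mul, Finset.sum_mul, Finset.sum_mul,
    ← Finset.sum_sub_distrib, ← Finset.sum_sub_distrib, Finset.mul_sum]
  apply Finset.sum_congr rfl
  intro l _
  ring

/-- The first auxiliary vector. -/
noncomputable def mu (p : Fin n → ℝ) (i : Fin n) : ℝ := pos (p i) / TT p

/-- The second auxiliary vector. -/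
noncomputable def nu (p : Fin n → ℝ) (i : Fin n) : ℝ := 1 + p i - mu p i

lemma K0_vol_ne (p : Fin n → ℝ) : vol (K0 p) ≠ 0 := by
  rw [K0_vol]
  exact (mul_pos (TT_pos p) v0_pos).ne'

lemma K0_centroid (p : Fin n → ℝ) (i : Fin n) : centroid (K0 p) i = nu p i / (n + 1) := by
  unfold centroid nu mu
  rw [K0_vol, K0_m1]
  have h1 := (TT_pos p).ne'
  have h2 : v0 n ≠ 0 := v0_pos.ne'
  have hn : ((n : ℝ) + 1) ≠ 0 := by positivity
  field_simp

lemma K0_cov (p : Fin n → ℝ) (i j : Fin n) :
    cov (K0 p) i j = 1 / (((n : ℝ) + 1) * (n + 2)) *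
      ((if i = j then 1 else 0) + p i * p j - mu p i * mu p j - nu p i * nu p j / (n + 1)) := by
  rw [cov_apply (K0_compact p) (K0_vol_ne p), K0_centroid, K0_centroid, K0_vol, K0_m2]
  unfold nu mu
  have h1 := (TT_pos p).ne'
  have h2 : v0 n ≠ 0 := v0_pos.ne'
  have hn : ((n : ℝ) + 1) ≠ 0 := by positivity
  have hn2 : ((n : ℝ) + 2) ≠ 0 := by positivity
  field_simp
  ring

end P254
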