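import Mathlib

open MeasureTheory Set Finset Real
open scoped BigOperators

namespace P254

variable {n : ℕ}

/-- Lebesgue volume as a real number. -/
noncomputable def vol (K : Set (Fin n → ℝ)) : ℝ := (volume K).toReal

/-- The centroid of a set. -/
noncomputable def centroid (K : Set (Fin n → ℝ)) (i : Fin n) : ℝ :=
  (vol K)⁻¹ * ∫ x in K, x i

/-- The covariance matrix of a set. -/
noncomputable def cov (K : Set (Fin n → ℝ)) : Matrix (Fin n) (Fin n) ℝ :=
  Matrix.of fun i j => (vol K)⁻¹ * ∫ x in K, (x i - centroid K i) * (x j - centroid K j)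

/-- The quantity `det Cov / vol ^ 2`. -/
noncomputable def isoD (K : Set (Fin n → ℝ)) : ℝ := (cov K).det / (vol K) ^ 2

/-- The isotropic constant. -/
noncomputable def isoConst (K : Set (Fin n → ℝ)) : ℝ :=
  (isoD K) ^ ((1 : ℝ) / (2 * (n : ℝ)))

/-- The Radon quantity built from the positive parts of barycentric coordinates. -/
noncomputable def aa (c : Fin (n + 1) → ℝ) : ℝ :=
  (∑ l, max (c l) 0 ^ 2) / (∑ l, max (c l) 0) ^ 2

/-- The Radon quantity built from the negative parts of barycentric coordinates. -/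
noncomputable def bb (c : Fin (n + 1) → ℝ) : ℝ :=
  (1 + ∑ l, max (-(c l)) 0 ^ 2) / (∑ l, max (c l) 0) ^ 2

end P254
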