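import Vale.Agent.P254.Moments
import Vale.Agent.P254.Defs

open MeasureTheory Set Finset Real
open scoped BigOperators Pointwise

namespace P254

variable {n : ℕ}

lemma vol_eq_integral (K : Set (Fin n → ℝ)) : vol K = ∫ _x in K, (1 : ℝ) := by
  rw [setIntegral_const]
  simp [vol, Measure.real]

/-- Affine maps in matrix form. -/
def aff (A : Matrix (Fin n) (Fin n) ℝ) (b : Fin n → ℝ) (t : Fin n → ℝ) : Fin n → ℝ :=
  A.mulVec t + b

lemma aff_injective {A : Matrix (Fin n) (Fin n) ℝ} (b : Fin n → ℝ) (hA : A.det ≠ 0) :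
    Function.Injective (aff A b) := by
  intro x y hxy
  have hu : IsUnit A := (Matrix.isUnit_iff_isUnit_det A).2 (isUnit_iff_ne_zero.2 hA)
  have h : A.mulVec x = A.mulVec y := by simpa [aff] using hxy
  exact Matrix.mulVec_injective_of_isUnit hu h

lemma aff_continuous (A : Matrix (Fin n) (Fin n) ℝ) (b : Fin n → ℝ) : Continuous (aff A b) := by
  unfold aff
  exact A.toLin'.continuous_of_finiteDimensional.add continuous_const

lemma image_integral {A : Matrix (Fin n) (Fin n) ℝ} (b : Fin n → ℝ) (hA : A.det ≠ 0)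
    {Ω : Set (Fin n → ℝ)} (hΩ : MeasurableSet Ω) (g : (Fin n → ℝ) → ℝ) :
    ∫ x in aff A b '' Ω, g x = |A.det| * ∫ t in Ω, g (aff A b t) := by
  have hder : ∀ x ∈ Ω, HasFDerivWithinAt (aff A b)
      (A.toLin'.toContinuousLinearMap : (Fin n → ℝ) →L[ℝ] (Fin n → ℝ)) Ω x := by
    intro x _
    have h1 : HasFDerivAt (fun t : Fin n → ℝ => A.toLin'.toContinuousLinearMap t)
        (A.toLin'.toContinuousLinearMap : (Fin n → ℝ) →L[ℝ] (Fin n → ℝ)) x :=
      ContinuousLinearMap.hasFDerivAt _
    have h2 := h1.add_const b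
    exact h2.hasFDerivWithinAt
  have := integral_image_eq_integral_abs_det_fderiv_smul volume hΩ hder
    ((aff_injective b hA).injOn) g
  rw [this]
  simp only [ContinuousLinearMap.det, LinearMap.coe_toContinuousLinearMap, smul_eq_mul,
    LinearMap.det_toLin']
  rw [integral_const_mul]

lemma vol_image {A : Matrix (Fin n) (Fin n) ℝ} (b : Fin n → ℝ) (hA : A.det ≠ 0)
    {Ω : Set (Fin n → ℝ)} (hΩ : MeasurableSet Ω) :
    vol (aff A b '' Ω) = |A.det| * vol Ω := by
  rw [vol_eq_integral, vol_eq_integral, image_integral b hA hΩ]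

lemma cont_int_K {K : Set (Fin n → ℝ)} (hK : IsCompact K) {g : (Fin n → ℝ) → ℝ}
    (hg : Continuous g) : IntegrableOn g K :=
  hg.continuousOn.integrableOn_compact hK

lemma aff_apply (A : Matrix (Fin n) (Fin n) ℝ) (b t : Fin n → ℝ) (i : Fin n) :
    aff A b t i = ∑ k, A i k * t k + b i := by
  simp [aff, Matrix.mulVec, dotProduct]

lemma int_const (K : Set (Fin n → ℝ)) (c : ℝ) : ∫ _x in K, c = vol K * c := by
  rw [setIntegral_const]
  simp [vol, Measure.real]

lemma centroid_image {A : Matrix (Fin n) (Fin n) ℝ} (b : Fin n → ℝ) (hA : A.det ≠ 0)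
    {K : Set (Fin n → ℝ)} (hK : IsCompact K) (hv : vol K ≠ 0) (i : Fin n) :
    centroid (aff A b '' K) i = ∑ k, A i k * centroid K k + b i := by
  have hd : |A.det| ≠ 0 := abs_ne_zero.2 hA
  unfold centroid
  rw [vol_image b hA hK.measurableSet, image_integral b hA hK.measurableSet]
  simp only [aff_apply]
  rw [integral_add (cont_int_K hK (by fun_prop)) (cont_int_K hK continuous_const),
    integral_finset_sum _ (fun k _ => (cont_int_K hK (continuous_apply k)).const_mul _),
    int_const]
  simp only [integral_const_mul]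
  set X := ∑ k, A i k * ∫ x in K, x k with hX
  have key : (|A.det| * vol K)⁻¹ * (|A.det| * (X + vol K * b i)) = (vol K)⁻¹ * (X + vol K * b i) := by
    field_simp
  rw [key, mul_add, inv_mul_cancel_left₀ hv, hX, Finset.mul_sum]
  congr 1
  apply Finset.sum_congr rfl
  intro k _
  ring

lemma cov_image {A : Matrix (Fin n) (Fin n) ℝ} (b : Fin n → ℝ) (hA : A.det ≠ 0)
    {K : Set (Fin n → ℝ)} (hK : IsCompact K) (hv : vol K ≠ 0) :
    cov (aff A b '' K) = A * cov K * A.transpose := by
  have hd : |A.det| ≠ 0 := abs_ne_zero.2 hA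
  ext i j
  simp only [cov, Matrix.of_apply, Matrix.mul_apply, Matrix.transpose_apply]
  rw [vol_image b hA hK.measurableSet, image_integral b hA hK.measurableSet]
  have hint : ∀ k l, IntegrableOn
      (fun t : Fin n → ℝ => (t k - centroid K k) * (t l - centroid K l)) K :=
    fun k l => cont_int_K hK (by fun_prop)
  have e0 : ∀ (t : Fin n → ℝ) (i : Fin n), aff A b t i - centroid (aff A b '' K) i
      = ∑ k, A i k * (t k - centroid K k) := by
    intro t i
    rw [aff_apply, centroid_image b hA hK hv]
    simp only [mul_sub, Finset.sum_sub_distrib]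
    ring
  have e1 : ∀ t : Fin n → ℝ, (aff A b t i - centroid (aff A b '' K) i)
        * (aff A b t j - centroid (aff A b '' K) j)
      = ∑ k, ∑ l, (A i k * A j l) * ((t k - centroid K k) * (t l - centroid K l)) := by
    intro t
    rw [e0, e0, Finset.sum_mul_sum]
    apply Finset.sum_congr rfl; intro k _
    apply Finset.sum_congr rfl; intro l _
    ring
  simp only [e1]
  rw [integral_finset_sum _ (fun k _ => integrable_finset_sum _ (fun l _ => (hint k l).const_mul _))]
  simp only [integral_finset_sum _ (fun l _ => (hint _ l).const_mul _), integral_const_mul]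
  have key : ∀ X : ℝ, (|A.det| * vol K)⁻¹ * (|A.det| * X) = (vol K)⁻¹ * X := by
    intro X; field_simp
  rw [key, Finset.sum_comm, Finset.mul_sum]
  apply Finset.sum_congr rfl; intro l _
  rw [Finset.mul_sum, Finset.sum_mul]
  apply Finset.sum_congr rfl; intro k _
  ring

lemma isoD_image {A : Matrix (Fin n) (Fin n) ℝ} (b : Fin n → ℝ) (hA : A.det ≠ 0)
    {K : Set (Fin n → ℝ)} (hK : IsCompact K) (hv : vol K ≠ 0) :
    isoD (aff A b '' K) = isoD K := by
  unfold isoD
  rw [cov_image b hA hK hv, vol_image b hA hK.measurableSet, Matrix.det_mul, Matrix.det_mul,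
    Matrix.det_transpose, mul_pow, sq_abs]
  field_simp

lemma cov_apply {K : Set (Fin n → ℝ)} (hK : IsCompact K) (hv : vol K ≠ 0) (i j : Fin n) :
    cov K i j = (vol K)⁻¹ * (∫ x in K, x i * x j) - centroid K i * centroid K j := by
  simp only [cov, Matrix.of_apply]
  have e1 : ∀ x : Fin n → ℝ, (x i - centroid K i) * (x j - centroid K j)
      = x i * x j - centroid K j * x i - centroid K i * x j + centroid K i * centroid K j := by
    intro x; ring
  simp only [e1]
  rw [integral_add (cont_int_K hK (by fun_prop)) (cont_int_K hK continuous_const),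
    integral_sub (cont_int_K hK (by fun_prop)) (cont_int_K hK (by fun_prop)),
    integral_sub (cont_int_K hK (by fun_prop)) (cont_int_K hK (by fun_prop)),
    int_const, integral_const_mul, integral_const_mul]
  have hi : ∀ i, ∫ x in K, x i = vol K * centroid K i := by
    intro i; simp only [centroid]; field_simp
  rw [hi i, hi j]
  field_simp
  ring

end P254
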