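import Vale.Agent.P254.Core

open MeasureTheory Set Finset Real
open scoped BigOperators Pointwise Topology

namespace P254

variable {n : ℕ}

/-- The translate of `K` placing the centroid of the standard simplex at the origin. -/
def cen (K : Set (Fin n → ℝ)) : Set (Fin n → ℝ) := {y | y + bc n ∈ K}

/-- The radial function of `K` about the centroid of the standard simplex. -/
noncomputable def gK (K : Set (Fin n → ℝ)) (x : Fin n → ℝ) : ℝ := gauge (cen K) (x - bc n)

lemma hom_sub (r : ℝ) (x : Fin n → ℝ) : hom r x - bc n = r • (x - bc n) := by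
  rw [hom_eq]
  ext i
  simp only [Pi.sub_apply, Pi.add_apply, Pi.smul_apply, smul_eq_mul]
  ring

lemma cen_convex {K : Set (Fin n → ℝ)} (hKv : Convex ℝ K) : Convex ℝ (cen K) := by
  intro a ha b hb u v hu hv huv
  have h := hKv ha hb hu hv huv
  change u • a + v • b + bc n ∈ K
  have e : u • a + v • b + bc n = u • (a + bc n) + v • (b + bc n) := by
    have : bc n = (u + v) • bc n := by rw [huv, one_smul]
    nth_rewrite 1 [this]
    simp only [smul_add, add_smul]
    abel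
  rw [e]
  exact h

lemma cen_closed {K : Set (Fin n → ℝ)} (hKc : IsClosed K) : IsClosed (cen K) :=
  hKc.preimage (continuous_id.add continuous_const)

lemma cen_nhds {K : Set (Fin n → ℝ)} {r : ℝ} (hr0 : 0 < r)
    (hth : ∀ x ∈ sig n, hom r x ∈ K) : cen K ∈ 𝓝 (0 : Fin n → ℝ) := by
  have hN : (0 : ℝ) < (n : ℝ) + 1 := by positivity
  let U : Set (Fin n → ℝ) := ⋂ l : Fin (n + 1), {y | (1 - r) * (1 / ((n : ℝ) + 1)) < lam l (y + bc n)}
  have hUo : IsOpen U := isOpen_iInter_of_finite (fun l => isOpen_lt continuous_const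
    ((lam_continuous l).comp (continuous_id.add continuous_const)))
  have h0 : (0 : Fin n → ℝ) ∈ U := by
    simp only [U, mem_iInter, mem_setOf_eq, zero_add]
    intro l
    rw [lam_bc]
    have : 0 < r * (1 / ((n : ℝ) + 1)) := by positivity
    nlinarith
  refine Filter.mem_of_superset (hUo.mem_nhds h0) ?_
  intro y hy
  have hy' : ∀ l, (1 - r) * (1 / ((n : ℝ) + 1)) < lam l (y + bc n) := by
    intro l
    exact Set.mem_iInter.1 hy l
  have hz : hom r⁻¹ (y + bc n) ∈ sig n := by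
    intro l
    rw [lam_hom]
    have h1 := hy' l
    have h2 : r⁻¹ * lam l (y + bc n) + (1 - r⁻¹) * (1 / ((n : ℝ) + 1))
        = r⁻¹ * (lam l (y + bc n) - (1 - r) * (1 / ((n : ℝ) + 1))) := by
      field_simp
      ring
    rw [h2]
    apply mul_nonneg (by positivity)
    linarith
  have := hth _ hz
  rw [hom_hom, mul_inv_cancel₀ hr0.ne', hom_one] at this
  exact this

variable {m : ℕ}

section
variable {K : Set (Fin (m + 1) → ℝ)} {r : ℝ}

lemma gK_cont (hKv : Convex ℝ K) (hr0 : 0 < r) (hth : ∀ x ∈ sig (m + 1), hom r x ∈ K) :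
    Continuous (gK K) :=
  (continuous_gauge (cen_convex hKv) (cen_nhds hr0 hth)).comp (continuous_id.sub continuous_const)

lemma gK_homog (r' : ℝ) (hr' : 0 ≤ r') (x : Fin (m + 1) → ℝ) : gK K (hom r' x) = r' * gK K x := by
  unfold gK
  rw [hom_sub, gauge_smul_of_nonneg hr', smul_eq_mul]

lemma gK_conv (hKv : Convex ℝ K) (hr0 : 0 < r) (hth : ∀ x ∈ sig (m + 1), hom r x ∈ K) :
    ConvexOn ℝ (sig (m + 1)) (gK K) := by
  refine ⟨sig_convex, ?_⟩
  intro x _ y _ a b ha hb hab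
  have hn := cen_nhds hr0 hth
  have e : a • x + b • y - bc (m + 1) = a • (x - bc (m + 1)) + b • (y - bc (m + 1)) := by
    have : bc (m + 1) = (a + b) • bc (m + 1) := by rw [hab, one_smul]
    nth_rewrite 1 [this]
    simp only [smul_sub, add_smul]
    abel
  simp only [gK, smul_eq_mul]
  rw [e]
  refine (gauge_add_le (cen_convex hKv) (absorbent_nhds_zero hn) _ _).trans ?_
  rw [gauge_smul_of_nonneg ha, gauge_smul_of_nonneg hb]
  simp only [smul_eq_mul, le_refl]

lemma gK_nonneg (x : Fin (m + 1) → ℝ) : 0 ≤ gK K x := gauge_nonneg _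

lemma tt_le_gK (hsub : K ⊆ sig (m + 1)) (hr0 : 0 < r) (hth : ∀ x ∈ sig (m + 1), hom r x ∈ K)
    (x : Fin (m + 1) → ℝ) : tt x ≤ gK K x := by
  have hn := cen_nhds hr0 hth
  apply le_of_forall_gt_imp_ge_of_dense
  intro a ha
  obtain ⟨b, hb0, hba, y, hy, hxy⟩ := exists_lt_of_gauge_lt (absorbent_nhds_zero hn) ha
  have hy' : y + bc (m + 1) ∈ K := hy
  have hz : hom b (y + bc (m + 1)) = x := by
    rw [hom_eq]
    have hxy' : x - bc (m + 1) = b • y := hxy.symm
    have e : x = b • y + bc (m + 1) := by rw [← hxy']; abel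
    rw [e, smul_add, sub_smul, one_smul]
    abel
  rw [← hz, tt_hom hb0.le]
  have h1 := mem_sig_iff.1 (hsub hy')
  nlinarith

lemma gK_of_mem {x : Fin (m + 1) → ℝ} (hx : x ∈ K) : gK K x ≤ 1 := by
  apply gauge_le_of_mem zero_le_one
  rw [one_smul]
  change x - bc (m + 1) + bc (m + 1) ∈ K
  simpa using hx

lemma mem_of_gK (hKc : IsClosed K) (hKv : Convex ℝ K) (hr0 : 0 < r)
    (hth : ∀ x ∈ sig (m + 1), hom r x ∈ K) {x : Fin (m + 1) → ℝ} (hx : gK K x ≤ 1) : x ∈ K := by
  have h := (gauge_le_one_iff_mem_closure (cen_convex hKv) (cen_nhds hr0 hth)).1 hx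
  rw [(cen_closed hKc).closure_eq] at h
  have h2 : x - bc (m + 1) + bc (m + 1) ∈ K := h
  simpa using h2

lemma gK_le (hr0 : 0 < r) (hth : ∀ x ∈ sig (m + 1), hom r x ∈ K)
    {x : Fin (m + 1) → ℝ} (hx : x ∈ sig (m + 1)) : gK K x ≤ r⁻¹ * tt x := by
  by_cases h : tt x = 0
  · have hb := tt_nonpos_imp h.le
    rw [h, hb]
    simp [gK]
  · have ht : 0 < tt x := lt_of_le_of_ne (tt_nonneg x) (Ne.symm h)
    have hz : hom (tt x)⁻¹ x ∈ sig (m + 1) := by
      rw [mem_sig_iff, tt_hom (by positivity)]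
      field_simp
      exact le_rfl
    have h1 := gK_of_mem (hth _ hz)
    rw [gK_homog _ hr0.le, gK_homog _ (by positivity)] at h1
    have h2 : gK K x = tt x * (r⁻¹ * (r * ((tt x)⁻¹ * gK K x))) := by
      field_simp
    rw [h2]
    have h3 : r⁻¹ * (r * ((tt x)⁻¹ * gK K x)) ≤ r⁻¹ * 1 :=
      mul_le_mul_of_nonneg_left h1 (by positivity)
    nlinarith

end

lemma tt_fc (hm : 0 < n) (l : Fin (n + 1)) : 1 ≤ tt (fc l : Fin n → ℝ) := by
  have := tl_le_tt l (fc l : Fin n → ℝ)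
  unfold tl at this
  rw [lam_fc hm] at this
  simpa using this

/-- The main statement for bodies inside the standard simplex. -/
theorem body_core {K : Set (Fin (m + 1) → ℝ)} (hKc : IsCompact K) (hKv : Convex ℝ K)
    (hsub : K ⊆ sig (m + 1)) (hfc : ∀ l, fc l ∈ K) {r : ℝ} (hr0 : 0 < r) (hr1 : r ≤ 1)
    (hth : ∀ x ∈ sig (m + 1), hom r x ∈ K) (hε : (r⁻¹ - 1) * ((m : ℝ) + 4) ≤ kap m) :
    0 < vol K ∧ isoD K ≤ CC (m + 1) ∧ (K ≠ sig (m + 1) → isoD K < CC (m + 1)) := by
  have hm : 0 < m + 1 := Nat.succ_pos m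
  have hε0 : 0 ≤ r⁻¹ - 1 := by
    have : 1 ≤ r⁻¹ := (one_le_inv₀ hr0).2 hr1
    linarith
  have hAdm : Adm m (gK K) := by
    refine ⟨gK_cont hKv hr0 hth, gK_conv hKv hr0 hth, gK_homog, ?_, ?_⟩
    · intro x _
      exact tt_le_gK hsub hr0 hth x
    · intro l
      apply le_antisymm (gK_of_mem (hfc l))
      exact (tt_fc hm l).trans (tt_le_gK hsub hr0 hth _)
  have hKK : Kg (gK K) = K := by
    ext x
    constructor
    · rintro ⟨_, h⟩
      exact mem_of_gK hKc.isClosed hKv hr0 hth h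
    · intro hx
      exact ⟨hsub hx, gK_of_mem hx⟩
  have hle : ∀ x ∈ sig (m + 1), gK K x ≤ (1 + (r⁻¹ - 1)) * tt x := by
    intro x hx
    have := gK_le hr0 hth hx
    simpa using this
  obtain ⟨h1, _, h3, h4⟩ := core hAdm hε0 hle hε
  rw [hKK] at h1 h3 h4
  exact ⟨h1, h3, h4⟩

end P254
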