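import Vale.Agent.P254.Polar

open MeasureTheory Set Finset Real
open scoped BigOperators Pointwise

namespace P254

/-- The one-dimensional pairing with the weight `6 x ^ 2 - 6 r x + r ^ 2` vanishes on affine
functions. -/
lemma affine_pairing (r A B : ℝ) :
    ∫ x in (0 : ℝ)..r, (6 * x ^ 2 - 6 * r * x + r ^ 2) * (A + B * x) = 0 := by
  let P : ℝ → ℝ := fun x => (3 / 2 * B) * x ^ 4 + (2 * A - 2 * r * B) * x ^ 3
    + (-3 * r * A + r ^ 2 / 2 * B) * x ^ 2 + (r ^ 2 * A) * x
  have hd : ∀ x ∈ uIcc 0 r, HasDerivAt P ((6 * x ^ 2 - 6 * r * x + r ^ 2) * (A + B * x)) x := by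
    intro x _
    have h1 := (hasDerivAt_pow 4 x).const_mul (3 / 2 * B)
    have h2 := (hasDerivAt_pow 3 x).const_mul (2 * A - 2 * r * B)
    have h3 := (hasDerivAt_pow 2 x).const_mul (-3 * r * A + r ^ 2 / 2 * B)
    have h4 := (hasDerivAt_id x).const_mul (r ^ 2 * A)
    have h5 := ((h1.add h2).add h3).add h4
    refine HasDerivAt.congr_deriv h5 ?_
    simp
    ring
  have hi : IntervalIntegrable (fun x : ℝ => (6 * x ^ 2 - 6 * r * x + r ^ 2) * (A + B * x))
      volume 0 r := (by fun_prop : Continuous _).intervalIntegrable _ _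
  rw [intervalIntegral.integral_eq_sub_of_hasDerivAt hd hi]
  simp only [P]
  ring

/-- The chord inequality. -/
lemma chord_pairing {r : ℝ} (hr : 0 ≤ r) {φ : ℝ → ℝ} (hc : Continuous φ)
    (hφ : ConvexOn ℝ (Icc 0 r) φ) :
    0 ≤ ∫ x in (0 : ℝ)..r, (6 * x ^ 2 - 6 * r * x + r ^ 2) * φ x := by
  rcases hr.eq_or_lt with rfl | hr'
  · simp
  have hs3 : √3 ^ 2 = 3 := Real.sq_sqrt (by norm_num)
  have hs0 : 0 < √3 := by positivity
  have hs1 : √3 < 3 := by nlinarith
  set x₁ := r * (3 - √3) / 6 with hx₁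
  set x₂ := r * (3 + √3) / 6 with hx₂
  have h12 : x₁ < x₂ := by rw [hx₁, hx₂]; nlinarith
  have h01 : 0 ≤ x₁ := by rw [hx₁]; nlinarith
  have h2r : x₂ ≤ r := by rw [hx₂]; nlinarith
  have hfac : ∀ x : ℝ, 6 * x ^ 2 - 6 * r * x + r ^ 2 = 6 * ((x - x₁) * (x - x₂)) := by
    intro x
    rw [hx₁, hx₂]
    nlinarith
  have hkey : ∀ p q z : ℝ, p ∈ Icc 0 r → q ∈ Icc 0 r → p < z → z < q →
      (q - p) * φ z ≤ (q - z) * φ p + (z - p) * φ q := by
    intro p q z hp hq hpz hzq
    have hqp : 0 < q - p := by linarith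
    have := hφ.2 hp hq (show 0 ≤ (q - z) / (q - p) by apply div_nonneg <;> linarith)
      (show 0 ≤ (z - p) / (q - p) by apply div_nonneg <;> linarith)
      (show (q - z) / (q - p) + (z - p) / (q - p) = 1 by field_simp; ring)
    have e : ((q - z) / (q - p)) • p + ((z - p) / (q - p)) • q = z := by
      simp only [smul_eq_mul]
      field_simp
      ring
    rw [e] at this
    simp only [smul_eq_mul] at this
    have h2 : (q - p) * φ z ≤ (q - p) * ((q - z) / (q - p) * φ p + (z - p) / (q - p) * φ q) :=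
      mul_le_mul_of_nonneg_left this hqp.le
    have e2 : (q - p) * ((q - z) / (q - p) * φ p + (z - p) / (q - p) * φ q)
        = (q - z) * φ p + (z - p) * φ q := by
      field_simp
    linarith
  set D := x₂ - x₁ with hD
  have hDpos : 0 < D := by rw [hD]; linarith
  have m1 : x₁ ∈ Icc 0 r := ⟨h01, h12.le.trans h2r⟩
  have m2 : x₂ ∈ Icc 0 r := ⟨h01.trans h12.le, h2r⟩
  -- the pointwise inequality
  have hpt : ∀ x ∈ Icc (0 : ℝ) r, 0 ≤ (x - x₁) * (x - x₂) *
      (D * φ x - ((x₂ - x) * φ x₁ + (x - x₁) * φ x₂)) := by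
    intro x hx
    rcases lt_trichotomy x x₁ with h | h | h
    · have := hkey x x₂ x₁ hx m2 h h12
      apply mul_nonneg (mul_nonneg_of_nonpos_of_nonpos (by linarith) (by linarith))
      simp only [hD] at *
      nlinarith
    · rw [h]; simp
    · rcases lt_trichotomy x x₂ with h' | h' | h'
      · have := hkey x₁ x₂ x m1 m2 h h'
        apply mul_nonneg_of_nonpos_of_nonpos
        · apply mul_nonpos_of_nonneg_of_nonpos <;> linarith
        · simp only [hD] at *
          linarith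
      · rw [h']; simp
      · have := hkey x₁ x x₂ m1 hx h12 h'
        apply mul_nonneg (mul_nonneg (by linarith) (by linarith))
        simp only [hD] at *
        nlinarith
  -- integrate
  have hA := affine_pairing r (x₂ * φ x₁ - x₁ * φ x₂) (φ x₂ - φ x₁)
  have hcont : Continuous (fun x : ℝ => (6 * x ^ 2 - 6 * r * x + r ^ 2) * φ x) := by fun_prop
  have hsplit : D * ∫ x in (0 : ℝ)..r, (6 * x ^ 2 - 6 * r * x + r ^ 2) * φ x
      = ∫ x in (0 : ℝ)..r, 6 * ((x - x₁) * (x - x₂) *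
          (D * φ x - ((x₂ - x) * φ x₁ + (x - x₁) * φ x₂))) := by
    have e1 : ∀ x : ℝ, 6 * ((x - x₁) * (x - x₂) * (D * φ x - ((x₂ - x) * φ x₁ + (x - x₁) * φ x₂)))
        = D * ((6 * x ^ 2 - 6 * r * x + r ^ 2) * φ x)
          - (6 * x ^ 2 - 6 * r * x + r ^ 2) * ((x₂ * φ x₁ - x₁ * φ x₂) + (φ x₂ - φ x₁) * x) := by
      intro x
      rw [hfac]
      ring
    simp only [e1]
    rw [intervalIntegral.integral_sub ((hcont.const_mul D).intervalIntegrable _ _)
      ((by fun_prop : Continuous _).intervalIntegrable _ _), hA, sub_zero,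
      intervalIntegral.integral_const_mul]
  have hnn : 0 ≤ ∫ x in (0 : ℝ)..r, 6 * ((x - x₁) * (x - x₂) *
      (D * φ x - ((x₂ - x) * φ x₁ + (x - x₁) * φ x₂))) := by
    apply intervalIntegral.integral_nonneg hr
    intro x hx
    have := hpt x hx
    linarith
  rw [← hsplit] at hnn
  exact nonneg_of_mul_nonneg_right (by linarith) hDpos

end P254
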