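import Vale.Agent.P254.Ki

open MeasureTheory Set Finset Real
open scoped BigOperators Pointwise

namespace P254

variable {n : ℕ}

lemma uu_hom (r : ℝ) (x : Fin n → ℝ) : uu (hom r x) = r ^ 2 * uu x := by
  unfold uu
  rw [Finset.mul_sum]
  apply Finset.sum_congr rfl
  intro l _
  rw [lam_hom]
  ring

lemma uu_nonneg (x : Fin n → ℝ) : 0 ≤ uu x := Finset.sum_nonneg (fun _ _ => sq_nonneg _)

lemma uu_le_tt (x : Fin n → ℝ) : uu x ≤ tt x ^ 2 := by
  have hN : (0 : ℝ) < (n : ℝ) + 1 := by positivity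
  set t := tt x with ht
  have h1 : uu x = (∑ l, tl l x ^ 2) / ((n : ℝ) + 1) ^ 2 := by
    unfold uu tl
    rw [Finset.sum_div]
    apply Finset.sum_congr rfl
    intro l _
    field_simp
    ring
  have hcard : ((Finset.univ : Finset (Fin (n + 1))).card : ℝ) = (n : ℝ) + 1 := by
    simp
  have h2 : ∑ l, (t - tl l x) = ((n : ℝ) + 1) * t := by
    rw [Finset.sum_sub_distrib, sum_tl, Finset.sum_const, nsmul_eq_mul, hcard]
    ring
  have h3 : ∀ l ∈ (Finset.univ : Finset (Fin (n + 1))), 0 ≤ t - tl l x := by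
    intro l _
    have := tl_le_tt l x
    linarith
  have h4 : ∀ l ∈ (Finset.univ : Finset (Fin (n + 1))), t - tl l x ≤ ((n : ℝ) + 1) * t := by
    intro l hl
    rw [← h2]
    exact Finset.single_le_sum h3 hl
  have h5 : ∑ l, (t - tl l x) ^ 2 ≤ ((n : ℝ) + 1) * t * (((n : ℝ) + 1) * t) := by
    rw [← h2]
    nth_rewrite 1 [h2]
    rw [Finset.mul_sum]
    apply Finset.sum_le_sum
    intro l hl
    rw [sq]
    exact mul_le_mul_of_nonneg_right (h4 l hl) (h3 l hl)
  have h6 : ∑ l, tl l x ^ 2 = ∑ l, (t - tl l x) ^ 2 - ((n : ℝ) + 1) * t ^ 2 := by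
    have : ∀ l, tl l x ^ 2 = (t - tl l x) ^ 2 - t ^ 2 + 2 * t * tl l x := by
      intro l; ring
    simp only [this]
    rw [Finset.sum_add_distrib, Finset.sum_sub_distrib, ← Finset.mul_sum, sum_tl, Finset.sum_const,
      nsmul_eq_mul, hcard]
    ring
  rw [h1, div_le_iff₀ (by positivity), h6]
  have ht0 : 0 ≤ t := tt_nonneg x
  have : 0 ≤ ((n : ℝ) + 1) * t ^ 2 := by positivity
  nlinarith

lemma pow_inv_le {e : ℝ} (he : 0 ≤ e) (N : ℕ) :
    ((1 + e)⁻¹) ^ N ≤ 1 - (N : ℝ) * e + ((N : ℝ) * ((N : ℝ) + 1) / 2) * e ^ 2 := by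
  have h1e : 0 < 1 + e := by linarith
  induction N with
  | zero => simp
  | succ N ih =>
    rw [pow_succ]
    have hinv : 0 ≤ (1 + e)⁻¹ := by positivity
    have h2 := mul_le_mul_of_nonneg_right ih hinv
    refine h2.trans ?_
    rw [← div_eq_mul_inv, div_le_iff₀ h1e]
    push_cast
    have hN : (0 : ℝ) ≤ N := Nat.cast_nonneg N
    have h3 : 0 ≤ ((N : ℝ) + 1) * ((N : ℝ) + 2) / 2 * e ^ 3 := by positivity
    nlinarith

lemma pow_inv_ge {e : ℝ} (he : 0 ≤ e) (N : ℕ) : 1 - (N : ℝ) * e ≤ ((1 + e)⁻¹) ^ N := by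
  have h1e : 0 < 1 + e := by linarith
  induction N with
  | zero => simp
  | succ N ih =>
    rw [pow_succ]
    have hinv : 0 ≤ (1 + e)⁻¹ := by positivity
    have h2 := mul_le_mul_of_nonneg_right ih hinv
    refine le_trans ?_ h2
    rw [← div_eq_mul_inv, le_div_iff₀ h1e]
    push_cast
    have hN : (0 : ℝ) ≤ N := Nat.cast_nonneg N
    nlinarith [mul_nonneg hN (sq_nonneg e), sq_nonneg e]

lemma bdd_int {f : (Fin n → ℝ) → ℝ} (hm : Measurable f) {C : ℝ} (hC : ∀ x ∈ sig n, |f x| ≤ C) :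
    IntegrableOn f (sig n) := by
  refine Measure.integrableOn_of_bounded (M := C) sig_compact.measure_lt_top.ne
    hm.aestronglyMeasurable ?_
  filter_upwards [ae_restrict_mem sig_measurable] with x hx
  exact hC x hx

/-- The relative excess of the radial function. -/
noncomputable def eR (g : (Fin n → ℝ) → ℝ) (x : Fin n → ℝ) : ℝ := (g x - tt x) / tt x

/-- The squared distance in units of the radial variable. -/
noncomputable def sR (x : Fin n → ℝ) : ℝ := uu x / tt x ^ 2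

lemma sR_deg : Deg0 (sR : (Fin n → ℝ) → ℝ) := by
  intro r hr x
  unfold sR
  rw [uu_hom, tt_hom hr.le, mul_pow, mul_div_mul_left _ _ (by positivity)]

lemma sR_meas : Measurable (sR : (Fin n → ℝ) → ℝ) :=
  uu_continuous.measurable.div (tt_continuous.pow 2).measurable

lemma sR_nonneg (x : Fin n → ℝ) : 0 ≤ sR x := div_nonneg (uu_nonneg x) (sq_nonneg _)

lemma sR_le (x : Fin n → ℝ) : sR x ≤ 1 := div_le_one_of_le₀ (uu_le_tt x) (sq_nonneg _)

lemma tt_sR (x : Fin n → ℝ) : tt x ^ 2 * sR x = uu x := by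
  unfold sR
  by_cases h : tt x = 0
  · have := uu_le_tt x
    rw [h] at this ⊢
    have h0 := uu_nonneg x
    simp only [ne_eq, OfNat.ofNat_ne_zero, not_false_eq_true, zero_pow] at this
    simp only [ne_eq, OfNat.ofNat_ne_zero, not_false_eq_true, zero_pow, zero_mul]
    linarith
  · field_simp

variable {m : ℕ}

section
variable {g : (Fin (m + 1) → ℝ) → ℝ}

lemma eR_deg (hg : Adm m g) : Deg0 (eR g) := by
  intro r hr x
  unfold eR
  rw [hg.homog r hr.le, tt_hom hr.le, ← mul_sub, mul_div_mul_left _ _ hr.ne']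

lemma eR_meas (hg : Adm m g) : Measurable (eR g) :=
  (hg.cont.sub tt_continuous).measurable.div tt_continuous.measurable

lemma g_bc (hg : Adm m g) : g (bc (m + 1)) = 0 := by
  have h := hg.homog 0 le_rfl (bc (m + 1))
  rw [zero_mul] at h
  have e : hom (0 : ℝ) (bc (m + 1)) = bc (m + 1) := by
    simp [hom_eq]
  rwa [e] at h

lemma tt_eR (hg : Adm m g) (x : Fin (m + 1) → ℝ) : tt x * (1 + eR g x) = g x := by
  by_cases h : tt x = 0
  · have hx := tt_nonpos_imp h.le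
    rw [h, zero_mul, hx, g_bc hg]
  · unfold eR
    field_simp
    ring

lemma eR_nonneg (hg : Adm m g) {x : Fin (m + 1) → ℝ} (hx : x ∈ sig (m + 1)) : 0 ≤ eR g x := by
  unfold eR
  apply div_nonneg _ (tt_nonneg x)
  have := hg.ge_tt x hx
  linarith

lemma eR_le (hg : Adm m g) {ε : ℝ} (hε0 : 0 ≤ ε) (hle : ∀ x ∈ sig (m + 1), g x ≤ (1 + ε) * tt x)
    {x : Fin (m + 1) → ℝ} (hx : x ∈ sig (m + 1)) : eR g x ≤ ε := by
  unfold eR
  by_cases h : tt x = 0
  · simp [h, hε0]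
  · have hp : 0 < tt x := lt_of_le_of_ne (tt_nonneg x) (Ne.symm h)
    rw [div_le_iff₀ hp]
    have := hle x hx
    linarith

end

/-- The radial cut-off. -/
noncomputable def cR (g : (Fin n → ℝ) → ℝ) (x : Fin n → ℝ) : ℝ := (1 + eR g x)⁻¹

/-- The integrand of the key inequality in degree zero. -/
noncomputable def fR (m : ℕ) (g : (Fin (m + 1) → ℝ) → ℝ) (x : Fin (m + 1) → ℝ) : ℝ :=
  eR g x * (sR x - cst m)

/-- The set with the given radial function. -/
def Kg (g : (Fin n → ℝ) → ℝ) : Set (Fin n → ℝ) := sig n ∩ {x | g x ≤ 1}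

section
variable {g : (Fin (m + 1) → ℝ) → ℝ}

lemma Kg_meas (hg : Adm m g) : MeasurableSet {x | g x ≤ 1} :=
  (isClosed_le hg.cont continuous_const).measurableSet

lemma Kg_compact (hg : Adm m g) : IsCompact (Kg g) :=
  sig_compact.inter_right (isClosed_le hg.cont continuous_const)

lemma cR_meas (hg : Adm m g) : Measurable (cR g) := (measurable_const.add (eR_meas hg)).inv

lemma cR_deg (hg : Adm m g) : Deg0 (cR g) := fun r hr x => by
  simp only [cR, eR_deg hg r hr x]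

lemma cR_bd (hg : Adm m g) : ∀ x ∈ sig (m + 1), 0 < cR g x ∧ cR g x ≤ 1 := by
  intro x hx
  have := eR_nonneg hg hx
  refine ⟨?_, inv_le_one_of_one_le₀ (by linarith)⟩
  unfold cR
  positivity

lemma cR_iff (hg : Adm m g) : ∀ x ∈ sig (m + 1), (tt x ≤ cR g x ↔ g x ≤ 1) := by
  intro x hx
  have h1 : 0 < 1 + eR g x := by have := eR_nonneg hg hx; linarith
  rw [← tt_eR hg x]
  unfold cR
  rw [← one_div, le_div_iff₀ h1]

lemma Kg_int (hg : Adm m g) (F : (Fin (m + 1) → ℝ) → ℝ) :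
    ∫ x in Kg g, F x = ∫ x in sig (m + 1), (if tt x ≤ cR g x then F x else 0) := by
  have h1 : ∫ x in sig (m + 1), (if tt x ≤ cR g x then F x else 0)
      = ∫ x in sig (m + 1), {x | g x ≤ 1}.indicator F x := by
    apply setIntegral_congr_fun sig_measurable
    intro x hx
    by_cases h : g x ≤ 1
    · simp only [(cR_iff hg x hx).2 h, if_true]
      rw [Set.indicator_of_mem]
      exact h
    · have h2 : ¬ tt x ≤ cR g x := fun h3 => h ((cR_iff hg x hx).1 h3)
      simp only [h2, if_false]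
      rw [Set.indicator_of_notMem]
      exact h
  rw [h1, setIntegral_indicator (Kg_meas hg)]
  rfl

lemma Kg_vol (hg : Adm m g) : vol (Kg g) = ∫ x in sig (m + 1), cR g x ^ (m + 1) := by
  have hm : 0 < m + 1 := Nat.succ_pos m
  rw [vol_eq_integral, Kg_int hg]
  have h := radial_formula hm 0 (f := fun _ => (1 : ℝ)) (cR_meas hg) measurable_const (cR_deg hg)
    (fun _ _ _ => rfl) (cR_bd hg) (C := 1) (by simp)
  simp only [pow_zero, mul_one, Nat.cast_zero, add_zero] at h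
  rw [h, div_self (by positivity), one_mul]

lemma Kg_uu (hg : Adm m g) : ∫ x in Kg g, uu x = ((m : ℝ) + 1) / ((m : ℝ) + 1 + 2) *
    ∫ x in sig (m + 1), cR g x ^ (m + 1 + 2) * sR x := by
  have hm : 0 < m + 1 := Nat.succ_pos m
  have hN0 : ((m + 1 : ℕ) : ℝ) = (m : ℝ) + 1 := by push_cast; ring
  rw [Kg_int hg]
  have h := radial_formula hm 2 (f := sR) (cR_meas hg) sR_meas (cR_deg hg) sR_deg (cR_bd hg) (C := 1)
    (fun x _ => by rw [abs_of_nonneg (sR_nonneg x)]; exact sR_le x)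
  rw [Nat.cast_ofNat, hN0] at h
  rw [← h]
  apply setIntegral_congr_fun sig_measurable
  intro x _
  by_cases h3 : tt x ≤ cR g x
  · simp only [h3, if_true]
    exact (tt_sR x).symm
  · simp [h3]

end

lemma sig_uu_sR : ∫ x in sig (m + 1), uu x = ((m : ℝ) + 1) / ((m : ℝ) + 1 + 2) *
    ∫ x in sig (m + 1), sR x := by
  have hm : 0 < m + 1 := Nat.succ_pos m
  have hN0 : ((m + 1 : ℕ) : ℝ) = (m : ℝ) + 1 := by push_cast; ring
  have hc1' : ∀ x ∈ sig (m + 1), (0 : ℝ) < 1 ∧ (1 : ℝ) ≤ 1 := fun _ _ => ⟨one_pos, le_rfl⟩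
  have h := radial_formula hm 2 (f := sR) (c := fun _ => 1) measurable_const sR_meas
    (fun _ _ _ => rfl) sR_deg hc1' (C := 1)
    (fun x _ => by rw [abs_of_nonneg (sR_nonneg x)]; exact sR_le x)
  simp only [one_pow, one_mul, Nat.cast_ofNat] at h
  rw [hN0] at h
  rw [← h]
  apply setIntegral_congr_fun sig_measurable
  intro x hx
  simp only [mem_sig_iff.1 hx, if_true]
  exact (tt_sR x).symm

section
variable {g : (Fin (m + 1) → ℝ) → ℝ}

lemma fR_meas (hg : Adm m g) : Measurable (fR m g) :=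
  (eR_meas hg).mul (sR_meas.sub measurable_const)

lemma cst_nonneg : 0 ≤ cst m := by unfold cst; positivity

lemma fR_bd (hg : Adm m g) {ε : ℝ} (hε0 : 0 ≤ ε) (hle : ∀ x ∈ sig (m + 1), g x ≤ (1 + ε) * tt x) :
    ∀ x ∈ sig (m + 1), |fR m g x| ≤ ε * (1 + cst m) := by
  intro x hx
  unfold fR
  rw [abs_mul, abs_of_nonneg (eR_nonneg hg hx)]
  apply mul_le_mul (eR_le hg hε0 hle hx) _ (abs_nonneg _) hε0
  rw [abs_le]
  have h1 := sR_nonneg x
  have h2 := sR_le x
  have h3 := cst_nonneg (m := m)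
  constructor <;> linarith

lemma fR_int_nonneg (hg : Adm m g) {ε : ℝ} (hε0 : 0 ≤ ε)
    (hle : ∀ x ∈ sig (m + 1), g x ≤ (1 + ε) * tt x) : 0 ≤ ∫ x in sig (m + 1), fR m g x := by
  have hm : 0 < m + 1 := Nat.succ_pos m
  have hc1' : ∀ x ∈ sig (m + 1), (0 : ℝ) < 1 ∧ (1 : ℝ) ≤ 1 := fun _ _ => ⟨one_pos, le_rfl⟩
  have hfd : Deg0 (fR m g) := fun r hr x => by
    simp only [fR, eR_deg hg r hr x, sR_deg r hr x]
  have h := radial_formula hm 3 (f := fR m g) (c := fun _ => 1) measurable_const (fR_meas hg)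
    (fun _ _ _ => rfl) hfd hc1' (fR_bd hg hε0 hle)
  simp only [one_pow, one_mul, Nat.cast_ofNat] at h
  have h2 := ki hg
  have h3 : ∫ x in sig (m + 1), (uu x - cst m * tt x ^ 2) * (g x - tt x)
      = ∫ x in sig (m + 1), (if tt x ≤ 1 then tt x ^ 3 else 0) * fR m g x := by
    apply setIntegral_congr_fun sig_measurable
    intro x hx
    simp only [mem_sig_iff.1 hx, if_true, fR]
    have e1 := tt_sR x
    have e2 := tt_eR hg x
    rw [← e1, ← e2]
    ring
  rw [h3, h] at h2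
  have hpos : (0 : ℝ) < ((m + 1 : ℕ) : ℝ) / (((m + 1 : ℕ) : ℝ) + 3) := by positivity
  by_contra hneg
  push Not at hneg
  have := mul_neg_of_pos_of_neg hpos hneg
  linarith

end

/-- The pointwise inequality in real numbers. -/
lemma point_real {N κ ε E S P Q a : ℝ} (hN : 0 < N) (ha : 0 ≤ a) (e0 : 0 ≤ E) (e1 : E ≤ ε)
    (s0 : 0 ≤ S) (s1 : S ≤ 1) (hε0 : 0 ≤ ε) (hε : ε * (N + 3) ≤ κ)
    (hP : P ≤ 1 - (N + 2) * E + ((N + 2) * (N + 3) / 2) * E ^ 2) (hQ : 1 - N * E ≤ Q) :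
    N * (E * (S - (a + κ))) + (N * κ / 2) * E ≤ N / (N + 2) * (S - P * S) - a * (1 - Q) := by
  have h1 : (1 : ℝ) - Q ≤ N * E := by linarith
  have h2 : N / (N + 2) * (S - P * S) ≥ N * E * S - (N * (N + 3) / 2) * E ^ 2 * S := by
    have hS' : S - P * S = (1 - P) * S := by ring
    rw [hS']
    have h3 : (N + 2) * E - ((N + 2) * (N + 3) / 2) * E ^ 2 ≤ 1 - P := by linarith
    have h4 := mul_le_mul_of_nonneg_right h3 s0
    have h5 : 0 ≤ N / (N + 2) := by positivity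
    have h6 := mul_le_mul_of_nonneg_left h4 h5
    have h7 : N / (N + 2) * (((N + 2) * E - ((N + 2) * (N + 3) / 2) * E ^ 2) * S)
        = N * E * S - (N * (N + 3) / 2) * E ^ 2 * S := by
      field_simp
    linarith
  have h3 : (N * (N + 3) / 2) * E ^ 2 * S ≤ (N * (N + 3) / 2) * (ε * E) := by
    have h4 : E ^ 2 * S ≤ ε * E := by
      have h5 : E ^ 2 * S ≤ E ^ 2 * 1 := mul_le_mul_of_nonneg_left s1 (sq_nonneg _)
      have h6 : E ^ 2 ≤ ε * E := by nlinarith
      linarith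
    have h7 : 0 ≤ N * (N + 3) / 2 := by positivity
    have := mul_le_mul_of_nonneg_left h4 h7
    linarith
  have h4 : (N * (N + 3) / 2) * (ε * E) ≤ (N * κ / 2) * E := by
    have h5 : 0 ≤ N * E / 2 := by positivity
    have := mul_le_mul_of_nonneg_left hε h5
    nlinarith
  have h5 : a * (1 - Q) ≤ a * (N * E) := mul_le_mul_of_nonneg_left h1 ha
  have h6 : N * (E * (S - (a + κ))) = N * E * S - N * E * a - N * E * κ := by ring
  rw [h6]
  nlinarith

section
variable {g : (Fin (m + 1) → ℝ) → ℝ}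

lemma eR_int (hg : Adm m g) {ε : ℝ} (hε0 : 0 ≤ ε) (hle : ∀ x ∈ sig (m + 1), g x ≤ (1 + ε) * tt x) :
    IntegrableOn (eR g) (sig (m + 1)) :=
  bdd_int (eR_meas hg) (C := ε) (fun x hx => by
    rw [abs_of_nonneg (eR_nonneg hg hx)]; exact eR_le hg hε0 hle hx)

lemma sR_int : IntegrableOn (sR : (Fin (m + 1) → ℝ) → ℝ) (sig (m + 1)) :=
  bdd_int sR_meas (C := 1) (fun x _ => by
    rw [abs_of_nonneg (sR_nonneg x)]; exact sR_le x)

lemma cR_pow (hg : Adm m g) (N : ℕ) : ∀ x ∈ sig (m + 1), 0 ≤ cR g x ^ N ∧ cR g x ^ N ≤ 1 :=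
  fun x hx => ⟨pow_nonneg (cR_bd hg x hx).1.le N, pow_le_one₀ (cR_bd hg x hx).1.le (cR_bd hg x hx).2⟩

lemma cRS_int (hg : Adm m g) :
    IntegrableOn (fun x => cR g x ^ (m + 1 + 2) * sR x) (sig (m + 1)) :=
  bdd_int (((cR_meas hg).pow_const _).mul sR_meas) (C := 1) (fun x hx => by
    rw [abs_of_nonneg (mul_nonneg (cR_pow hg _ x hx).1 (sR_nonneg x))]
    exact mul_le_one₀ (cR_pow hg _ x hx).2 (sR_nonneg x) (sR_le x))

lemma cR_int (hg : Adm m g) : IntegrableOn (fun x => cR g x ^ (m + 1)) (sig (m + 1)) :=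
  bdd_int ((cR_meas hg).pow_const _) (C := 1) (fun x hx => by
    rw [abs_of_nonneg (cR_pow hg _ x hx).1]
    exact (cR_pow hg _ x hx).2)

/-- The constant of the second-order term. -/
noncomputable def kap (m : ℕ) : ℝ := 2 / (((m : ℝ) + 1) * ((m : ℝ) + 2) * ((m : ℝ) + 3))

lemma kap_pos : 0 < kap m := by unfold kap; positivity

lemma cst_eq : cst m = 1 / ((m : ℝ) + 2) + kap m := rfl

lemma core_point (hg : Adm m g) {ε : ℝ} (hε0 : 0 ≤ ε)
    (hle : ∀ x ∈ sig (m + 1), g x ≤ (1 + ε) * tt x) (hε : ε * ((m : ℝ) + 4) ≤ kap m) :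
    ∀ x ∈ sig (m + 1), ((m : ℝ) + 1) * fR m g x + (((m : ℝ) + 1) * kap m / 2) * eR g x
      ≤ ((m : ℝ) + 1) / ((m : ℝ) + 1 + 2) * (sR x - cR g x ^ (m + 1 + 2) * sR x)
        - 1 / ((m : ℝ) + 2) * (1 - cR g x ^ (m + 1)) := by
  intro x hx
  have e0 := eR_nonneg hg hx
  have b1 := pow_inv_le e0 (m + 1 + 2)
  have b2 := pow_inv_ge e0 (m + 1)
  have e4 : (m : ℝ) + 4 = (m : ℝ) + 1 + 3 := by ring
  rw [e4] at hε
  unfold fR
  rw [cst_eq]
  apply point_real (by positivity) (by positivity) e0 (eR_le hg hε0 hle hx) (sR_nonneg x) (sR_le x)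
    hε0 hε
  · have e2 : (((m + 1 + 2 : ℕ) : ℝ)) = (m : ℝ) + 1 + 2 := by push_cast; ring
    rw [e2] at b1
    have e3 : ((m : ℝ) + 1 + 2) * ((m : ℝ) + 1 + 2 + 1) / 2
        = ((m : ℝ) + 1 + 2) * ((m : ℝ) + 1 + 3) / 2 := by ring
    rw [e3] at b1
    exact b1
  · have e2 : (((m + 1 : ℕ) : ℝ)) = (m : ℝ) + 1 := by push_cast; ring
    rw [e2] at b2
    exact b2

lemma core_mono (hg : Adm m g) {ε : ℝ} (hε0 : 0 ≤ ε)
    (hle : ∀ x ∈ sig (m + 1), g x ≤ (1 + ε) * tt x) (hε : ε * ((m : ℝ) + 4) ≤ kap m) :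
    ((m : ℝ) + 1) * (∫ x in sig (m + 1), fR m g x)
        + (((m : ℝ) + 1) * kap m / 2) * ∫ x in sig (m + 1), eR g x
      ≤ ((m : ℝ) + 1) / ((m : ℝ) + 1 + 2) * ((∫ x in sig (m + 1), sR x)
          - ∫ x in sig (m + 1), cR g x ^ (m + 1 + 2) * sR x)
        - 1 / ((m : ℝ) + 2) * (v0 (m + 1) - vol (Kg g)) := by
  have hif := bdd_int (fR_meas hg) (fR_bd hg hε0 hle)
  have hie := eR_int hg hε0 hle
  have hi1 : IntegrableOn (fun _ : Fin (m + 1) → ℝ => (1 : ℝ)) (sig (m + 1)) :=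
    cont_int continuous_const
  have hd1 : IntegrableOn (fun x => sR x - cR g x ^ (m + 1 + 2) * sR x) (sig (m + 1)) :=
    sR_int.sub (cRS_int hg)
  have hd2 : IntegrableOn (fun x => (1 : ℝ) - cR g x ^ (m + 1)) (sig (m + 1)) :=
    hi1.sub (cR_int hg)
  have hmono : ∫ x in sig (m + 1), (((m : ℝ) + 1) * fR m g x + (((m : ℝ) + 1) * kap m / 2) * eR g x)
      ≤ ∫ x in sig (m + 1), (((m : ℝ) + 1) / ((m : ℝ) + 1 + 2) * (sR x - cR g x ^ (m + 1 + 2) * sR x)
        - 1 / ((m : ℝ) + 2) * (1 - cR g x ^ (m + 1))) :=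
    setIntegral_mono_on ((hif.const_mul _).add (hie.const_mul _))
      ((hd1.const_mul _).sub (hd2.const_mul _)) sig_measurable
      (core_point hg hε0 hle hε)
  rw [integral_add (hif.const_mul _) (hie.const_mul _), integral_const_mul, integral_const_mul,
    integral_sub (hd1.const_mul _) (hd2.const_mul _),
    integral_const_mul, integral_const_mul, integral_sub sR_int (cRS_int hg),
    integral_sub hi1 (cR_int hg), ← Kg_vol hg] at hmono
  have hv0 : ∫ _x in sig (m + 1), (1 : ℝ) = v0 (m + 1) := mom0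
  rwa [hv0] at hmono

lemma Kg_vol_le (hg : Adm m g) : vol (Kg g) ≤ v0 (m + 1) := by
  have hv0 : ∫ _x in sig (m + 1), (1 : ℝ) = v0 (m + 1) := mom0
  rw [Kg_vol hg, ← hv0]
  apply setIntegral_mono_on (cR_int hg) (cont_int continuous_const) sig_measurable
  intro x hx
  exact (cR_pow hg _ x hx).2

lemma Kg_vol_pos (hg : Adm m g) {ε : ℝ} (hε0 : 0 ≤ ε)
    (hle : ∀ x ∈ sig (m + 1), g x ≤ (1 + ε) * tt x) : 0 < vol (Kg g) := by
  have h1 : ∀ x ∈ sig (m + 1), ((1 + ε)⁻¹) ^ (m + 1) ≤ cR g x ^ (m + 1) := by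
    intro x hx
    apply pow_le_pow_left₀ (by positivity)
    unfold cR
    apply inv_anti₀
    · have := eR_nonneg hg hx; linarith
    · have := eR_le hg hε0 hle hx; linarith
  have h2 := setIntegral_mono_on (cont_int continuous_const) (cR_int hg) sig_measurable h1
  rw [← Kg_vol hg, setIntegral_const] at h2
  have h3 : 0 < (volume.real (sig (m + 1))) • ((1 + ε)⁻¹) ^ (m + 1) := by
    have h4 : 0 < volume.real (sig (m + 1)) := by
      have : volume.real (sig (m + 1)) = vol (sig (m + 1)) := rfl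
      rw [this, sig_vol]
      exact v0_pos
    positivity
  linarith

lemma eR_int_pos (hg : Adm m g) {ε : ℝ} (hε0 : 0 ≤ ε)
    (hle : ∀ x ∈ sig (m + 1), g x ≤ (1 + ε) * tt x) (hne : Kg g ≠ sig (m + 1)) :
    0 < ∫ x in sig (m + 1), eR g x := by
  have hnot : ¬ sig (m + 1) ⊆ Kg g := by
    intro hsub
    exact hne (Set.Subset.antisymm Set.inter_subset_left hsub)
  obtain ⟨x, hx, hxK⟩ := Set.not_subset.1 hnot
  have hgx : 1 < g x := by
    by_contra h
    exact hxK ⟨hx, not_lt.1 h⟩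
  have hg0 : 0 < g x := by linarith
  set r := (1 + g x) / (2 * g x) with hr
  have hr0 : 0 < r := by positivity
  have hr1 : r < 1 := by
    rw [hr, div_lt_one (by positivity)]
    linarith
  let W : Set (Fin (m + 1) → ℝ) := {y | 1 < g y} ∩ ⋂ l, {y | 0 < lam l y}
  have hWo : IsOpen W := by
    apply (isOpen_lt continuous_const hg.cont).inter
    exact isOpen_iInter_of_finite (fun l => isOpen_lt continuous_const (lam_continuous l))
  have hWn : W.Nonempty := by
    refine ⟨hom r x, ?_, ?_⟩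
    · simp only [mem_setOf_eq]
      rw [hg.homog r hr0.le, hr]
      field_simp
      linarith
    · simp only [mem_iInter, mem_setOf_eq]
      intro l
      rw [lam_hom]
      have := hx l
      have h3 : 0 < (1 - r) * (1 / (((m + 1 : ℕ) : ℝ) + 1)) := by
        apply mul_pos (by linarith)
        positivity
      have h4 : 0 ≤ r * lam l x := mul_nonneg hr0.le this
      linarith
  have hWv : 0 < volume W := hWo.measure_pos volume hWn
  have hWsub : W ⊆ Function.support (eR g) ∩ sig (m + 1) := by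
    rintro y ⟨hy1, hy2⟩
    have hy1' : 1 < g y := hy1
    have hys : y ∈ sig (m + 1) := by
      intro l
      have := Set.mem_iInter.1 hy2 l
      exact le_of_lt this
    refine ⟨?_, hys⟩
    have ht : 0 < tt y := by
      apply lt_of_le_of_ne (tt_nonneg y)
      intro h0
      have := tt_eR hg y
      rw [← h0, zero_mul] at this
      linarith
    have ht1 := mem_sig_iff.1 hys
    have : 0 < eR g y := by
      unfold eR
      apply div_pos _ ht
      linarith
    exact this.ne'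
  have h3 : 0 < volume (Function.support (eR g) ∩ sig (m + 1)) :=
    lt_of_lt_of_le hWv (measure_mono hWsub)
  exact (setIntegral_pos_iff_support_of_nonneg_ae
    ((ae_restrict_iff' sig_measurable).2 (Filter.Eventually.of_forall (fun x hx => eR_nonneg hg hx)))
    (eR_int hg hε0 hle)).2 h3

/-- The core inequality for an admissible radial function close to the gauge of the simplex. -/
theorem core (hg : Adm m g) {ε : ℝ} (hε0 : 0 ≤ ε)
    (hle : ∀ x ∈ sig (m + 1), g x ≤ (1 + ε) * tt x) (hε : ε * ((m : ℝ) + 4) ≤ kap m) :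
    0 < vol (Kg g) ∧ vol (Kg g) ≤ v0 (m + 1) ∧ isoD (Kg g) ≤ CC (m + 1) ∧
      (Kg g ≠ sig (m + 1) → isoD (Kg g) < CC (m + 1)) := by
  have hm : 0 < m + 1 := Nat.succ_pos m
  have hVpos := Kg_vol_pos hg hε0 hle
  have hVle := Kg_vol_le hg (m := m)
  have hmono := core_mono hg hε0 hle hε
  have hIf := fR_int_nonneg hg hε0 hle
  have hcrit := crit hm (Kg_compact hg) hVpos hVle
  have hN0 : ((m + 1 : ℕ) : ℝ) = (m : ℝ) + 1 := by push_cast; ring
  have hval : v0 (m + 1) * ((m + 1 : ℕ) : ℝ) / ((((m + 1 : ℕ) : ℝ) + 1) * (((m + 1 : ℕ) : ℝ) + 2))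
      = ∫ x in sig (m + 1), uu x := sig_uu.symm
  rw [hval, hN0, sig_uu_sR, Kg_uu hg] at hcrit
  have e1 : (m : ℝ) + 1 + 1 = (m : ℝ) + 2 := by ring
  rw [e1] at hcrit
  have hdiv : (v0 (m + 1) - vol (Kg g)) / ((m : ℝ) + 2)
      = 1 / ((m : ℝ) + 2) * (v0 (m + 1) - vol (Kg g)) := by ring
  rw [hdiv] at hcrit
  set A := ((m : ℝ) + 1) / ((m : ℝ) + 1 + 2) with hA
  set I1 := ∫ x in sig (m + 1), sR x with hI1
  set I2 := ∫ x in sig (m + 1), cR g x ^ (m + 1 + 2) * sR x with hI2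
  set Ie := ∫ x in sig (m + 1), eR g x with hIe
  set If := ∫ x in sig (m + 1), fR m g x with hIf'
  have hNκ : 0 < ((m : ℝ) + 1) * kap m / 2 := by
    have := kap_pos (m := m)
    positivity
  have hIe0 : 0 ≤ Ie := setIntegral_nonneg sig_measurable (fun x hx => eR_nonneg hg hx)
  have hNf : 0 ≤ ((m : ℝ) + 1) * If := by positivity
  have e3 : A * (I1 - I2) = A * I1 - A * I2 := by ring
  rw [e3] at hmono
  have hZle : A * I2 ≤ A * I1 - 1 / ((m : ℝ) + 2) * (v0 (m + 1) - vol (Kg g)) := by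
    have := mul_nonneg hNκ.le hIe0
    linarith
  obtain ⟨h1, h2⟩ := hcrit hZle
  refine ⟨hVpos, hVle, h1, ?_⟩
  intro hne
  apply h2
  have hpos := eR_int_pos hg hε0 hle hne
  have hstrict := mul_pos hNκ hpos
  linarith

end

end P254
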