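import Vale.Agent.P254.Top

open MeasureTheory Set Finset Real
open scoped BigOperators Pointwise

namespace P254

variable {n : ℕ}

/-- Squared distance from the centroid in the isotropic metric of the standard simplex. -/
noncomputable def uu (x : Fin n → ℝ) : ℝ := ∑ l, (lam l x - 1 / ((n : ℝ) + 1)) ^ 2

lemma uu_eq (x : Fin n → ℝ) :
    uu x = ∑ i, (x i - 1 / ((n : ℝ) + 1)) ^ 2 + (∑ i, (x i - 1 / ((n : ℝ) + 1))) ^ 2 := by
  unfold uu
  rw [Fin.sum_univ_succ, lam_zero]
  simp only [lam_succ]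
  have hn : ((n : ℝ) + 1) ≠ 0 := by positivity
  have h : 1 - ∑ i, x i - 1 / ((n : ℝ) + 1) = -∑ i, (x i - 1 / ((n : ℝ) + 1)) := by
    rw [Finset.sum_sub_distrib]
    simp only [Finset.sum_const, Finset.card_univ, Fintype.card_fin, nsmul_eq_mul]
    field_simp
    ring
  rw [h]
  ring

lemma uu_continuous : Continuous (uu : (Fin n → ℝ) → ℝ) := by
  have : (uu : (Fin n → ℝ) → ℝ) = fun x =>
      ∑ i, (x i - 1 / ((n : ℝ) + 1)) ^ 2 + (∑ i, (x i - 1 / ((n : ℝ) + 1))) ^ 2 := by
    ext x; exact uu_eq x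
  rw [this]
  fun_prop

lemma prod_le_mean_pow (hn : 0 < n) (z : Fin n → ℝ) (hz : ∀ i, 0 ≤ z i) :
    ∏ i, z i ≤ ((∑ i, z i) / n) ^ n := by
  have hn' : (n : ℝ) ≠ 0 := by positivity
  have h := Real.geom_mean_le_arith_mean_weighted Finset.univ (fun _ : Fin n => (1 : ℝ) / n) z
    (fun _ _ => by positivity) (by simp; field_simp) (fun i _ => hz i)
  have hs : ∑ i, ((1 : ℝ) / n) * z i = (∑ i, z i) / n := by
    rw [← Finset.mul_sum]; ring
  rw [hs] at h
  have h0 : 0 ≤ ∏ i, z i ^ ((1 : ℝ) / n) := Finset.prod_nonneg (fun i _ => Real.rpow_nonneg (hz i) _)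
  calc ∏ i, z i = (∏ i, z i ^ ((1 : ℝ) / n)) ^ n := by
        rw [← Finset.prod_pow]
        apply Finset.prod_congr rfl
        intro i _
        rw [← Real.rpow_natCast, ← Real.rpow_mul (hz i)]
        have : (1 : ℝ) / n * n = 1 := by field_simp
        rw [this, Real.rpow_one]
    _ ≤ _ := pow_le_pow_left₀ h0 h n

lemma det_le_trace_pow (hn : 0 < n) {H : Matrix (Fin n) (Fin n) ℝ} (hH : H.PosSemidef) :
    H.det ≤ (H.trace / n) ^ n := by
  rw [hH.1.det_eq_prod_eigenvalues, hH.1.trace_eq_sum_eigenvalues]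
  simpa using prod_le_mean_pow hn _ hH.eigenvalues_nonneg

lemma cov_bilin {K : Set (Fin n → ℝ)} (hK : IsCompact K) (v w : Fin n → ℝ) :
    ∑ i, ∑ j, v i * w j * cov K i j = (vol K)⁻¹ *
      ∫ x in K, (∑ i, v i * (x i - centroid K i)) * (∑ j, w j * (x j - centroid K j)) := by
  have hint : ∀ i j, IntegrableOn
      (fun x : Fin n → ℝ => (x i - centroid K i) * (x j - centroid K j)) K :=
    fun i j => cont_int_K hK (by fun_prop)
  have e1 : ∀ x : Fin n → ℝ, (∑ i, v i * (x i - centroid K i)) * (∑ j, w j * (x j - centroid K j))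
      = ∑ i, ∑ j, v i * w j * ((x i - centroid K i) * (x j - centroid K j)) := by
    intro x
    rw [Finset.sum_mul_sum]
    apply Finset.sum_congr rfl; intro i _
    apply Finset.sum_congr rfl; intro j _
    ring
  simp only [e1]
  rw [integral_finset_sum _ (fun i _ => integrable_finset_sum _ (fun j _ => (hint i j).const_mul _))]
  simp only [integral_finset_sum _ (fun j _ => (hint _ j).const_mul _), integral_const_mul]
  rw [Finset.mul_sum]
  apply Finset.sum_congr rfl; intro i _
  rw [Finset.mul_sum]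
  apply Finset.sum_congr rfl; intro j _
  simp only [cov, Matrix.of_apply]
  ring

lemma vol_nonneg (K : Set (Fin n → ℝ)) : 0 ≤ vol K := ENNReal.toReal_nonneg

lemma cov_posSemidef {K : Set (Fin n → ℝ)} (hK : IsCompact K) : (cov K).PosSemidef := by
  apply Matrix.PosSemidef.of_dotProduct_mulVec_nonneg
  · ext i j
    simp only [Matrix.conjTranspose_apply, star_trivial, cov, Matrix.of_apply]
    congr 2
    ext x
    ring
  · intro v
    have h := cov_bilin hK v v
    have e : star v ⬝ᵥ (cov K).mulVec v = ∑ i, ∑ j, v i * v j * cov K i j := by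
      simp only [dotProduct, Matrix.mulVec, star_trivial, Finset.mul_sum]
      apply Finset.sum_congr rfl; intro i _
      apply Finset.sum_congr rfl; intro j _
      ring
    rw [e, h]
    apply mul_nonneg (inv_nonneg.2 (vol_nonneg K))
    apply integral_nonneg
    intro x
    exact mul_self_nonneg _

/-- The trace form. -/
lemma trace_form {K : Set (Fin n → ℝ)} (hK : IsCompact K) :
    ∑ i, cov K i i + ∑ i, ∑ j, cov K i j = (vol K)⁻¹ *
      ∫ x in K, (∑ i, (x i - centroid K i) ^ 2 + (∑ i, (x i - centroid K i)) ^ 2) := by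
  have h := cov_bilin hK (fun _ => 1) (fun _ => 1)
  simp only [one_mul] at h
  rw [h, integral_add (cont_int_K hK (by fun_prop)) (cont_int_K hK (by fun_prop)), mul_add,
    integral_finset_sum _ (fun i _ => cont_int_K hK (by fun_prop)), Finset.mul_sum]
  congr 1
  · apply Finset.sum_congr rfl; intro i _
    simp only [cov, Matrix.of_apply, sq]
  · congr 2
    ext x
    ring

lemma centered_integral {K : Set (Fin n → ℝ)} (hK : IsCompact K) (hv : vol K ≠ 0) (i : Fin n) :
    ∫ x in K, (x i - centroid K i) = 0 := by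
  rw [integral_sub (cont_int_K hK (by fun_prop)) (cont_int_K hK continuous_const), int_const]
  simp only [centroid]
  field_simp
  ring

/-- Variance is minimal at the centroid. -/
lemma variance_le {K : Set (Fin n → ℝ)} (hK : IsCompact K) (hv : vol K ≠ 0) :
    ∫ x in K, (∑ i, (x i - centroid K i) ^ 2 + (∑ i, (x i - centroid K i)) ^ 2)
      ≤ ∫ x in K, uu x := by
  set β : ℝ := 1 / ((n : ℝ) + 1) with hβ
  set d : Fin n → ℝ := fun i => centroid K i - β with hd
  set D : ℝ := ∑ i, d i with hD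
  set Qd : ℝ := ∑ i, d i ^ 2 + D ^ 2 with hQd
  have hpt : ∀ x : Fin n → ℝ, uu x
      = (∑ i, (x i - centroid K i) ^ 2 + (∑ i, (x i - centroid K i)) ^ 2)
        + (2 * ∑ i, d i * (x i - centroid K i) + 2 * D * ∑ i, (x i - centroid K i) + Qd) := by
    intro x
    have hue := uu_eq x
    rw [← hβ] at hue
    rw [hue]
    have h1 : ∀ i, x i - β = (x i - centroid K i) + d i := by
      intro i; simp only [hd]; ring
    simp only [h1]
    rw [Finset.sum_add_distrib (f := fun i => x i - centroid K i) (g := d)]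
    have h2 : ∑ i, ((x i - centroid K i) + d i) ^ 2
        = ∑ i, (x i - centroid K i) ^ 2 + 2 * ∑ i, d i * (x i - centroid K i) + ∑ i, d i ^ 2 := by
      rw [Finset.mul_sum, ← Finset.sum_add_distrib, ← Finset.sum_add_distrib]
      apply Finset.sum_congr rfl; intro i _
      ring
    rw [h2, hQd]
    ring
  simp only [hpt]
  have hc1 : Continuous (fun x : Fin n → ℝ =>
      ∑ i, (x i - centroid K i) ^ 2 + (∑ i, (x i - centroid K i)) ^ 2) := by fun_prop
  have hc2 : Continuous (fun x : Fin n → ℝ =>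
      2 * ∑ i, d i * (x i - centroid K i) + 2 * D * ∑ i, (x i - centroid K i) + Qd) := by fun_prop
  rw [integral_add (cont_int_K hK hc1) (cont_int_K hK hc2)]
  have hz : ∫ x in K, (2 * ∑ i, d i * (x i - centroid K i) + 2 * D * ∑ i, (x i - centroid K i) + Qd)
      = vol K * Qd := by
    rw [integral_add (cont_int_K hK (by fun_prop)) (cont_int_K hK continuous_const),
      integral_add (cont_int_K hK (by fun_prop)) (cont_int_K hK (by fun_prop)),
      integral_const_mul, integral_const_mul,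
      integral_finset_sum _ (fun i _ => (cont_int_K hK (by fun_prop)).const_mul _),
      integral_finset_sum _ (fun i _ => cont_int_K hK (by fun_prop)), int_const]
    simp only [integral_const_mul, centered_integral hK hv]
    simp
  rw [hz]
  have : 0 ≤ vol K * Qd := mul_nonneg (vol_nonneg K) (by rw [hQd]; positivity)
  linarith

/-- The `S` matrix: a symmetric square root of `1 + 𝟏𝟏ᵀ`. -/
noncomputable def SS (n : ℕ) : Matrix (Fin n) (Fin n) ℝ :=
  Matrix.of fun i j => (if i = j then 1 else 0) + (√((n : ℝ) + 1) - 1) / n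

lemma SS_sq (hn : 0 < n) (i j : Fin n) :
    ((SS n).transpose * SS n) i j = (if i = j then 1 else 0) + 1 := by
  have hn' : (n : ℝ) ≠ 0 := by positivity
  have hs : √((n : ℝ) + 1) ^ 2 = (n : ℝ) + 1 := Real.sq_sqrt (by positivity)
  set θ : ℝ := (√((n : ℝ) + 1) - 1) / n with hθ
  have hθ' : (n : ℝ) * θ ^ 2 + 2 * θ = 1 := by
    rw [hθ]
    field_simp
    nlinarith
  simp only [Matrix.mul_apply, Matrix.transpose_apply, SS, Matrix.of_apply, ← hθ]
  have : ∀ k : Fin n, ((if k = i then (1 : ℝ) else 0) + θ) * ((if k = j then 1 else 0) + θ)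
      = (if k = i then 1 else 0) * (if k = j then 1 else 0) + θ * (if k = i then 1 else 0)
        + θ * (if k = j then 1 else 0) + θ ^ 2 := by
    intro k; ring
  simp only [this, Finset.sum_add_distrib, ← Finset.mul_sum, Finset.sum_ite_eq', Finset.mem_univ,
    if_true, Finset.sum_const, Finset.card_univ, Fintype.card_fin, nsmul_eq_mul, mul_one]
  have h2 : ∑ k : Fin n, (if k = i then (1 : ℝ) else 0) * (if k = j then 1 else 0)
      = if i = j then 1 else 0 := by
    by_cases h : i = j
    · subst h; simp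
    · rw [if_neg h]
      apply Finset.sum_eq_zero
      intro k _
      by_cases hk : k = i
      · subst hk; simp [h]
      · simp [hk]
  rw [h2]
  linear_combination hθ'

lemma SS_det_sq (hn : 0 < n) : (SS n).det ^ 2 = (n : ℝ) + 1 := by
  have h1 : (SS n).transpose * SS n = 1 + Matrix.vecMulVec (fun _ => (1 : ℝ)) (fun _ => 1) := by
    ext i j
    rw [SS_sq hn, Matrix.add_apply, Matrix.one_apply, Matrix.vecMulVec_apply]
    simp
  have h2 := congrArg Matrix.det h1
  rw [Matrix.det_mul, Matrix.det_transpose, Matrix.vecMulVec_eq Unit,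
    Matrix.det_one_add_replicateCol_mul_replicateRow] at h2
  simp [dotProduct] at h2
  rw [sq, h2]
  ring

lemma SS_trace (hn : 0 < n) (C : Matrix (Fin n) (Fin n) ℝ) :
    (SS n * C * (SS n).transpose).trace = ∑ i, C i i + ∑ i, ∑ j, C i j := by
  rw [Matrix.trace_mul_comm, ← Matrix.mul_assoc, Matrix.trace]
  simp only [Matrix.diag_apply, Matrix.mul_apply, SS_sq hn]
  have : ∀ i k : Fin n, ((if i = k then (1 : ℝ) else 0) + 1) * C k i
      = (if i = k then C k i else 0) + C k i := by
    intro i k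
    by_cases h : i = k
    · simp only [h, if_true]; ring
    · simp [h]
  simp only [this, Finset.sum_add_distrib, Finset.sum_ite_eq, Finset.mem_univ, if_true]
  rw [Finset.sum_comm]

/-- The inequality of arithmetic and geometric means for the covariance matrix. -/
theorem det_cov_le (hn : 0 < n) {K : Set (Fin n → ℝ)} (hK : IsCompact K) (hv : 0 < vol K) :
    ((n : ℝ) + 1) * (cov K).det ≤ ((∫ x in K, uu x) / ((n : ℝ) * vol K)) ^ n := by
  have hP := (cov_posSemidef hK).mul_mul_conjTranspose_same (SS n)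
  have h1 := det_le_trace_pow hn hP
  have hconj : (SS n).conjTranspose = (SS n).transpose := by
    ext i j; simp [Matrix.conjTranspose_apply]
  rw [hconj, SS_trace hn, Matrix.det_mul, Matrix.det_mul, Matrix.det_transpose, trace_form hK] at h1
  have hn' : (0 : ℝ) < n := by exact_mod_cast hn
  have h2 : (vol K)⁻¹ * ∫ x in K, (∑ i, (x i - centroid K i) ^ 2 + (∑ i, (x i - centroid K i)) ^ 2)
      ≤ (vol K)⁻¹ * ∫ x in K, uu x :=
    mul_le_mul_of_nonneg_left (variance_le hK hv.ne') (inv_nonneg.2 hv.le)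
  have h3 : 0 ≤ (vol K)⁻¹ * ∫ x in K, (∑ i, (x i - centroid K i) ^ 2 + (∑ i, (x i - centroid K i)) ^ 2) :=
    mul_nonneg (inv_nonneg.2 hv.le) (integral_nonneg (fun x => by positivity))
  calc ((n : ℝ) + 1) * (cov K).det = (SS n).det * (cov K).det * (SS n).det := by
        rw [← SS_det_sq hn]; ring
    _ ≤ _ := h1
    _ ≤ (((vol K)⁻¹ * ∫ x in K, uu x) / n) ^ n := by
        apply pow_le_pow_left₀ (div_nonneg h3 hn'.le)
        exact div_le_div_of_nonneg_right h2 hn'.le
    _ = _ := by
        congr 1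
        field_simp

lemma sig_uu : ∫ x in sig n, uu x = v0 n * n / (((n : ℝ) + 1) * (n + 2)) := by
  have hn : ((n : ℝ) + 1) ≠ 0 := by positivity
  have hn2 : ((n : ℝ) + 2) ≠ 0 := by positivity
  have e : ∀ x : Fin n → ℝ, uu x = ∑ l : Fin (n + 1), (lam l x * lam l x
      - 2 / ((n : ℝ) + 1) * lam l x + 1 / ((n : ℝ) + 1) ^ 2) := by
    intro x
    unfold uu
    apply Finset.sum_congr rfl
    intro l _
    field_simp
    ring
  simp only [e]
  have hc : ∀ l : Fin (n + 1), Continuous (lam l : (Fin n → ℝ) → ℝ) := lam_continuous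
  rw [integral_finset_sum _ (fun l _ => cont_int (by have := hc l; fun_prop))]
  have h1 : ∀ l : Fin (n + 1), ∫ x in sig n, (lam l x * lam l x
      - 2 / ((n : ℝ) + 1) * lam l x + 1 / ((n : ℝ) + 1) ^ 2)
      = v0 n * 2 / (((n : ℝ) + 1) * (n + 2)) - 2 / ((n : ℝ) + 1) * (v0 n / ((n : ℝ) + 1))
        + v0 n * (1 / ((n : ℝ) + 1) ^ 2) := by
    intro l
    have c1 := hc l
    rw [integral_add (cont_int (by fun_prop)) (cont_int continuous_const),
      integral_sub (cont_int (by fun_prop)) (cont_int (by fun_prop)), integral_const_mul,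
      lam_mom1, lam_mom2, int_const, vol_eq_integral, mom0]
    simp only [if_true]
    unfold v0
    ring
  simp only [h1, Finset.sum_const, Finset.card_univ, Fintype.card_fin, nsmul_eq_mul]
  push_cast
  field_simp
  ring

lemma bernoulli_key (hn : 0 < n) {w : ℝ} (hw0 : 0 ≤ w) (hw1 : w ≤ 1)
    (hq : 0 ≤ 1 - ((n : ℝ) + 2) / n * (1 - w)) :
    (1 - ((n : ℝ) + 2) / n * (1 - w)) ^ n ≤ w ^ (n + 2) := by
  have hn' : (0 : ℝ) < n := by exact_mod_cast hn
  have hp : (1 : ℝ) ≤ ((n : ℝ) + 2) / n := by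
    rw [le_div_iff₀ hn']; linarith
  have hb := one_add_mul_self_le_rpow_one_add (s := w - 1) (by linarith) hp
  have e1 : 1 + ((n : ℝ) + 2) / n * (w - 1) = 1 - ((n : ℝ) + 2) / n * (1 - w) := by ring
  have e2 : 1 + (w - 1) = w := by ring
  rw [e1, e2] at hb
  calc (1 - ((n : ℝ) + 2) / n * (1 - w)) ^ n
      ≤ (w ^ (((n : ℝ) + 2) / n)) ^ n := pow_le_pow_left₀ hq hb n
    _ = w ^ (n + 2) := by
        rw [← Real.rpow_natCast, ← Real.rpow_mul hw0, ← Real.rpow_natCast]
        congr 1
        push_cast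
        field_simp

/-- The linear criterion: if the second moment of `K` about the centroid of the standard simplex
is at most the stated linear function of its volume then `det Cov / vol ^ 2` does not exceed the
value on the simplex. -/
theorem crit (hn : 0 < n) {K : Set (Fin n → ℝ)} (hK : IsCompact K) (hV : 0 < vol K)
    (hVle : vol K ≤ v0 n) (hZ : ∫ x in K, uu x
      ≤ v0 n * n / (((n : ℝ) + 1) * (n + 2)) - (v0 n - vol K) / ((n : ℝ) + 1)) :
    isoD K ≤ CC n ∧ (∫ x in K, uu x
      < v0 n * n / (((n : ℝ) + 1) * (n + 2)) - (v0 n - vol K) / ((n : ℝ) + 1) → isoD K < CC n) := by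
  have hn' : (0 : ℝ) < n := by exact_mod_cast hn
  have hv0 := v0_pos (n := n)
  set V := vol K with hVdef
  set Z := ∫ x in K, uu x with hZdef
  have hZ0 : 0 ≤ Z := integral_nonneg (fun x => Finset.sum_nonneg (fun l _ => sq_nonneg _))
  set w := V / v0 n with hw
  have hw0 : 0 < w := div_pos hV hv0
  have hw1 : w ≤ 1 := (div_le_one hv0).2 hVle
  have hVw : V = v0 n * w := by rw [hw]; field_simp
  set q := 1 - ((n : ℝ) + 2) / n * (1 - w) with hq
  set N := ((n : ℝ) + 1) * (n + 2) with hN
  have hNpos : 0 < N := by positivity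
  have hZ1 : v0 n * n / N - (v0 n - V) / ((n : ℝ) + 1) = v0 n * n / N * q := by
    rw [hVw, hq, hN]
    field_simp
  rw [hZ1] at hZ ⊢
  have hq0 : 0 ≤ q := by
    have : 0 ≤ v0 n * n / N * q := hZ0.trans hZ
    by_contra hneg
    push Not at hneg
    have hpos : 0 < v0 n * n / N := by positivity
    nlinarith
  have hb := bernoulli_key hn hw0.le hw1 hq0
  have hdet := det_cov_le hn hK hV
  rw [← hVdef, ← hZdef] at hdet
  have hn1 : (0 : ℝ) < (n : ℝ) + 1 := by positivity
  have hpowpos : 0 < ((n : ℝ) + 1) := hn1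
  have hfin : ∀ Y : ℝ, 0 ≤ Y → Y ≤ v0 n * n / N * q →
      (Y / ((n : ℝ) * V)) ^ n / ((n : ℝ) + 1) / V ^ 2 ≤ CC n := by
    intro Y hY0 hYle
    have h1 : Y / ((n : ℝ) * V) ≤ q / (N * w) := by
      rw [div_le_div_iff₀ (by positivity) (by positivity)]
      rw [hVw]
      have : Y * (N * w) ≤ (v0 n * n / N * q) * (N * w) :=
        mul_le_mul_of_nonneg_right hYle (by positivity)
      calc Y * (N * w) ≤ (v0 n * n / N * q) * (N * w) := this
        _ = q * (↑n * (v0 n * w)) := by field_simp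
    have h2 : (Y / ((n : ℝ) * V)) ^ n ≤ (q / (N * w)) ^ n :=
      pow_le_pow_left₀ (by positivity) h1 n
    unfold CC
    rw [← hN, hVw]
    calc (Y / ((n : ℝ) * (v0 n * w))) ^ n / ((n : ℝ) + 1) / (v0 n * w) ^ 2
        = (Y / ((n : ℝ) * V)) ^ n / (((n : ℝ) + 1) * (v0 n) ^ 2 * w ^ 2) := by
          rw [hVw]; field_simp
      _ ≤ (q / (N * w)) ^ n / (((n : ℝ) + 1) * (v0 n) ^ 2 * w ^ 2) :=
          div_le_div_of_nonneg_right h2 (by positivity)
      _ = (q ^ n / w ^ (n + 2)) * ((1 / N) ^ n / (((n : ℝ) + 1) * (v0 n) ^ 2)) := by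
          rw [div_pow, mul_pow, pow_add, one_div, inv_pow]
          field_simp
      _ ≤ 1 * ((1 / N) ^ n / (((n : ℝ) + 1) * (v0 n) ^ 2)) := by
          apply mul_le_mul_of_nonneg_right _ (by positivity)
          rw [div_le_one (by positivity)]
          exact hb
      _ = _ := one_mul _
  have hVpos : 0 < V ^ 2 := by positivity
  have hD : isoD K ≤ (Z / ((n : ℝ) * V)) ^ n / ((n : ℝ) + 1) / V ^ 2 := by
    unfold isoD
    rw [← hVdef]
    apply div_le_div_of_nonneg_right _ hVpos.le
    rw [le_div_iff₀ hn1]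
    linarith
  refine ⟨hD.trans (hfin Z hZ0 hZ), fun hlt => ?_⟩
  refine lt_of_lt_of_le (lt_of_le_of_lt hD ?_) (hfin _ (le_trans hZ0 hlt.le) le_rfl)
  apply div_lt_div_of_pos_right _ hVpos
  apply div_lt_div_of_pos_right _ hn1
  apply pow_lt_pow_left₀ _ (by positivity) hn.ne'
  exact div_lt_div_of_pos_right hlt (by positivity)

end P254
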