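import Vale.Agent.P254.Basic

open MeasureTheory Set Finset Real
open scoped BigOperators Pointwise

namespace P254

variable {n : ℕ}

/-- The vertices of the standard simplex. -/
noncomputable def ee (l : Fin (n + 1)) (i : Fin n) : ℝ := if l = i.succ then 1 else 0

lemma ee_zero (i : Fin n) : ee (0 : Fin (n + 1)) i = 0 := by
  simp [ee, (Fin.succ_ne_zero i).symm]

lemma ee_succ (j i : Fin n) : ee j.succ i = if j = i then 1 else 0 := by
  simp [ee, Fin.succ_inj]

lemma lam_ee (l k : Fin (n + 1)) : lam l (ee k : Fin n → ℝ) = if l = k then 1 else 0 := by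
  refine Fin.cases ?_ (fun i => ?_) l
  · refine Fin.cases ?_ (fun j => ?_) k
    · simp [lam_zero, ee_zero]
    · simp [lam_zero, ee_succ, (Fin.succ_ne_zero j).symm]
  · refine Fin.cases ?_ (fun j => ?_) k
    · simp [lam_succ, ee_zero, Fin.succ_ne_zero]
    · simp only [lam_succ, ee_succ, Fin.succ_inj]
      by_cases h : i = j
      · simp [h]
      · simp [h, Ne.symm h]

lemma bary_sum (x : Fin n → ℝ) : ∑ l, lam l x • (ee l : Fin n → ℝ) = x := by
  ext i
  rw [Finset.sum_apply, Fin.sum_univ_succ]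
  simp [ee_zero, ee_succ, lam_succ]

lemma lam_T (l k : Fin (n + 1)) (t p : Fin n → ℝ) (s : ℝ) :
    lam l (t + s • (p - ee k)) = lam l t + s * (lam l p - lam l (ee k)) := by
  refine Fin.cases ?_ (fun i => ?_) l
  · simp only [lam_zero, Pi.add_apply, Pi.smul_apply, Pi.sub_apply, smul_eq_mul,
      Finset.sum_add_distrib, ← Finset.mul_sum, Finset.sum_sub_distrib]
    ring
  · simp only [lam_succ, Pi.add_apply, Pi.smul_apply, Pi.sub_apply, smul_eq_mul]

lemma lam_convex (l : Fin (n + 1)) (x y : Fin n → ℝ) {a b : ℝ} (hab : a + b = 1) :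
    lam l (a • x + b • y) = a * lam l x + b * lam l y := by
  refine Fin.cases ?_ (fun i => ?_) l
  · simp only [lam_zero, Pi.add_apply, Pi.smul_apply, smul_eq_mul,
      Finset.sum_add_distrib, ← Finset.mul_sum]
    have : (1 : ℝ) = a + b := hab.symm
    nth_rewrite 1 [this]
    ring
  · simp only [lam_succ, Pi.add_apply, Pi.smul_apply, smul_eq_mul]

/-- The gradient of a barycentric coordinate. -/
noncomputable def gr (k : Fin (n + 1)) (i : Fin n) : ℝ :=
  lam k (Pi.single i 1 : Fin n → ℝ) - lam k (0 : Fin n → ℝ)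

lemma lam_affine (k : Fin (n + 1)) (t : Fin n → ℝ) :
    lam k t = lam k 0 + ∑ i, gr k i * t i := by
  refine Fin.cases ?_ (fun j => ?_) k
  · simp [lam_zero, gr, Finset.sum_neg_distrib]
    ring
  · simp only [lam_succ, gr, Pi.zero_apply, sub_zero, zero_add]
    rw [Finset.sum_eq_single j]
    · simp
    · intro b _ hb; simp [Pi.single_apply, hb.symm]
    · simp

/-- The affine map that moves `e_k` to `p` and fixes the other vertices. -/
noncomputable def Tk (p : Fin n → ℝ) (k : Fin (n + 1)) (t : Fin n → ℝ) : Fin n → ℝ :=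
  t + lam k t • (p - ee k)

/-- Its matrix. -/
noncomputable def Ak (p : Fin n → ℝ) (k : Fin (n + 1)) : Matrix (Fin n) (Fin n) ℝ :=
  1 + Matrix.vecMulVec (p - ee k) (gr k)

lemma vecMul_apply (q g t : Fin n → ℝ) :
    (Matrix.vecMulVec q g).mulVec t = (∑ j, g j * t j) • q := by
  ext i
  simp only [Matrix.mulVec, dotProduct, Matrix.vecMulVec_apply, Pi.smul_apply, smul_eq_mul,
    Finset.sum_mul, Finset.mul_sum]
  apply Finset.sum_congr rfl
  intro j _
  ring

lemma Tk_eq_aff (p : Fin n → ℝ) (k : Fin (n + 1)) :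
    Tk p k = aff (Ak p k) (lam k 0 • (p - ee k)) := by
  ext t i
  have h := lam_affine k t
  simp only [Tk, aff, Ak, Matrix.add_mulVec, Matrix.one_mulVec, vecMul_apply]
  rw [h, add_smul]
  simp only [Pi.add_apply]
  ring

lemma Ak_det (p : Fin n → ℝ) (k : Fin (n + 1)) : (Ak p k).det = lam k p := by
  unfold Ak
  rw [Matrix.vecMulVec_eq Unit, Matrix.det_one_add_replicateCol_mul_replicateRow]
  have h1 := lam_affine k (p - ee k)
  have h2 := lam_T k k 0 p 1
  simp only [zero_add, one_smul, one_mul, lam_ee, if_true] at h2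
  simp only [dotProduct]
  linarith

lemma lam_Tk (p : Fin n → ℝ) (l k : Fin (n + 1)) (t : Fin n → ℝ) :
    lam l (Tk p k t) = lam l t + lam k t * (lam l p - if l = k then 1 else 0) := by
  unfold Tk
  rw [lam_T, lam_ee]

/-- The convex hull of the vertices and `p`. -/
def K0 (p : Fin n → ℝ) : Set (Fin n → ℝ) := convexHull ℝ (insert p (range ee))

/-- Its description by inequalities. -/
def Kp (p : Fin n → ℝ) : Set (Fin n → ℝ) := {x | ∃ s : ℝ, 0 ≤ s ∧ ∀ l, s * lam l p ≤ lam l x}

/-- The pieces. -/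
def Sk (p : Fin n → ℝ) (k : Fin (n + 1)) : Set (Fin n → ℝ) := Tk p k '' sig n

/-- The pieces by inequalities. -/
def Sk' (p : Fin n → ℝ) (k : Fin (n + 1)) : Set (Fin n → ℝ) :=
  {x | 0 ≤ lam k x / lam k p ∧ ∀ l, (lam k x / lam k p) * lam l p ≤ lam l x}

lemma Kp_convex (p : Fin n → ℝ) : Convex ℝ (Kp p) := by
  rintro x ⟨s, hs, hx⟩ y ⟨s', hs', hy⟩ a b ha hb hab
  refine ⟨a * s + b * s', by positivity, fun l => ?_⟩
  rw [lam_convex l x y hab]
  have := mul_le_mul_of_nonneg_left (hx l) ha
  have := mul_le_mul_of_nonneg_left (hy l) hb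
  nlinarith

lemma K0_sub (p : Fin n → ℝ) : K0 p ⊆ Kp p := by
  apply convexHull_min _ (Kp_convex p)
  rintro x (rfl | ⟨l, rfl⟩)
  · exact ⟨1, zero_le_one, fun l => by simp⟩
  · refine ⟨0, le_rfl, fun m => ?_⟩
    rw [zero_mul, lam_ee]
    split_ifs <;> norm_num

lemma Kp_sub (p : Fin n → ℝ) : Kp p ⊆ K0 p := by
  rintro x ⟨s, hs, hx⟩
  classical
  let W : Option (Fin (n + 1)) → ℝ := fun o => o.elim s (fun l => lam l x - s * lam l p)
  let Z : Option (Fin (n + 1)) → (Fin n → ℝ) := fun o => o.elim p ee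
  have h := (convex_convexHull ℝ (insert p (range (ee : Fin (n + 1) → Fin n → ℝ)))).sum_mem
    (t := Finset.univ) (w := W) (z := Z) ?_ ?_ ?_
  · have hxe : ∑ o, W o • Z o = x := by
      rw [Fintype.sum_option]
      simp only [W, Z, Option.elim, sub_smul, Finset.sum_sub_distrib, mul_smul, ← Finset.smul_sum,
        bary_sum]
      abel
    rw [hxe] at h
    exact h
  · intro o _
    cases o with
    | none => exact hs
    | some l => simpa [W] using hx l
  · rw [Fintype.sum_option]
    simp only [W, Option.elim, Finset.sum_sub_distrib, ← Finset.mul_sum, lam_sum]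
    ring
  · intro o _
    apply subset_convexHull
    cases o with
    | none => exact Set.mem_insert _ _
    | some l => exact Set.mem_insert_of_mem _ ⟨l, rfl⟩

lemma K0_eq (p : Fin n → ℝ) : K0 p = Kp p := Set.Subset.antisymm (K0_sub p) (Kp_sub p)

lemma Sk_eq (p : Fin n → ℝ) {k : Fin (n + 1)} (hk : 0 < lam k p) : Sk p k = Sk' p k := by
  ext x
  constructor
  · rintro ⟨t, ht, rfl⟩
    have hr : lam k (Tk p k t) / lam k p = lam k t := by
      rw [lam_Tk]
      simp only [if_true]
      field_simp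
      ring
    simp only [Sk', Set.mem_setOf_eq, hr]
    refine ⟨ht k, fun l => ?_⟩
    rw [lam_Tk]
    have h0 := ht l
    have h1 := ht k
    by_cases hl : l = k
    · subst hl
      simp only [if_true]
      nlinarith
    · simp only [hl, if_false, sub_zero]
      nlinarith
  · rintro ⟨h0, hx⟩
    set r := lam k x / lam k p with hr
    have hrk : lam k x = r * lam k p := by rw [hr]; field_simp
    have hlt : ∀ l, lam l (x + (-r) • (p - ee k)) = lam l x + (-r) * (lam l p - if l = k then 1 else 0) := by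
      intro l; rw [lam_T, lam_ee]
    refine ⟨x + (-r) • (p - ee k), ?_, ?_⟩
    · intro l
      rw [hlt]
      have := hx l
      by_cases hl : l = k
      · subst hl
        simp only [if_true]
        nlinarith
      · simp only [hl, if_false, sub_zero]
        nlinarith
    · have hlk : lam k (x + (-r) • (p - ee k)) = r := by
        rw [hlt]
        simp only [if_true]
        nlinarith
      unfold Tk
      rw [hlk]
      simp only [neg_smul]
      abel

lemma Sk'_sub (p : Fin n → ℝ) (k : Fin (n + 1)) : Sk' p k ⊆ Kp p := fun _ hx => ⟨_, hx.1, hx.2⟩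

lemma exists_pos (p : Fin n → ℝ) : ∃ l : Fin (n + 1), 0 < lam l p := by
  by_contra h
  push Not at h
  have := Finset.sum_nonpos (fun l (_ : l ∈ Finset.univ) => h l)
  rw [lam_sum] at this
  linarith

lemma Kp_sub_union (p : Fin n → ℝ) {x : Fin n → ℝ} (hx : x ∈ Kp p) :
    ∃ k : Fin (n + 1), 0 < lam k p ∧ x ∈ Sk' p k := by
  classical
  obtain ⟨s, hs, hx⟩ := hx
  obtain ⟨l0, hl0⟩ := exists_pos p
  have hP : (Finset.univ.filter (fun l : Fin (n + 1) => 0 < lam l p)).Nonempty :=
    ⟨l0, by simp [hl0]⟩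
  obtain ⟨k, hk, hmin⟩ := Finset.exists_min_image _ (fun l => lam l x / lam l p) hP
  simp only [Finset.mem_filter, Finset.mem_univ, true_and] at hk hmin
  refine ⟨k, hk, ?_⟩
  have hsk : s ≤ lam k x / lam k p := by
    rw [le_div_iff₀ hk]
    exact hx k
  refine ⟨hs.trans hsk, fun l => ?_⟩
  by_cases hl : 0 < lam l p
  · have := hmin l hl
    rw [le_div_iff₀ hl] at this
    exact this
  · have hl' := not_lt.1 hl
    exact (mul_le_mul_of_nonpos_right hsk hl').trans (hx l)

lemma overlap (p : Fin n → ℝ) {k k' : Fin (n + 1)} (hk : 0 < lam k p) (hk' : 0 < lam k' p)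
    {x : Fin n → ℝ} (h1 : x ∈ Sk' p k) (h2 : x ∈ Sk' p k') :
    lam k' p * lam k x = lam k p * lam k' x := by
  have a1 := h1.2 k'
  have a2 := h2.2 k
  have e1 : lam k x / lam k p * lam k' p = lam k' p * lam k x / lam k p := by ring
  have e2 : lam k' x / lam k' p * lam k p = lam k p * lam k' x / lam k' p := by ring
  rw [e1, div_le_iff₀ hk] at a1
  rw [e2, div_le_iff₀ hk'] at a2
  linarith

lemma null_level (g : Fin n → ℝ) (hg : g ≠ 0) (a : ℝ) :
    volume {x : Fin n → ℝ | ∑ i, g i * x i = a} = 0 := by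
  let H : AffineSubspace ℝ (Fin n → ℝ) :=
    { carrier := {x | ∑ i, g i * x i = a}
      smul_vsub_vadd_mem' := by
        intro c p1 p2 p3 h1 h2 h3
        simp only [Set.mem_setOf_eq] at h1 h2 h3 ⊢
        simp only [vsub_eq_sub, vadd_eq_add, Pi.add_apply, Pi.smul_apply, Pi.sub_apply, smul_eq_mul]
        have : ∑ i, g i * (c * (p1 i - p2 i) + p3 i)
            = c * (∑ i, g i * p1 i - ∑ i, g i * p2 i) + ∑ i, g i * p3 i := by
          rw [mul_sub, Finset.mul_sum, Finset.mul_sum, ← Finset.sum_sub_distrib,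
            ← Finset.sum_add_distrib]
          apply Finset.sum_congr rfl
          intro i _
          ring
        rw [this, h1, h2, h3]
        ring }
  have hne : H ≠ ⊤ := by
    intro htop
    have hall : ∀ x : Fin n → ℝ, ∑ i, g i * x i = a := by
      intro x
      have : x ∈ H := by rw [htop]; exact AffineSubspace.mem_top _ _ _
      exact this
    obtain ⟨i, hi⟩ := Function.ne_iff.1 hg
    have h0 := hall 0
    have h1 := hall (Pi.single i 1)
    simp only [Pi.zero_apply, mul_zero, Finset.sum_const_zero] at h0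
    rw [Finset.sum_eq_single i] at h1
    · simp only [Pi.single_eq_same, mul_one] at h1
      exact hi (by simpa using h1.trans h0.symm)
    · intro b _ hb; simp [hb]
    · simp
  exact Measure.addHaar_affineSubspace volume H hne

lemma null_pair {k k' : Fin (n + 1)} {c c' : ℝ} (hc : 0 < c) (hc' : 0 < c') (hkk : k ≠ k') :
    volume {x : Fin n → ℝ | c' * lam k x = c * lam k' x} = 0 := by
  have hrep : ∀ x : Fin n → ℝ, c' * lam k x - c * lam k' x
      = (c' * lam k 0 - c * lam k' 0) + ∑ i, (c' * gr k i - c * gr k' i) * x i := by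
    intro x
    rw [lam_affine k x, lam_affine k' x]
    have : ∑ i, (c' * gr k i - c * gr k' i) * x i
        = c' * ∑ i, gr k i * x i - c * ∑ i, gr k' i * x i := by
      rw [Finset.mul_sum, Finset.mul_sum, ← Finset.sum_sub_distrib]
      apply Finset.sum_congr rfl
      intro i _
      ring
    rw [this, lam_affine k 0, lam_affine k' 0]
    simp only [Pi.zero_apply, mul_zero, Finset.sum_const_zero, add_zero]
    ring
  have hg : (fun i => c' * gr k i - c * gr k' i) ≠ 0 := by
    intro h0
    have hz : ∀ x : Fin n → ℝ, c' * lam k x - c * lam k' x = c' * lam k 0 - c * lam k' 0 := by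
      intro x
      rw [hrep x]
      have : ∀ i, c' * gr k i - c * gr k' i = 0 := fun i => congrFun h0 i
      simp [this]
    have h1 := hz (ee k)
    have h2 := hz (ee k')
    rw [lam_ee, lam_ee] at h1 h2
    simp only [if_true, hkk, hkk.symm, if_false] at h1 h2
    linarith
  have hsub : {x : Fin n → ℝ | c' * lam k x = c * lam k' x}
      ⊆ {x | ∑ i, (c' * gr k i - c * gr k' i) * x i = -(c' * lam k 0 - c * lam k' 0)} := by
    intro x hx
    simp only [Set.mem_setOf_eq] at hx ⊢
    have := hrep x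
    linarith
  exact measure_mono_null hsub (null_level _ hg _)

lemma Tk_continuous (p : Fin n → ℝ) (k : Fin (n + 1)) : Continuous (Tk p k) := by
  rw [Tk_eq_aff]
  exact aff_continuous _ _

lemma Sk_compact (p : Fin n → ℝ) (k : Fin (n + 1)) : IsCompact (Sk p k) :=
  sig_compact.image (Tk_continuous p k)

lemma K0_compact (p : Fin n → ℝ) : IsCompact (K0 p) :=
  ((Set.finite_range _).insert p).isCompact_convexHull ℝ

lemma K0_union (p : Fin n → ℝ) :
    K0 p = ⋃ k : {k : Fin (n + 1) // 0 < lam k p}, Sk p k.1 := by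
  ext x
  simp only [Set.mem_iUnion, Subtype.exists, exists_prop]
  constructor
  · intro hx
    rw [K0_eq] at hx
    obtain ⟨k, hk, hxk⟩ := Kp_sub_union p hx
    exact ⟨k, hk, by rw [Sk_eq p hk]; exact hxk⟩
  · rintro ⟨k, hk, hxk⟩
    rw [K0_eq]
    rw [Sk_eq p hk] at hxk
    exact Sk'_sub p k hxk

lemma Sk_integral (p : Fin n → ℝ) {k : Fin (n + 1)} (hk : 0 < lam k p) (g : (Fin n → ℝ) → ℝ) :
    ∫ x in Sk p k, g x = lam k p * ∫ t in sig n, g (Tk p k t) := by
  have hdet : (Ak p k).det ≠ 0 := by rw [Ak_det]; exact hk.ne'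
  unfold Sk
  rw [Tk_eq_aff, image_integral _ hdet sig_measurable, Ak_det, abs_of_pos hk]

/-- The positive part. -/
noncomputable def pos (x : ℝ) : ℝ := max x 0

lemma pos_of_pos {x : ℝ} (h : 0 < x) : pos x = x := max_eq_left h.le
lemma pos_of_nonpos {x : ℝ} (h : x ≤ 0) : pos x = 0 := max_eq_right h
lemma pos_nonneg (x : ℝ) : 0 ≤ pos x := le_max_right _ _

lemma Sk_pairwise (p : Fin n → ℝ) :
    Pairwise (Function.onFun (AEDisjoint volume)
      (fun k : {k : Fin (n + 1) // 0 < lam k p} => Sk p k.1)) := by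
  intro k k' hne
  have hkk : k.1 ≠ k'.1 := fun h => hne (Subtype.ext h)
  have hnull := null_pair k.2 k'.2 hkk
  refine measure_mono_null ?_ hnull
  rintro x ⟨h1, h2⟩
  have h1' : x ∈ Sk p k.1 := h1
  have h2' : x ∈ Sk p k'.1 := h2
  rw [Sk_eq p k.2] at h1'
  rw [Sk_eq p k'.2] at h2'
  exact overlap p k.2 k'.2 h1' h2'

theorem K0_integral (p : Fin n → ℝ) {g : (Fin n → ℝ) → ℝ} (hg : Continuous g) :
    ∫ x in K0 p, g x = ∑ l, pos (lam l p) * ∫ t in sig n, g (Tk p l t) := by
  classical
  have hint : IntegrableOn g (⋃ k : {k : Fin (n + 1) // 0 < lam k p}, Sk p k.1) := by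
    rw [← K0_union]
    exact cont_int_K (K0_compact p) hg
  have h1 := integral_iUnion_ae (μ := volume) (f := g)
    (fun k : {k : Fin (n + 1) // 0 < lam k p} => (Sk_compact p k.1).measurableSet.nullMeasurableSet)
    (Sk_pairwise p) hint
  rw [K0_union, h1, tsum_fintype]
  have h2 : ∀ k : {k : Fin (n + 1) // 0 < lam k p},
      ∫ x in Sk p k.1, g x = lam k.1 p * ∫ t in sig n, g (Tk p k.1 t) :=
    fun k => Sk_integral p k.2 g
  simp only [h2]
  have h3 := Finset.sum_subtype (Finset.univ.filter (fun k : Fin (n + 1) => 0 < lam k p))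
    (p := fun k : Fin (n + 1) => 0 < lam k p) (F := inferInstance) (by simp)
    (fun k => lam k p * ∫ t in sig n, g (Tk p k t))
  rw [← h3, Finset.sum_filter]
  apply Finset.sum_congr rfl
  intro l _
  by_cases h : 0 < lam l p
  · rw [if_pos h, pos_of_pos h]
  · rw [if_neg h, pos_of_nonpos (not_lt.1 h), zero_mul]

end P254
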