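import Vale.Agent.P254.Alg

open MeasureTheory Set Finset Real
open scoped BigOperators Pointwise

namespace P254

variable {n : ℕ}

/-- The `n × 3` factor. -/
noncomputable def UU (p : Fin n → ℝ) : Matrix (Fin n) (Fin 3) ℝ :=
  Matrix.of fun i a => ![p i, mu p i, nu p i] a

/-- The `3 × n` factor. -/
noncomputable def VV (p : Fin n → ℝ) : Matrix (Fin 3) (Fin n) ℝ :=
  Matrix.of fun a j => ![p j, -mu p j, -(nu p j / ((n : ℝ) + 1))] a

lemma UV_apply (p : Fin n → ℝ) (i j : Fin n) :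
    (UU p * VV p) i j = p i * p j - mu p i * mu p j - nu p i * nu p j / ((n : ℝ) + 1) := by
  simp only [Matrix.mul_apply, Fin.sum_univ_three, UU, VV, Matrix.of_apply]
  simp
  ring

lemma cov_eq (p : Fin n → ℝ) :
    cov (K0 p) = (1 / (((n : ℝ) + 1) * (n + 2))) • (1 + UU p * VV p) := by
  ext i j
  rw [K0_cov, Matrix.smul_apply, Matrix.add_apply, UV_apply, Matrix.one_apply, smul_eq_mul]
  ring

/-- The determinant of the small matrix. -/
noncomputable def DD (p : Fin n → ℝ) : ℝ := (1 + VV p * UU p).det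

lemma cov_det (p : Fin n → ℝ) :
    (cov (K0 p)).det = (1 / (((n : ℝ) + 1) * (n + 2))) ^ n * DD p := by
  rw [cov_eq, Matrix.det_smul, Matrix.det_one_add_mul_comm, Fintype.card_fin]
  rfl

/-- Inner products. -/
noncomputable def ip (f g : Fin n → ℝ) : ℝ := ∑ i, f i * g i

lemma ip_comm (f g : Fin n → ℝ) : ip f g = ip g f := by
  unfold ip
  exact Finset.sum_congr rfl (fun i _ => mul_comm _ _)

lemma VU_eq (p : Fin n → ℝ) : VV p * UU p =
    !![ip p p, ip p (mu p), ip p (nu p);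
      -ip p (mu p), -ip (mu p) (mu p), -ip (mu p) (nu p);
      -(ip p (nu p) / ((n : ℝ) + 1)), -(ip (mu p) (nu p) / ((n : ℝ) + 1)),
        -(ip (nu p) (nu p) / ((n : ℝ) + 1))] := by
  have hn : ((n : ℝ) + 1) ≠ 0 := by positivity
  ext a b
  simp only [Matrix.mul_apply, UU, VV, Matrix.of_apply, ip]
  fin_cases a <;> fin_cases b <;> simp [Finset.sum_neg_distrib, div_mul_eq_mul_div, Finset.sum_div,
    mul_comm]
  all_goals (apply Finset.sum_congr rfl; intro i _; ring)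

lemma DD_eq (p : Fin n → ℝ) :
    DD p = Matrix.det (!![1 + ip p p, ip p (mu p), ip p (nu p);
      -ip p (mu p), 1 - ip (mu p) (mu p), -ip (mu p) (nu p);
      -(ip p (nu p) / ((n : ℝ) + 1)), -(ip (mu p) (nu p) / ((n : ℝ) + 1)),
        1 - ip (nu p) (nu p) / ((n : ℝ) + 1)] : Matrix (Fin 3) (Fin 3) ℝ) := by
  unfold DD
  rw [VU_eq]
  congr 1
  ext a b
  fin_cases a <;> fin_cases b <;> simp [Matrix.one_apply] <;> ring

/-- Sum of squares of positive parts. -/
noncomputable def Sp (p : Fin n → ℝ) : ℝ := ∑ i, pos (p i) ^ 2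

/-- Sum of squares of negative parts. -/
noncomputable def Sm (p : Fin n → ℝ) : ℝ := ∑ i, pos (- p i) ^ 2

lemma pos_neg_of_nonpos {x : ℝ} (h : x ≤ 0) : pos (-x) = -x := max_eq_left (by linarith)

lemma pos_sq_add (x : ℝ) : x * x = pos x ^ 2 + pos (-x) ^ 2 := by
  rcases le_or_gt x 0 with h | h
  · rw [pos_of_nonpos h, pos_neg_of_nonpos h]
    ring
  · rw [pos_of_pos h, pos_of_nonpos (by linarith : -x ≤ 0)]
    ring

lemma mul_pos_part (x : ℝ) : x * pos x = pos x ^ 2 := by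
  rcases le_or_gt x 0 with h | h
  · rw [pos_of_nonpos h]; ring
  · rw [pos_of_pos h]; ring

lemma ip_pp (p : Fin n → ℝ) : ip p p = Sp p + Sm p := by
  unfold ip Sp Sm
  rw [← Finset.sum_add_distrib]
  exact Finset.sum_congr rfl (fun i _ => pos_sq_add (p i))

lemma ip_pm (p : Fin n → ℝ) : ip p (mu p) = Sp p / TT p := by
  unfold ip Sp mu
  rw [Finset.sum_div]
  apply Finset.sum_congr rfl
  intro i _
  rw [← mul_pos_part]
  ring

lemma ip_mm (p : Fin n → ℝ) : ip (mu p) (mu p) = Sp p / TT p ^ 2 := by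
  unfold ip Sp mu
  rw [Finset.sum_div]
  apply Finset.sum_congr rfl
  intro i _
  ring

lemma sum_p (p : Fin n → ℝ) : ∑ i, p i = 1 - lam 0 p := by
  rw [lam_zero]; ring

lemma TT_expand (p : Fin n → ℝ) : TT p = pos (lam 0 p) + ∑ i, pos (p i) := by
  unfold TT
  rw [Fin.sum_univ_succ]
  rfl

lemma sum_mu (p : Fin n → ℝ) : ∑ i, mu p i = (TT p - pos (lam 0 p)) / TT p := by
  unfold mu
  rw [← Finset.sum_div]
  congr 1
  rw [TT_expand]
  ring

lemma ip_pn (p : Fin n → ℝ) :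
    ip p (nu p) = (1 - lam 0 p) + ip p p - ip p (mu p) := by
  unfold ip nu
  rw [← sum_p, ← Finset.sum_add_distrib, ← Finset.sum_sub_distrib]
  apply Finset.sum_congr rfl
  intro i _
  ring

lemma ip_mn (p : Fin n → ℝ) :
    ip (mu p) (nu p) = (TT p - pos (lam 0 p)) / TT p + ip p (mu p) - ip (mu p) (mu p) := by
  unfold ip nu
  rw [← sum_mu, ← Finset.sum_add_distrib, ← Finset.sum_sub_distrib]
  apply Finset.sum_congr rfl
  intro i _
  ring

lemma ip_nn (p : Fin n → ℝ) :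
    ip (nu p) (nu p) = (n : ℝ) + ip p p + ip (mu p) (mu p) + 2 * (1 - lam 0 p)
      - 2 * ((TT p - pos (lam 0 p)) / TT p) - 2 * ip p (mu p) := by
  unfold ip nu
  rw [← sum_p, ← sum_mu]
  have : (n : ℝ) = ∑ _i : Fin n, (1 : ℝ) := by simp
  rw [this, Finset.mul_sum, Finset.mul_sum, Finset.mul_sum, ← Finset.sum_add_distrib,
    ← Finset.sum_add_distrib, ← Finset.sum_add_distrib, ← Finset.sum_sub_distrib,
    ← Finset.sum_sub_distrib]
  apply Finset.sum_congr rfl
  intro i _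
  ring

/-- The purely algebraic identity behind the determinant formula. -/
lemma alg_identity (T c0 S1 S2 N u v : ℝ) (hT : T ≠ 0) (hN : N ≠ 0)
    (huv : (u = c0 ∧ v = 0) ∨ (u = 0 ∧ v = -c0)) :
    N * Matrix.det (!![1 + (S1 + S2), S1 / T, (1 - c0) + (S1 + S2) - S1 / T;
      -(S1 / T), 1 - S1 / T ^ 2, -((T - u) / T + S1 / T - S1 / T ^ 2);
      -(((1 - c0) + (S1 + S2) - S1 / T) / N), -(((T - u) / T + S1 / T - S1 / T ^ 2) / N),
        1 - ((N - 1) + (S1 + S2) + S1 / T ^ 2 + 2 * (1 - c0) - 2 * ((T - u) / T) - 2 * (S1 / T)) / N] :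
        Matrix (Fin 3) (Fin 3) ℝ)
      = T ^ 2 * ((S1 + u ^ 2) / T ^ 2 + (1 + S2 + v ^ 2) / T ^ 2
          - (S1 + u ^ 2) / T ^ 2 * ((1 + S2 + v ^ 2) / T ^ 2)) := by
  rw [Matrix.det_fin_three]
  simp only [Matrix.of_apply, Matrix.cons_val', Matrix.cons_val_zero, Matrix.cons_val_one,
    Matrix.cons_val_fin_one, Matrix.cons_val]
  rcases huv with ⟨rfl, rfl⟩ | ⟨rfl, rfl⟩
  · field_simp
    ring
  · field_simp
    ring

end P254
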