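import Mathlib

open MeasureTheory Set Finset Real
open scoped BigOperators Pointwise

namespace P254

variable {n : ℕ}

/-- Barycentric coordinates relative to `0, e_1, ..., e_n`. -/
noncomputable def lam (l : Fin (n + 1)) (t : Fin n → ℝ) : ℝ :=
  Fin.cases (1 - ∑ i, t i) (fun i => t i) l

/-- The standard simplex. -/
def sig (n : ℕ) : Set (Fin n → ℝ) := {t | ∀ l : Fin (n + 1), 0 ≤ lam l t}

/-- The scaled standard simplex. -/
def sigS (s : ℝ) : Set (Fin n → ℝ) := {t | (∀ i, 0 ≤ t i) ∧ ∑ i, t i ≤ s}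

lemma sig_eq : sig n = sigS (1 : ℝ) := by
  ext t
  simp only [sig, sigS, Set.mem_setOf_eq]
  constructor
  · intro h
    refine ⟨fun i => by simpa [lam] using h i.succ, ?_⟩
    have := h 0
    simp only [lam, Fin.cases_zero] at this
    linarith
  · rintro ⟨h1, h2⟩ l
    refine Fin.cases ?_ (fun i => ?_) l
    · simp only [lam, Fin.cases_zero]; linarith
    · simpa [lam] using h1 i

/-- Monomials. -/
def mono (a : Fin n → ℕ) (t : Fin n → ℝ) : ℝ := ∏ i, t i ^ a i

lemma mono_continuous (a : Fin n → ℕ) : Continuous (mono a) := by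
  unfold mono
  fun_prop

lemma mono_smul (a : Fin n → ℕ) (s : ℝ) (t : Fin n → ℝ) :
    mono a (s • t) = s ^ (∑ i, a i) * mono a t := by
  unfold mono
  simp only [Pi.smul_apply, smul_eq_mul, mul_pow, Finset.prod_mul_distrib, Finset.prod_pow_eq_pow_sum]

lemma sigS_scale {s : ℝ} (hs : 0 < s) : (sigS s : Set (Fin n → ℝ)) = s • sigS (1 : ℝ) := by
  ext t
  rw [Set.mem_smul_set_iff_inv_smul_mem₀ hs.ne']
  simp only [sigS, Set.mem_setOf_eq, Pi.smul_apply, smul_eq_mul, ← Finset.mul_sum]
  have hi : 0 < s⁻¹ := inv_pos.2 hs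
  constructor
  · rintro ⟨h1, h2⟩
    refine ⟨fun i => mul_nonneg hi.le (h1 i), ?_⟩
    rw [inv_mul_le_iff₀ hs]; simpa using h2
  · rintro ⟨h1, h2⟩
    refine ⟨fun i => ?_, ?_⟩
    · have := h1 i
      exact (mul_nonneg_iff_of_pos_left hi).1 this
    · rw [inv_mul_le_iff₀ hs] at h2; simpa using h2

lemma integral_sigS_scale (a : Fin n → ℕ) {s : ℝ} (hs : 0 < s) :
    ∫ t in sigS s, mono a t = s ^ (n + ∑ i, a i) * ∫ t in sigS (1 : ℝ), mono a t := by
  have h := Measure.setIntegral_comp_smul_of_pos (volume : Measure (Fin n → ℝ)) (mono a)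
    (sigS (1 : ℝ)) hs
  rw [← sigS_scale hs] at h
  simp only [Module.finrank_fintype_fun_eq_card, Fintype.card_fin] at h
  simp only [mono_smul] at h
  rw [integral_const_mul] at h
  simp only [smul_eq_mul] at h
  have hne : s ^ n ≠ 0 := pow_ne_zero _ hs.ne'
  field_simp at h
  rw [pow_add, ← h]
  ring

/-- Gamma integrals in natural form. -/
lemma gamma_nat (m : ℕ) :
    IntegrableOn (fun x : ℝ => x ^ m * exp (-x)) (Ici 0) ∧
      ∫ x in Ici (0 : ℝ), x ^ m * exp (-x) = (m.factorial : ℝ) := by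
  have hpos : (0 : ℝ) < (m : ℝ) + 1 := by positivity
  have hc := Real.GammaIntegral_convergent hpos
  have hg := Real.Gamma_eq_integral hpos
  rw [Real.Gamma_nat_eq_factorial] at hg
  have hcongr : EqOn (fun x : ℝ => exp (-x) * x ^ ((m : ℝ) + 1 - 1)) (fun x : ℝ => x ^ m * exp (-x)) (Ioi 0) := by
    intro x _
    simp only [add_sub_cancel_right, rpow_natCast]
    ring
  constructor
  · rw [integrableOn_Ici_iff_integrableOn_Ioi]
    exact hc.congr_fun hcongr measurableSet_Ioi
  · rw [integral_Ici_eq_integral_Ioi, hg]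
    exact setIntegral_congr_fun measurableSet_Ioi hcongr.symm

/-- The one-variable factors. -/
noncomputable def gfac (m : ℕ) (x : ℝ) : ℝ := if 0 ≤ x then x ^ m * exp (-x) else 0

lemma gfac_eq (m : ℕ) : gfac m = (Ici (0 : ℝ)).indicator (fun x : ℝ => x ^ m * exp (-x)) := by
  ext x
  simp [gfac, Set.indicator]

lemma gfac_int (m : ℕ) : Integrable (gfac m) := by
  rw [gfac_eq, integrable_indicator_iff measurableSet_Ici]
  exact (gamma_nat m).1

lemma gfac_integral (m : ℕ) : ∫ x, gfac m x = (m.factorial : ℝ) := by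
  rw [gfac_eq, integral_indicator measurableSet_Ici]
  exact (gamma_nat m).2

/-- The product kernel. -/
noncomputable def Gk (a : Fin n → ℕ) (t : Fin n → ℝ) : ℝ := ∏ i, gfac (a i) (t i)

lemma Gk_eq (a : Fin n → ℕ) (t : Fin n → ℝ) :
    Gk a t = if ∀ i, 0 ≤ t i then mono a t * exp (-(∑ i, t i)) else 0 := by
  unfold Gk
  split_ifs with h
  · have : ∀ i, gfac (a i) (t i) = t i ^ a i * exp (-(t i)) := fun i => by simp [gfac, h i]
    simp only [this, Finset.prod_mul_distrib, mono, ← Finset.sum_neg_distrib, Real.exp_sum]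
  · push Not at h
    obtain ⟨i, hi⟩ := h
    apply Finset.prod_eq_zero (Finset.mem_univ i)
    simp [gfac, not_le.2 hi]

lemma Gk_int (a : Fin n → ℕ) : Integrable (Gk a) :=
  by
    unfold Gk
    rw [volume_pi]
    exact Integrable.fintype_prod (fun i => gfac_int (a i))

lemma Gk_integral (a : Fin n → ℕ) : ∫ t, Gk a t = ∏ i, ((a i).factorial : ℝ) := by
  unfold Gk
  rw [integral_fintype_prod_volume_eq_prod (𝕜 := ℝ) (fun i => gfac (a i))]
  exact Finset.prod_congr rfl (fun i _ => gfac_integral (a i))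

/-- The two-variable kernel. -/
noncomputable def Hk (a : Fin n → ℕ) (t : Fin n → ℝ) (s : ℝ) : ℝ :=
  if (∀ i, 0 ≤ t i) ∧ ∑ i, t i ≤ s then mono a t * exp (-s) else 0

lemma Hk_set_meas :
    MeasurableSet {z : (Fin n → ℝ) × ℝ | (∀ i, 0 ≤ z.1 i) ∧ ∑ i, z.1 i ≤ z.2} := by
  apply IsClosed.measurableSet
  have h1 : IsClosed {z : (Fin n → ℝ) × ℝ | ∀ i, 0 ≤ z.1 i} := by
    simp only [Set.setOf_forall]
    exact isClosed_iInter (fun i => isClosed_le continuous_const (by fun_prop))
  have h2 : IsClosed {z : (Fin n → ℝ) × ℝ | ∑ i, z.1 i ≤ z.2} :=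
    isClosed_le (by fun_prop) (by fun_prop)
  exact h1.inter h2

lemma Hk_meas (a : Fin n → ℕ) : Measurable (Function.uncurry (Hk a)) := by
  have hc : Continuous (fun z : (Fin n → ℝ) × ℝ => mono a z.1 * exp (-z.2)) := by
    have := mono_continuous a
    fun_prop
  exact Measurable.ite Hk_set_meas hc.measurable measurable_const

lemma Hk_fiber (a : Fin n → ℕ) (t : Fin n → ℝ) :
    Hk a t = (Ici (∑ i, t i)).indicator
      (fun s => (if ∀ i, 0 ≤ t i then mono a t else 0) * exp (-s)) := by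
  ext s
  simp only [Hk, Set.indicator, Set.mem_Ici]
  by_cases h : ∀ i, 0 ≤ t i <;> by_cases h' : ∑ i, t i ≤ s <;> simp [h, h']

lemma exp_neg_int (u : ℝ) : IntegrableOn (fun s : ℝ => exp (-s)) (Ici u) := by
  rw [integrableOn_Ici_iff_integrableOn_Ioi]
  exact integrableOn_exp_neg_Ioi u

lemma Hk_fiber_int (a : Fin n → ℕ) (t : Fin n → ℝ) : Integrable (Hk a t) := by
  rw [Hk_fiber, integrable_indicator_iff measurableSet_Ici]
  exact (exp_neg_int _).const_mul _

lemma Hk_fiber_integral (a : Fin n → ℕ) (t : Fin n → ℝ) : ∫ s, Hk a t s = Gk a t := by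
  rw [Hk_fiber, integral_indicator measurableSet_Ici, integral_const_mul,
    integral_Ici_eq_integral_Ioi, integral_exp_neg_Ioi, Gk_eq]
  split_ifs <;> simp

lemma mono_nonneg (a : Fin n → ℕ) {t : Fin n → ℝ} (h : ∀ i, 0 ≤ t i) : 0 ≤ mono a t :=
  Finset.prod_nonneg (fun i _ => pow_nonneg (h i) _)

lemma Hk_nonneg (a : Fin n → ℕ) (t : Fin n → ℝ) (s : ℝ) : 0 ≤ Hk a t s := by
  unfold Hk
  split_ifs with h
  · exact mul_nonneg (mono_nonneg a h.1) (exp_pos _).le
  · exact le_rfl

lemma Hk_int (a : Fin n → ℕ) :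
    Integrable (Function.uncurry (Hk a)) ((volume : Measure (Fin n → ℝ)).prod (volume : Measure ℝ)) := by
  rw [integrable_prod_iff (Hk_meas a).aestronglyMeasurable]
  refine ⟨Filter.Eventually.of_forall (fun t => Hk_fiber_int a t), ?_⟩
  have : (fun t => ∫ s, ‖Function.uncurry (Hk a) (t, s)‖) = Gk a := by
    ext t
    rw [← Hk_fiber_integral]
    apply integral_congr_ae
    exact Filter.Eventually.of_forall (fun s => by
      simp [Function.uncurry, Real.norm_eq_abs, abs_of_nonneg (Hk_nonneg a t s)])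
  rw [this]
  exact Gk_int a

lemma sigS_measurable (s : ℝ) : MeasurableSet (sigS s : Set (Fin n → ℝ)) := by
  apply IsClosed.measurableSet
  have h1 : IsClosed {t : Fin n → ℝ | ∀ i, 0 ≤ t i} := by
    simp only [Set.setOf_forall]
    exact isClosed_iInter (fun i => isClosed_le continuous_const (continuous_apply i))
  have h2 : IsClosed {t : Fin n → ℝ | ∑ i, t i ≤ s} :=
    isClosed_le (by fun_prop) continuous_const
  exact h1.inter h2

lemma Hk_inner (a : Fin n → ℕ) (s : ℝ) :
    ∫ t, Hk a t s = exp (-s) * ∫ t in sigS s, mono a t := by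
  have : (fun t => Hk a t s) = (sigS s).indicator (fun t => mono a t * exp (-s)) := by
    ext t
    simp only [Hk, Set.indicator, sigS, Set.mem_setOf_eq]
  rw [this, integral_indicator (sigS_measurable s), integral_mul_const]
  ring

lemma sigS_empty {s : ℝ} (hs : s < 0) : (sigS s : Set (Fin n → ℝ)) = ∅ := by
  ext t
  simp only [sigS, Set.mem_setOf_eq, mem_empty_iff_false, iff_false, not_and, not_le]
  intro h
  exact lt_of_lt_of_le hs (Finset.sum_nonneg (fun i _ => h i))

/-- Dirichlet's integral. -/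
theorem dirichlet (a : Fin n → ℕ) :
    ∫ t in sig n, mono a t = (∏ i, ((a i).factorial : ℝ)) / ((n + ∑ i, a i).factorial : ℝ) := by
  rw [sig_eq]
  set I := ∫ t in sigS (1 : ℝ), mono a t with hI
  have hswap := integral_integral_swap (Hk_int a)
  simp only [Hk_fiber_integral, Gk_integral, Hk_inner] at hswap
  have h2 : ∫ s, exp (-s) * ∫ t in sigS s, mono a t
      = ∫ s in Ioi (0 : ℝ), I * (s ^ (n + ∑ i, a i) * exp (-s)) := by
    rw [← setIntegral_eq_integral_of_ae_compl_eq_zero (s := Ioi (0 : ℝ))]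
    · apply setIntegral_congr_fun measurableSet_Ioi
      intro s hs
      simp only [integral_sigS_scale a (Set.mem_Ioi.1 hs)]
      ring
    · have h0 : ∀ᵐ s : ℝ, s ≠ 0 := by
        simp [ae_iff]
      filter_upwards [h0] with s hs hs'
      have : s < 0 := lt_of_le_of_ne (not_lt.1 hs') hs
      simp [sigS_empty this]
  rw [h2, integral_const_mul] at hswap
  have h3 := (gamma_nat (n + ∑ i, a i)).2
  rw [integral_Ici_eq_integral_Ioi] at h3
  rw [h3] at hswap
  have hne : (((n + ∑ i, a i).factorial : ℕ) : ℝ) ≠ 0 := by positivity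
  field_simp
  linarith

end P254
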