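import Vale.Agent.P254.Radial

open MeasureTheory Set Finset Real
open scoped BigOperators Pointwise

namespace P254

variable {m : ℕ}

/-- The weight on the model flag simplex. -/
noncomputable def flagW (y : Fin (m + 1) → ℝ) : ℝ :=
  ∑ a : Fin m, y a.succ ^ 2 - ss y ^ 2 / ((m : ℝ) + 1) - ts y ^ 2 / ((m : ℝ) + 3)

lemma lateral_sum (y : Fin (m + 1) → ℝ) :
    ∑ a : Fin m, ∑ b : Fin m, (if a = b then 0 else
        lam a.succ.succ y ^ 2 + lam b.succ.succ y ^ 2 - 4 * lam a.succ.succ y * lam b.succ.succ y)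
      = 2 * ((m : ℝ) + 1) * ∑ a : Fin m, y a.succ ^ 2 - 4 * ss y ^ 2 := by
  simp only [lam_succ]
  set z : Fin m → ℝ := fun a => y a.succ with hz
  have h1 : ∀ a b : Fin m, (if a = b then 0 else z a ^ 2 + z b ^ 2 - 4 * z a * z b)
      = (z a ^ 2 + z b ^ 2 - 4 * z a * z b)
        - (if a = b then (z a ^ 2 + z b ^ 2 - 4 * z a * z b) else 0) := by
    intro a b
    by_cases h : a = b <;> simp [h]
  change ∑ a : Fin m, ∑ b : Fin m, (if a = b then 0 else z a ^ 2 + z b ^ 2 - 4 * z a * z b) = _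
  simp only [h1, Finset.sum_sub_distrib, Finset.sum_ite_eq, Finset.mem_univ, if_true,
    Finset.sum_add_distrib, Finset.sum_const, Finset.card_univ, Fintype.card_fin, nsmul_eq_mul]
  have h2 : ∑ a : Fin m, ∑ b : Fin m, 4 * z a * z b = 4 * ss y ^ 2 := by
    have : ss y = ∑ a, z a := rfl
    rw [this, sq, Finset.sum_mul_sum, Finset.mul_sum]
    apply Finset.sum_congr rfl; intro a _
    rw [Finset.mul_sum]
    apply Finset.sum_congr rfl; intro b _
    ring
  rw [h2]
  have h4 : ∑ x : Fin m, 4 * z x * z x = 4 * ∑ x, z x ^ 2 := by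
    rw [Finset.mul_sum]
    apply Finset.sum_congr rfl; intro a _
    ring
  have h5 : ∑ x : Fin m, (m : ℝ) * z x ^ 2 = (m : ℝ) * ∑ x, z x ^ 2 := (Finset.mul_sum _ _ _).symm
  have h6 : ∑ a : Fin m, y a.succ ^ 2 = ∑ x, z x ^ 2 := rfl
  rw [h4, h5, h6]
  ring

/-- The flag lemma: the weight pairs nonnegatively with admissible convex functions. -/
theorem flag_lemma {ψ : (Fin (m + 1) → ℝ) → ℝ} (hc : Continuous ψ)
    (hψ : ConvexOn ℝ (sig (m + 1)) ψ) (h0 : ∀ y ∈ sig (m + 1), 0 ≤ ψ y)
    (hedge : ∀ y ∈ sig (m + 1), (∀ a : Fin m, y a.succ = 0) → ψ y = 0) :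
    0 ≤ ∫ y in sig (m + 1), flagW y * ψ y := by
  have hn : (0 : ℝ) < (m : ℝ) + 1 := by positivity
  have hn3 : (0 : ℝ) < (m : ℝ) + 3 := by positivity
  have hlc := fun l : Fin (m + 2) => lam_continuous (n := m + 1) l
  have hzc : Continuous (fun y : Fin (m + 1) → ℝ => ∑ a : Fin m, y a.succ ^ 2) := by fun_prop
  have hsc := ss_continuous (m := m)
  have htc := ts_continuous (m := m)
  have hpair : ∀ a b : Fin m, 0 ≤ ∫ y in sig (m + 1), (if a = b then 0 else
        lam a.succ.succ y ^ 2 + lam b.succ.succ y ^ 2 - 4 * lam a.succ.succ y * lam b.succ.succ y)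
          * ψ y := by
    intro a b
    by_cases h : a = b
    · simp [h]
    · have hne : a.succ.succ ≠ b.succ.succ := fun h' => h (Fin.succ_injective _ (Fin.succ_injective _ h'))
      simpa [h] using pair_general hne hc hψ
  have hcont : ∀ a b : Fin m, Continuous (fun y : Fin (m + 1) → ℝ => (if a = b then 0 else
        lam a.succ.succ y ^ 2 + lam b.succ.succ y ^ 2 - 4 * lam a.succ.succ y * lam b.succ.succ y)
          * ψ y) := by
    intro a b
    by_cases h : a = b
    · simp only [h, if_true, zero_mul]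
      exact continuous_const
    · simp only [h, if_false]
      have c1 := hlc a.succ.succ
      have c2 := hlc b.succ.succ
      fun_prop
  have hL : 0 ≤ ∫ y in sig (m + 1), ∑ a : Fin m, ∑ b : Fin m, (if a = b then 0 else
        lam a.succ.succ y ^ 2 + lam b.succ.succ y ^ 2 - 4 * lam a.succ.succ y * lam b.succ.succ y)
          * ψ y := by
    rw [integral_finset_sum _ (fun a _ => cont_int (continuous_finset_sum _ (fun b _ => hcont a b)))]
    apply Finset.sum_nonneg
    intro a _
    rw [integral_finset_sum _ (fun b _ => cont_int (hcont a b))]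
    exact Finset.sum_nonneg (fun b _ => hpair a b)
  have hrad := radial_ineq hc hψ h0 hedge
  have hexp : ∀ y : Fin (m + 1) → ℝ, flagW y * ψ y
      = (1 / (2 * ((m : ℝ) + 1))) * (∑ a : Fin m, ∑ b : Fin m, (if a = b then 0 else
        lam a.succ.succ y ^ 2 + lam b.succ.succ y ^ 2 - 4 * lam a.succ.succ y * lam b.succ.succ y)
          * ψ y)
        + (1 / ((m : ℝ) + 1)) * (ss y ^ 2 * ψ y)
        - (1 / ((m : ℝ) + 3)) * (ts y ^ 2 * ψ y) := by
    intro y
    have hl := lateral_sum y
    have e : ∑ a : Fin m, ∑ b : Fin m, (if a = b then 0 else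
        lam a.succ.succ y ^ 2 + lam b.succ.succ y ^ 2 - 4 * lam a.succ.succ y * lam b.succ.succ y)
          * ψ y = (2 * ((m : ℝ) + 1) * ∑ a : Fin m, y a.succ ^ 2 - 4 * ss y ^ 2) * ψ y := by
      rw [← hl, Finset.sum_mul]
      apply Finset.sum_congr rfl; intro a _
      rw [Finset.sum_mul]
    rw [e]
    unfold flagW
    field_simp
    ring
  simp only [hexp]
  have c1 : Continuous (fun y : Fin (m + 1) → ℝ => ∑ a : Fin m, ∑ b : Fin m, (if a = b then 0 else
        lam a.succ.succ y ^ 2 + lam b.succ.succ y ^ 2 - 4 * lam a.succ.succ y * lam b.succ.succ y)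
          * ψ y) := continuous_finset_sum _ (fun a _ => continuous_finset_sum _ (fun b _ => hcont a b))
  have c2 : Continuous (fun y : Fin (m + 1) → ℝ => ss y ^ 2 * ψ y) := by fun_prop
  have c3 : Continuous (fun y : Fin (m + 1) → ℝ => ts y ^ 2 * ψ y) := by fun_prop
  rw [integral_sub (cont_int (by fun_prop)) (cont_int (by fun_prop)),
    integral_add (cont_int (by fun_prop)) (cont_int (by fun_prop)),
    integral_const_mul, integral_const_mul, integral_const_mul]
  have h5 : (1 / ((m : ℝ) + 3)) * ∫ y in sig (m + 1), ts y ^ 2 * ψ y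
      ≤ (1 / ((m : ℝ) + 1)) * ∫ y in sig (m + 1), ss y ^ 2 * ψ y := by
    have := mul_le_mul_of_nonneg_left hrad (by positivity : 0 ≤ 1 / ((m : ℝ) + 1))
    calc _ = 1 / ((m : ℝ) + 1) * (((m : ℝ) + 1) / ((m : ℝ) + 3) * ∫ y in sig (m + 1), ts y ^ 2 * ψ y) := by
          field_simp
      _ ≤ _ := this
  have h6 : 0 ≤ (1 / (2 * ((m : ℝ) + 1))) * ∫ y in sig (m + 1), ∑ a : Fin m, ∑ b : Fin m, (if a = b then 0 else
        lam a.succ.succ y ^ 2 + lam b.succ.succ y ^ 2 - 4 * lam a.succ.succ y * lam b.succ.succ y)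
          * ψ y := mul_nonneg (by positivity) hL
  linarith

/-- The vertices of the model flag simplex. -/
noncomputable def flagV (m : ℕ) : Fin (m + 2) → Fin (m + 1) → ℝ :=
  Fin.cons (bc (m + 1)) (Fin.cons (fun _ => 1 / ((m : ℝ) + 1)) (fun a => ee a.succ.succ))

/-- The map from the standard simplex to the model flag simplex. -/
noncomputable def flagT (m : ℕ) : (Fin (m + 1) → ℝ) → (Fin (m + 1) → ℝ) :=
  aff (Aw (flagV m)) (flagV m 0)

lemma flagT_eq (y : Fin (m + 1) → ℝ) : flagT m y = ∑ l, lam l y • flagV m l :=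
  aff_w (flagV m) y

lemma lam_flagV_sum (k : Fin (m + 2)) (y : Fin (m + 1) → ℝ) :
    lam k (flagT m y) = lam 0 y * lam k (bc (m + 1))
      + y 0 * lam k (fun _ => 1 / ((m : ℝ) + 1))
      + ∑ a : Fin m, y a.succ * lam k (ee a.succ.succ) := by
  rw [flagT_eq, lam_sum_smul k _ (lam_sum y), Fin.sum_univ_succ, Fin.sum_univ_succ]
  simp only [flagV, Fin.cons_zero, Fin.cons_succ, lam_succ]
  ring

lemma lam_const_zero : lam (0 : Fin (m + 2)) (fun _ : Fin (m + 1) => 1 / ((m : ℝ) + 1)) = 0 := by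
  have hn : ((m : ℝ) + 1) ≠ 0 := by positivity
  rw [lam_zero]
  simp only [Finset.sum_const, Finset.card_univ, Fintype.card_fin, nsmul_eq_mul]
  push_cast
  field_simp
  ring

lemma lam_flag_zero (y : Fin (m + 1) → ℝ) :
    lam 0 (flagT m y) = lam 0 y / ((m : ℝ) + 2) := by
  rw [lam_flagV_sum, lam_bc, lam_const_zero]
  have : ∀ a : Fin m, y a.succ * lam (0 : Fin (m + 2)) (ee a.succ.succ) = 0 := by
    intro a
    rw [lam_ee]
    simp [(Fin.succ_ne_zero a.succ).symm]
  simp only [this, Finset.sum_const_zero]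
  push_cast
  ring_nf

lemma lam_flag_one (y : Fin (m + 1) → ℝ) :
    lam (Fin.succ 0) (flagT m y) = lam 0 y / ((m : ℝ) + 2) + y 0 / ((m : ℝ) + 1) := by
  rw [lam_flagV_sum, lam_bc]
  have : ∀ a : Fin m, y a.succ * lam (Fin.succ 0 : Fin (m + 2)) (ee a.succ.succ) = 0 := by
    intro a
    rw [lam_ee]
    have : (Fin.succ 0 : Fin (m + 2)) ≠ a.succ.succ := by
      intro h
      have := Fin.succ_injective _ h
      exact (Fin.succ_ne_zero a) this.symm
    rw [if_neg this, mul_zero]
  rw [Finset.sum_eq_zero (fun a _ => this a), lam_succ]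
  push_cast
  ring_nf

lemma lam_flag_succ (a : Fin m) (y : Fin (m + 1) → ℝ) :
    lam a.succ.succ (flagT m y) = lam 0 y / ((m : ℝ) + 2) + y 0 / ((m : ℝ) + 1) + y a.succ := by
  rw [lam_flagV_sum, lam_bc]
  simp only [lam_ee, lam_succ, Fin.succ_inj]
  rw [Finset.sum_eq_single a]
  · simp
    push_cast
    ring_nf
  · intro b _ hb
    simp [Ne.symm hb]
  · simp

lemma flagT_injective : Function.Injective (flagT m) := by
  intro y y' h
  have hn : ((m : ℝ) + 1) ≠ 0 := by positivity
  have hn2 : ((m : ℝ) + 2) ≠ 0 := by positivity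
  have h0 : lam 0 y = lam 0 y' := by
    have := lam_flag_zero y
    rw [h, lam_flag_zero] at this
    field_simp at this
    linarith
  have h1 : y 0 = y' 0 := by
    have := lam_flag_one y
    rw [h, lam_flag_one, h0] at this
    have h2 := add_left_cancel this
    field_simp at h2
    linarith
  ext i
  refine Fin.cases h1 (fun a => ?_) i
  have := lam_flag_succ a y
  rw [h, lam_flag_succ, h0, h1] at this
  linarith

lemma flagA_det : (Aw (flagV m)).det ≠ 0 := by
  have hinj : Function.Injective (Aw (flagV m)).mulVec := by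
    intro x y h
    apply flagT_injective (m := m)
    simp only [flagT, aff, h]
  have hu := Matrix.mulVec_injective_iff_isUnit.1 hinj
  exact ((Matrix.isUnit_iff_isUnit_det _).1 hu).ne_zero

/-- The model flag simplex. -/
def flagD (m : ℕ) : Set (Fin (m + 1) → ℝ) :=
  {x | x ∈ sig (m + 1) ∧ lam 0 x ≤ lam (Fin.succ 0) x ∧
    ∀ a : Fin m, lam (Fin.succ 0) x ≤ lam a.succ.succ x}

lemma flagT_image : flagT m '' sig (m + 1) = flagD m := by
  have hn : (0 : ℝ) < (m : ℝ) + 1 := by positivity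
  have hn2 : (0 : ℝ) < (m : ℝ) + 2 := by positivity
  ext x
  constructor
  · rintro ⟨y, hy, rfl⟩
    have h0 : 0 ≤ lam 0 y := hy 0
    have h1 : 0 ≤ y 0 := sig_nonneg hy 0
    have hq : 0 ≤ lam 0 y / ((m : ℝ) + 2) := by positivity
    have hp : 0 ≤ y 0 / ((m : ℝ) + 1) := by positivity
    refine ⟨?_, ?_, ?_⟩
    · intro l
      refine Fin.cases ?_ (fun i => ?_) l
      · rw [lam_flag_zero]; exact hq
      · refine Fin.cases ?_ (fun a => ?_) i
        · rw [lam_flag_one]; linarith
        · rw [lam_flag_succ]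
          have := sig_nonneg hy a.succ
          linarith
    · rw [lam_flag_zero, lam_flag_one]; linarith
    · intro a
      rw [lam_flag_one, lam_flag_succ]
      have := sig_nonneg hy a.succ
      linarith
  · rintro ⟨hx, h1, h2⟩
    let y : Fin (m + 1) → ℝ := Fin.cons (((m : ℝ) + 1) * (lam (Fin.succ 0) x - lam 0 x))
      (fun a : Fin m => lam a.succ.succ x - lam (Fin.succ 0) x)
    have hy0 : y 0 = ((m : ℝ) + 1) * (lam (Fin.succ 0) x - lam 0 x) := rfl
    have hys : ∀ a : Fin m, y a.succ = lam a.succ.succ x - lam (Fin.succ 0) x := fun a => rfl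
    have hsumlam : lam 0 x + (lam (Fin.succ 0) x + ∑ a : Fin m, lam a.succ.succ x) = 1 := by
      have := lam_sum x
      rw [Fin.sum_univ_succ, Fin.sum_univ_succ] at this
      exact this
    have hl0 : lam 0 y = ((m : ℝ) + 2) * lam 0 x := by
      rw [lam_zero, Fin.sum_univ_succ]
      simp only [hy0, hys, Finset.sum_sub_distrib, Finset.sum_const, Finset.card_univ,
        Fintype.card_fin, nsmul_eq_mul]
      nlinarith
    have hymem : y ∈ sig (m + 1) := by
      intro l
      refine Fin.cases ?_ (fun i => ?_) l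
      · rw [hl0]
        have := hx 0
        positivity
      · refine Fin.cases ?_ (fun a => ?_) i
        · show 0 ≤ y 0
          rw [hy0]
          apply mul_nonneg hn.le
          linarith
        · show 0 ≤ y a.succ
          rw [hys]
          have := h2 a
          linarith
    refine ⟨y, hymem, ?_⟩
    apply eq_of_lam
    intro l
    refine Fin.cases ?_ (fun i => ?_) l
    · rw [lam_flag_zero, hl0]
      field_simp
    · refine Fin.cases ?_ (fun a => ?_) i
      · rw [lam_flag_one, hl0, hy0]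
        field_simp
        ring
      · rw [lam_flag_succ, hl0, hy0, hys]
        field_simp
        ring

/-- The identity for the squared distance on the model flag simplex. -/
lemma uu_flag (y : Fin (m + 1) → ℝ) :
    uu (flagT m y) - (1 / ((m : ℝ) + 2) + 2 / (((m : ℝ) + 1) * ((m : ℝ) + 2) * ((m : ℝ) + 3))) * ts y ^ 2
      = flagW y := by
  have hn : ((m : ℝ) + 1) ≠ 0 := by positivity
  have hn2 : ((m : ℝ) + 2) ≠ 0 := by positivity
  have hn3 : ((m : ℝ) + 3) ≠ 0 := by positivity
  unfold uu flagW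
  rw [Fin.sum_univ_succ, Fin.sum_univ_succ, lam_flag_zero, lam_flag_one]
  simp only [lam_flag_succ]
  have hl : lam 0 y = 1 - ts y := rfl
  rw [hl]
  have hsplit : ∀ a : Fin m, (((1 - ts y) / ((m : ℝ) + 2) + y 0 / ((m : ℝ) + 1) + y a.succ)
        - 1 / (((m + 1 : ℕ) : ℝ) + 1)) ^ 2
      = y a.succ ^ 2 + 2 * ((1 - ts y) / ((m : ℝ) + 2) + y 0 / ((m : ℝ) + 1) - 1 / ((m : ℝ) + 2)) * y a.succ
        + ((1 - ts y) / ((m : ℝ) + 2) + y 0 / ((m : ℝ) + 1) - 1 / ((m : ℝ) + 2)) ^ 2 := by
    intro a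
    push_cast
    have : (m : ℝ) + 1 + 1 = (m : ℝ) + 2 := by ring
    rw [this]
    ring
  simp only [hsplit, Finset.sum_add_distrib, Finset.sum_const, Finset.card_univ, Fintype.card_fin,
    nsmul_eq_mul, ← Finset.mul_sum]
  have hss : ∑ a : Fin m, y a.succ = ss y := rfl
  rw [hss]
  have hY : y 0 = ts y - ss y := by rw [ts_eq]; ring
  rw [hY]
  push_cast
  have e2 : (m : ℝ) + 1 + 1 = (m : ℝ) + 2 := by ring
  rw [e2]
  field_simp
  ring

end P254
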