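import Vale.Agent.P254.Det

open MeasureTheory Set Finset Real
open scoped BigOperators Pointwise

namespace P254

variable {n : ℕ}

/-- The universal constant: the value of `det Cov / vol ^ 2` on simplices. -/
noncomputable def CC (n : ℕ) : ℝ :=
  (1 / (((n : ℝ) + 1) * (n + 2))) ^ n / (((n : ℝ) + 1) * (v0 n) ^ 2)

lemma CC_pos : 0 < CC n := by
  unfold CC
  have := v0_pos (n := n)
  positivity

lemma DD_key (p : Fin n → ℝ) :
    ((n : ℝ) + 1) * DD p = TT p ^ 2 *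
      ((Sp p + pos (lam 0 p) ^ 2) / TT p ^ 2 + (1 + Sm p + pos (-lam 0 p) ^ 2) / TT p ^ 2
        - (Sp p + pos (lam 0 p) ^ 2) / TT p ^ 2 * ((1 + Sm p + pos (-lam 0 p) ^ 2) / TT p ^ 2)) := by
  have huv : (pos (lam 0 p) = lam 0 p ∧ pos (-lam 0 p) = 0) ∨
      (pos (lam 0 p) = 0 ∧ pos (-lam 0 p) = -lam 0 p) := by
    rcases le_or_gt (lam 0 p) 0 with h | h
    · exact Or.inr ⟨pos_of_nonpos h, pos_neg_of_nonpos h⟩
    · exact Or.inl ⟨pos_of_pos h, pos_of_nonpos (by linarith)⟩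
  have h := alg_identity (TT p) (lam 0 p) (Sp p) (Sm p) ((n : ℝ) + 1) (pos (lam 0 p))
    (pos (-lam 0 p)) (TT_pos p).ne' (by positivity) huv
  rw [show ((n : ℝ) + 1 - 1) = n by ring] at h
  rw [DD_eq, ip_nn, ip_pn, ip_mn, ip_pp, ip_pm, ip_mm]
  exact h

lemma aa_lam (p : Fin n → ℝ) :
    aa (fun l => lam l p) = (Sp p + pos (lam 0 p) ^ 2) / TT p ^ 2 := by
  unfold aa TT Sp pos
  rw [Fin.sum_univ_succ (fun l => max (lam l p) 0 ^ 2)]
  simp only [lam_succ]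
  congr 1
  ring

lemma bb_lam (p : Fin n → ℝ) :
    bb (fun l => lam l p) = (1 + Sm p + pos (-lam 0 p) ^ 2) / TT p ^ 2 := by
  unfold bb TT Sm pos
  rw [Fin.sum_univ_succ (fun l => max (-(lam l p)) 0 ^ 2)]
  simp only [lam_succ]
  congr 1
  ring

theorem K0_isoD (p : Fin n → ℝ) :
    isoD (K0 p) = (1 - (1 - aa (fun l => lam l p)) * (1 - bb (fun l => lam l p))) * CC n := by
  have hk := DD_key p
  rw [← aa_lam, ← bb_lam] at hk
  set a := aa (fun l => lam l p)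
  set b := bb (fun l => lam l p)
  have hT := (TT_pos p).ne'
  have hv : v0 n ≠ 0 := v0_pos.ne'
  have hn : ((n : ℝ) + 1) ≠ 0 := by positivity
  have hD : DD p = TT p ^ 2 * (a + b - a * b) / ((n : ℝ) + 1) := by
    rw [← hk]; field_simp
  unfold isoD CC
  rw [cov_det, K0_vol, hD]
  field_simp
  ring

lemma lam_zero_nonneg (l : Fin (n + 1)) : 0 ≤ lam l (0 : Fin n → ℝ) := by
  refine Fin.cases ?_ (fun i => ?_) l
  · simp [lam_zero]
  · simp [lam_succ]

lemma sig_eq_K0 : sig n = K0 (0 : Fin n → ℝ) := by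
  rw [K0_eq]
  ext x
  constructor
  · intro hx
    exact ⟨0, le_rfl, fun l => by simpa using hx l⟩
  · rintro ⟨s, hs, hx⟩ l
    exact (mul_nonneg hs (lam_zero_nonneg l)).trans (hx l)

lemma hull_ee : convexHull ℝ (range (ee : Fin (n + 1) → Fin n → ℝ)) = sig n := by
  rw [sig_eq_K0, K0]
  have h0 : (0 : Fin n → ℝ) ∈ range (ee : Fin (n + 1) → Fin n → ℝ) :=
    ⟨0, by ext i; simp [ee_zero]⟩
  rw [Set.insert_eq_of_mem h0]

lemma aa_zero : aa (fun l : Fin (n + 1) => lam l (0 : Fin n → ℝ)) = 1 := by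
  unfold aa
  rw [Fin.sum_univ_succ (fun l => max (lam l (0 : Fin n → ℝ)) 0 ^ 2),
    Fin.sum_univ_succ (fun l => max (lam l (0 : Fin n → ℝ)) 0)]
  simp [lam_zero, lam_succ]

lemma bb_zero : bb (fun l : Fin (n + 1) => lam l (0 : Fin n → ℝ)) = 1 := by
  unfold bb
  rw [Fin.sum_univ_succ (fun l => max (-(lam l (0 : Fin n → ℝ))) 0 ^ 2),
    Fin.sum_univ_succ (fun l => max (lam l (0 : Fin n → ℝ)) 0)]
  simp [lam_zero, lam_succ]

theorem sig_isoD : isoD (sig n) = CC n := by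
  rw [sig_eq_K0, K0_isoD, aa_zero, bb_zero]
  ring

lemma sig_vol : vol (sig n) = v0 n := by
  rw [vol_eq_integral, mom0]
  rfl

end P254
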