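import Vale.Agent.P254.Flag

open MeasureTheory Set Finset Real
open scoped BigOperators Pointwise

namespace P254

variable {n : ℕ}

/-- The centroid of the facet of the standard simplex opposite the vertex `l`. -/
noncomputable def fc (l : Fin (n + 1)) : Fin n → ℝ := fun i => if i.succ = l then 0 else 1 / (n : ℝ)

lemma lam_fc (hn : 0 < n) (l k : Fin (n + 1)) :
    lam k (fc l) = if k = l then 0 else 1 / (n : ℝ) := by
  have hn' : (n : ℝ) ≠ 0 := by exact_mod_cast hn.ne'
  refine Fin.cases ?_ (fun i => ?_) k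
  · rw [lam_zero]
    refine Fin.cases ?_ (fun j => ?_) l
    · simp only [fc, Fin.succ_ne_zero, if_false, if_true, Finset.sum_const, Finset.card_univ,
        Fintype.card_fin, nsmul_eq_mul]
      field_simp
      ring
    · have h0 : (0 : Fin (n + 1)) ≠ j.succ := (Fin.succ_ne_zero j).symm
      rw [if_neg h0]
      have h1 : ∑ i : Fin n, fc j.succ i = (n : ℝ) * (1 / (n : ℝ)) - 1 / (n : ℝ) := by
        have h2 : ∀ i : Fin n, fc j.succ i = 1 / (n : ℝ) - if i = j then 1 / (n : ℝ) else 0 := by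
          intro i
          simp only [fc, Fin.succ_inj]
          by_cases h : i = j <;> simp [h]
        simp only [h2, Finset.sum_sub_distrib, Finset.sum_ite_eq', Finset.mem_univ, if_true,
          Finset.sum_const, Finset.card_univ, Fintype.card_fin, nsmul_eq_mul]
      rw [h1]
      field_simp
      ring
  · rw [lam_succ]
    rfl

variable {m : ℕ}

lemma exists_perm {l i : Fin (m + 2)} (h : l ≠ i) :
    ∃ pe : Equiv.Perm (Fin (m + 2)), pe 0 = l ∧ pe (Fin.succ 0) = i := by
  let p1 : Equiv.Perm (Fin (m + 2)) := Equiv.swap 0 l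
  have hp0 : p1 0 = l := by simp [p1]
  let j := p1.symm i
  have hj : j ≠ 0 := by
    intro hj0
    have : i = p1 j := by simp [j]
    rw [hj0, hp0] at this
    exact h this.symm
  let p2 : Equiv.Perm (Fin (m + 2)) := Equiv.swap (Fin.succ 0) j
  have h01 : (0 : Fin (m + 2)) ≠ Fin.succ 0 := (Fin.succ_ne_zero 0).symm
  refine ⟨p2.trans p1, ?_, ?_⟩
  · have : p2 0 = 0 := Equiv.swap_apply_of_ne_of_ne h01 hj.symm
    simp [this, hp0]
  · have : p2 (Fin.succ 0) = j := Equiv.swap_apply_left _ _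
    change p1 (p2 (Fin.succ 0)) = i
    rw [this]
    simp [j]

/-- The piece of the simplex on which `l` carries the smallest barycentric coordinate and `i`
the next smallest. -/
def Dset (l i : Fin (m + 2)) : Set (Fin (m + 1) → ℝ) :=
  {x | x ∈ sig (m + 1) ∧ lam l x ≤ lam i x ∧ ∀ k, k ≠ l → lam i x ≤ lam k x}

lemma Dset_closed (l i : Fin (m + 2)) : IsClosed (Dset l i) := by
  have : Dset l i = sig (m + 1) ∩ ({x | lam l x ≤ lam i x} ∩
      ⋂ k, ⋂ (_ : k ≠ l), {x | lam i x ≤ lam k x}) := by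
    ext x
    simp only [Dset, mem_setOf_eq, mem_inter_iff, mem_iInter, ne_eq]
  rw [this]
  refine sig_closed.inter ((isClosed_le (lam_continuous l) (lam_continuous i)).inter ?_)
  exact isClosed_iInter (fun k => isClosed_iInter (fun _ =>
    isClosed_le (lam_continuous i) (lam_continuous k)))

lemma Dset_eq (pe : Equiv.Perm (Fin (m + 2))) :
    Dset (pe 0) (pe (Fin.succ 0)) = Pp pe '' flagD m := by
  ext x
  constructor
  · rintro ⟨hx, h1, h2⟩
    refine ⟨Pp pe.symm x, ⟨Pp_mem _ hx, ?_, ?_⟩, Pp_symm pe x⟩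
    · simp only [lam_Pp, Equiv.symm_symm]
      exact h1
    · intro a
      simp only [lam_Pp, Equiv.symm_symm]
      apply h2
      intro h
      have := pe.injective h
      exact (Fin.succ_ne_zero _) this
  · rintro ⟨z, ⟨hz, h1, h2⟩, rfl⟩
    refine ⟨Pp_mem _ hz, ?_, ?_⟩
    · simp only [lam_Pp, Equiv.symm_apply_apply]
      exact h1
    · intro k hk
      simp only [lam_Pp, Equiv.symm_apply_apply]
      have hk0 : pe.symm k ≠ 0 := by
        intro h
        apply hk
        rw [← h]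
        simp
      obtain ⟨b, hb⟩ := Fin.exists_succ_eq.2 hk0
      rw [← hb]
      have hb1 : b ≠ 0 ∨ b = 0 := by tauto
      rcases hb1 with hb1 | hb1
      · obtain ⟨a, ha⟩ := Fin.exists_succ_eq.2 hb1
        rw [← ha]
        exact h2 a
      · rw [hb1]

lemma uu_Pp (pe : Equiv.Perm (Fin (n + 1))) (x : Fin n → ℝ) : uu (Pp pe x) = uu x := by
  unfold uu
  simp only [lam_Pp]
  exact Equiv.sum_comp pe.symm (fun l => (lam l x - 1 / ((n : ℝ) + 1)) ^ 2)

/-- The constant in the flag identity. -/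
noncomputable def cst (m : ℕ) : ℝ :=
  1 / ((m : ℝ) + 2) + 2 / (((m : ℝ) + 1) * ((m : ℝ) + 2) * ((m : ℝ) + 3))

lemma tt_piece (pe : Equiv.Perm (Fin (m + 2))) {y : Fin (m + 1) → ℝ} (hy : y ∈ sig (m + 1)) :
    tt (Pp pe (flagT m y)) = ts y := by
  have hn2 : ((m : ℝ) + 2) ≠ 0 := by positivity
  have hmem : Pp pe (flagT m y) ∈ Dset (pe 0) (pe (Fin.succ 0)) := by
    rw [Dset_eq]
    refine ⟨flagT m y, ?_, rfl⟩
    rw [← flagT_image]
    exact ⟨y, hy, rfl⟩
  obtain ⟨_, h1, h2⟩ := hmem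
  have hval : tl (pe 0) (Pp pe (flagT m y)) = ts y := by
    unfold tl
    rw [lam_Pp, Equiv.symm_apply_apply, lam_flag_zero, lam_zero]
    push_cast
    unfold ts
    have e : (m : ℝ) + 1 + 1 = (m : ℝ) + 2 := by ring
    rw [e]
    field_simp
    ring
  rw [← hval]
  apply le_antisymm _ (tl_le_tt _ _)
  rw [tt_le_iff]
  intro k
  unfold tl
  have hle : lam (pe 0) (Pp pe (flagT m y)) ≤ lam k (Pp pe (flagT m y)) := by
    by_cases hk : k = pe 0
    · rw [hk]
    · exact h1.trans (h2 k hk)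
  have hpos : (0 : ℝ) < ((m + 1 : ℕ) : ℝ) + 1 := by positivity
  have := mul_le_mul_of_nonneg_left hle hpos.le
  linarith

lemma hedge_piece (hm : 0 < m + 1) (pe : Equiv.Perm (Fin (m + 2))) {y : Fin (m + 1) → ℝ}
    (h0 : ∀ a : Fin m, y a.succ = 0) :
    Pp pe (flagT m y) = hom (y 0) (fc (pe 0)) := by
  have hn : ((m : ℝ) + 1) ≠ 0 := by positivity
  have hn2 : ((m : ℝ) + 2) ≠ 0 := by positivity
  have hl0 : lam 0 y = 1 - y 0 := by
    rw [lam_zero, Fin.sum_univ_succ]
    simp [h0]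
  apply eq_of_lam
  intro k
  obtain ⟨b, rfl⟩ : ∃ b, k = pe b := ⟨pe.symm k, by simp⟩
  rw [lam_Pp, Equiv.symm_apply_apply, lam_hom, lam_fc hm]
  push_cast
  have e : (m : ℝ) + 1 + 1 = (m : ℝ) + 2 := by ring
  rw [e]
  refine Fin.cases ?_ (fun i => ?_) b
  · rw [lam_flag_zero, hl0]
    simp only [if_true]
    ring
  · have hne : pe i.succ ≠ pe 0 := fun h => Fin.succ_ne_zero i (pe.injective h)
    rw [if_neg hne]
    refine Fin.cases ?_ (fun a => ?_) i
    · rw [lam_flag_one, hl0]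
      ring
    · rw [lam_flag_succ, hl0, h0]
      ring

/-- The hypotheses on the radial function. -/
structure Adm (m : ℕ) (g : (Fin (m + 1) → ℝ) → ℝ) : Prop where
  cont : Continuous g
  conv : ConvexOn ℝ (sig (m + 1)) g
  homog : ∀ r : ℝ, 0 ≤ r → ∀ x, g (hom r x) = r * g x
  ge_tt : ∀ x ∈ sig (m + 1), tt x ≤ g x
  facet : ∀ l, g (fc l) = 1

theorem piece_nonneg {g : (Fin (m + 1) → ℝ) → ℝ} (hg : Adm m g) (pe : Equiv.Perm (Fin (m + 2))) :
    0 ≤ ∫ x in Dset (pe 0) (pe (Fin.succ 0)), (uu x - cst m * tt x ^ 2) * (g x - tt x) := by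
  have hm : 0 < m + 1 := Nat.succ_pos m
  rw [Dset_eq]
  have hD : MeasurableSet (flagD m) := by
    rw [← flagT_image]
    exact (sig_compact.image (aff_continuous _ _)).measurableSet
  change 0 ≤ ∫ x in aff (Aw (fun l => ee (pe l))) (ee (pe 0)) '' flagD m, _
  rw [image_integral _ (Pp_det_ne pe) hD, Pp_abs_det, one_mul]
  change 0 ≤ ∫ t in flagD m, (uu (Pp pe t) - cst m * tt (Pp pe t) ^ 2) * (g (Pp pe t) - tt (Pp pe t))
  rw [← flagT_image]
  change 0 ≤ ∫ t in aff (Aw (flagV m)) (flagV m 0) '' sig (m + 1), _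
  rw [image_integral _ flagA_det sig_measurable]
  apply mul_nonneg (abs_nonneg _)
  change 0 ≤ ∫ y in sig (m + 1), (uu (Pp pe (flagT m y)) - cst m * tt (Pp pe (flagT m y)) ^ 2) *
    (g (Pp pe (flagT m y)) - tt (Pp pe (flagT m y)))
  have hmemT : ∀ y ∈ sig (m + 1), Pp pe (flagT m y) ∈ sig (m + 1) := by
    intro y hy
    apply Pp_mem
    have : flagT m y ∈ flagD m := by
      rw [← flagT_image]
      exact ⟨y, hy, rfl⟩
    exact this.1
  let ψ : (Fin (m + 1) → ℝ) → ℝ := fun y => g (Pp pe (flagT m y)) - ts y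
  have hcT : Continuous (fun y : Fin (m + 1) → ℝ => Pp pe (flagT m y)) :=
    (Pp_continuous pe).comp (aff_continuous _ _)
  have hψc : Continuous ψ := (hg.cont.comp hcT).sub ts_continuous
  have hψv : ConvexOn ℝ (sig (m + 1)) ψ := by
    have h1 : ConvexOn ℝ (sig (m + 1)) (fun y => g (Pp pe (flagT m y))) := by
      have hPa : ConvexOn ℝ (flagD m) (fun x => g (Pp pe x)) := by
        have hconvD : Convex ℝ (flagD m) := by
          rw [← flagT_image]
          change Convex ℝ (aff (Aw (flagV m)) (flagV m 0) '' sig (m + 1))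
          rw [← affMap_coe]
          exact sig_convex.affine_image _
        exact convex_comp_aff hg.conv hconvD (fun x hx => Pp_mem pe hx.1)
      exact convex_comp_aff hPa sig_convex (fun y hy => by
        change flagT m y ∈ flagD m
        rw [← flagT_image]
        exact ⟨y, hy, rfl⟩)
    have h2 : ConcaveOn ℝ (sig (m + 1)) (ts : (Fin (m + 1) → ℝ) → ℝ) := by
      refine ⟨sig_convex, ?_⟩
      intro x _ y _ a b _ _ _
      apply le_of_eq
      simp [ts, Finset.sum_add_distrib, Finset.mul_sum]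
    exact h1.add h2.neg |>.congr (fun y _ => by simp [ψ, sub_eq_add_neg])
  have hψ0 : ∀ y ∈ sig (m + 1), 0 ≤ ψ y := by
    intro y hy
    have := hg.ge_tt _ (hmemT y hy)
    rw [tt_piece pe hy] at this
    simp only [ψ]
    linarith
  have hψe : ∀ y ∈ sig (m + 1), (∀ a : Fin m, y a.succ = 0) → ψ y = 0 := by
    intro y hy h0
    simp only [ψ]
    rw [hedge_piece hm pe h0, hg.homog _ (sig_nonneg hy 0), hg.facet, ts_eq]
    have : ss y = 0 := by simp [ss, h0]
    rw [this]
    ring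
  have := flag_lemma hψc hψv hψ0 hψe
  convert this using 1
  apply setIntegral_congr_fun sig_measurable
  intro y hy
  simp only [ψ]
  rw [tt_piece pe hy, uu_Pp, ← uu_flag]
  rfl

lemma Dset_cover : sig (m + 1) = ⋃ p : {p : Fin (m + 2) × Fin (m + 2) // p.1 ≠ p.2},
    Dset p.1.1 p.1.2 := by
  classical
  ext x
  simp only [Set.mem_iUnion]
  constructor
  · intro hx
    obtain ⟨l, _, hl⟩ := Finset.exists_min_image (Finset.univ : Finset (Fin (m + 2)))
      (fun k => lam k x) ⟨0, Finset.mem_univ _⟩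
    have hne : (Finset.univ.erase l : Finset (Fin (m + 2))).Nonempty := by
      by_cases h : l = 0
      · refine ⟨Fin.succ 0, ?_⟩
        rw [h]
        simp [(Fin.succ_ne_zero _)]
      · exact ⟨0, by simp [Ne.symm h]⟩
    obtain ⟨i, hi, hi'⟩ := Finset.exists_min_image _ (fun k => lam k x) hne
    have hli : l ≠ i := (Finset.ne_of_mem_erase hi).symm
    refine ⟨⟨(l, i), hli⟩, hx, hl i (Finset.mem_univ _), ?_⟩
    intro k hk
    exact hi' k (Finset.mem_erase.2 ⟨hk, Finset.mem_univ _⟩)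
  · rintro ⟨p, hp⟩
    exact hp.1

lemma Dset_pairwise :
    Pairwise (Function.onFun (AEDisjoint volume)
      (fun p : {p : Fin (m + 2) × Fin (m + 2) // p.1 ≠ p.2} => Dset p.1.1 p.1.2)) := by
  rintro ⟨⟨l, i⟩, hli⟩ ⟨⟨l', i'⟩, hli'⟩ hne
  simp only [ne_eq] at hli hli'
  have hkey : ∃ k k' : Fin (m + 2), k ≠ k' ∧
      Dset l i ∩ Dset l' i' ⊆ {x | 1 * lam k x = 1 * lam k' x} := by
    by_cases hl : l = l'
    · subst hl
      have hii : i ≠ i' := by
        intro h
        subst h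
        exact hne rfl
      refine ⟨i, i', hii, ?_⟩
      rintro x ⟨⟨_, _, h2⟩, ⟨_, _, h2'⟩⟩
      have a1 := h2 i' (Ne.symm hli')
      have a2 := h2' i (Ne.symm hli)
      simp only [mem_setOf_eq, one_mul]
      exact le_antisymm a1 a2
    · refine ⟨l, l', hl, ?_⟩
      rintro x ⟨⟨_, h1, h2⟩, ⟨_, h1', h2'⟩⟩
      have a1 := h1.trans (h2 l' (Ne.symm hl))
      have a2 := h1'.trans (h2' l hl)
      simp only [mem_setOf_eq, one_mul]
      exact le_antisymm a1 a2
  obtain ⟨k, k', hkk, hsub⟩ := hkey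
  exact measure_mono_null hsub (null_pair one_pos one_pos hkk)

/-- The key integral inequality. -/
theorem ki {g : (Fin (m + 1) → ℝ) → ℝ} (hg : Adm m g) :
    0 ≤ ∫ x in sig (m + 1), (uu x - cst m * tt x ^ 2) * (g x - tt x) := by
  classical
  have hF : Continuous (fun x : Fin (m + 1) → ℝ => (uu x - cst m * tt x ^ 2) * (g x - tt x)) :=
    ((uu_continuous).sub (continuous_const.mul (tt_continuous.pow 2))).mul
      (hg.cont.sub tt_continuous)
  have hint : IntegrableOn (fun x : Fin (m + 1) → ℝ => (uu x - cst m * tt x ^ 2) * (g x - tt x))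
      (⋃ p : {p : Fin (m + 2) × Fin (m + 2) // p.1 ≠ p.2}, Dset p.1.1 p.1.2) := by
    rw [← Dset_cover]
    exact cont_int hF
  have h1 := integral_iUnion_ae (μ := volume)
    (f := fun x : Fin (m + 1) → ℝ => (uu x - cst m * tt x ^ 2) * (g x - tt x))
    (fun p : {p : Fin (m + 2) × Fin (m + 2) // p.1 ≠ p.2} =>
      (Dset_closed p.1.1 p.1.2).measurableSet.nullMeasurableSet) Dset_pairwise hint
  rw [Dset_cover, h1, tsum_fintype]
  apply Finset.sum_nonneg
  rintro ⟨⟨l, i⟩, hli⟩ _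
  obtain ⟨pe, rfl, rfl⟩ := exists_perm hli
  exact piece_nonneg hg pe

end P254
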