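import Vale.Agent.P254.Near

open MeasureTheory Set Finset Real
open scoped BigOperators Pointwise Topology

namespace P254

variable {n : ℕ}

lemma prod_one_add_ge {ι : Type*} (s : Finset ι) (x : ι → ℝ) (h : ∑ i ∈ s, |x i| ≤ 1) :
    1 + ∑ i ∈ s, x i - (∑ i ∈ s, |x i|) ^ 2 ≤ ∏ i ∈ s, (1 + x i) := by
  classical
  induction s using Finset.induction_on with
  | empty => simp
  | insert i s hi ih =>
    rw [Finset.sum_insert hi] at h
    have hs : ∑ j ∈ s, |x j| ≤ 1 := by linarith [abs_nonneg (x i)]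
    have hIH := ih hs
    rw [Finset.prod_insert hi, Finset.sum_insert hi, Finset.sum_insert hi]
    have hXY : |∑ j ∈ s, x j| ≤ ∑ j ∈ s, |x j| := Finset.abs_sum_le_sum_abs _ _
    set X := ∑ j ∈ s, x j with hX
    set Y := ∑ j ∈ s, |x j| with hY
    have hY0 : 0 ≤ Y := Finset.sum_nonneg (fun j _ => abs_nonneg _)
    have hA0 : 0 ≤ |x i| := abs_nonneg _
    have hAi : |x i| ≤ 1 := by linarith
    have hi1 : 0 ≤ 1 + x i := by
      have := (abs_le.1 hAi).1
      linarith
    have h2 := mul_le_mul_of_nonneg_left hIH hi1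
    refine le_trans ?_ h2
    have hY1 : Y ≤ 1 := hs
    have h3 : -(|x i| * Y) ≤ x i * X := by
      have h4 : |x i * X| ≤ |x i| * Y := by
        rw [abs_mul]
        exact mul_le_mul_of_nonneg_left hXY hA0
      have := (abs_le.1 h4).1
      linarith
    have h5 : x i * Y ^ 2 ≤ |x i| * Y := by
      have h6 : Y ^ 2 ≤ Y := by nlinarith
      have h7 : x i ≤ |x i| := le_abs_self _
      have h8 : 0 ≤ Y ^ 2 := sq_nonneg _
      nlinarith
    nlinarith [sq_nonneg (|x i|)]

/-- The edge matrix of the image of a vertex family. -/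
lemma Aw_comp (A : Matrix (Fin n) (Fin n) ℝ) (b : Fin n → ℝ) (u : Fin (n + 1) → Fin n → ℝ) :
    Aw (aff A b ∘ u) = A * Aw u := by
  ext i j
  simp only [Aw, Matrix.of_apply, Function.comp, aff, Pi.add_apply, Matrix.mul_apply,
    Matrix.mulVec, dotProduct, add_sub_add_right_eq_sub, ← Finset.sum_sub_distrib]
  apply Finset.sum_congr rfl
  intro k _
  ring

lemma hull_comp (A : Matrix (Fin n) (Fin n) ℝ) (b : Fin n → ℝ) (u : Fin (n + 1) → Fin n → ℝ) :
    convexHull ℝ (range (aff A b ∘ u)) = aff A b '' convexHull ℝ (range u) := by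
  rw [aff_hull, Set.range_comp]

/-- Klee's lemma at the vertex `0`. -/
theorem klee0 (hn : 0 < n) {K : Set (Fin n → ℝ)} (hKc : IsClosed K) (hKv : Convex ℝ K)
    (hsub : K ⊆ sig n)
    (hmin : ∀ u : Fin (n + 1) → Fin n → ℝ, K ⊆ convexHull ℝ (range u) → 1 ≤ |(Aw u).det|) :
    fc 0 ∈ K := by
  classical
  by_contra hp
  obtain ⟨f, c, hfc, hfK⟩ := geometric_hahn_banach_point_closed hKv hKc hp
  have hn' : (0 : ℝ) < n := by exact_mod_cast hn
  let fj : Fin n → ℝ := fun j => f (Pi.single j 1)
  have hfe : ∀ y : Fin n → ℝ, f y = ∑ j, y j * fj j := by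
    intro y
    have h1 : y = ∑ j, y j • (Pi.single j (1 : ℝ) : Fin n → ℝ) := by
      ext i
      simp [Finset.sum_apply, Pi.single_apply]
    nth_rewrite 1 [h1]
    rw [map_sum]
    simp only [map_smul, smul_eq_mul, fj]
  let a : Fin n → ℝ := fun j => fj j - c
  have hsum : ∑ j, a j < 0 := by
    have h1 : f (fc 0) = (1 / (n : ℝ)) * ∑ j, fj j := by
      rw [hfe, Finset.mul_sum]
      apply Finset.sum_congr rfl
      intro j _
      simp [fc, Fin.succ_ne_zero]
    rw [h1] at hfc
    have h2 : ∑ j, fj j < n * c := by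
      have := mul_lt_mul_of_pos_left hfc hn'
      rwa [← mul_assoc, mul_one_div_cancel hn'.ne', one_mul] at this
    simp only [a, Finset.sum_sub_distrib, Finset.sum_const, Finset.card_univ, Fintype.card_fin,
      nsmul_eq_mul]
    linarith
  set B := -(∑ j, a j) with hB
  have hB0 : 0 < B := by linarith
  set C := ∑ j, |a j| with hC
  have hC0 : 0 ≤ C := Finset.sum_nonneg (fun j _ => abs_nonneg _)
  have haC : ∀ j, |a j| ≤ C := fun j =>
    Finset.single_le_sum (f := fun j => |a j|) (fun j _ => abs_nonneg _) (Finset.mem_univ j)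
  -- the small parameter
  let u : ℝ := min (1 / (2 * (C + |c| + 1))) (B / (2 * (C ^ 2 + 1)))
  have hD0 : 0 < 2 * (C + |c| + 1) := by positivity
  have hD1 : 0 < 2 * (C ^ 2 + 1) := by positivity
  have hu0 : 0 < u := lt_min (by positivity) (by positivity)
  have hu1 : u * (2 * (C + |c| + 1)) ≤ 1 := by
    have : u ≤ 1 / (2 * (C + |c| + 1)) := min_le_left _ _
    rwa [le_div_iff₀ hD0] at this
  have hu2 : u * (2 * (C ^ 2 + 1)) ≤ B := by
    have : u ≤ B / (2 * (C ^ 2 + 1)) := min_le_right _ _
    rwa [le_div_iff₀ hD1] at this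
  have hcabs : 0 ≤ |c| := abs_nonneg c
  have huC : u * C ≤ 1 / 2 := by nlinarith
  have huc : u * |c| ≤ 1 / 2 := by nlinarith
  have hpos : ∀ j, 0 < 1 - u * a j := by
    intro j
    have h1 : a j ≤ |a j| := le_abs_self _
    have h2 : u * a j ≤ u * C := mul_le_mul_of_nonneg_left (h1.trans (haC j)) hu0.le
    linarith
  let d : Fin n → ℝ := fun j => (1 - u * a j)⁻¹
  have hd0 : ∀ j, 0 < d j := fun j => inv_pos.2 (hpos j)
  let v : Fin (n + 1) → Fin n → ℝ := Fin.cons 0 (fun j => d j • Pi.single j 1)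
  have hAv : Aw v = Matrix.diagonal d := by
    ext i j
    simp only [Aw, Matrix.of_apply, v, Fin.cons_zero, Fin.cons_succ, Pi.zero_apply, sub_zero,
      Pi.smul_apply, smul_eq_mul, Matrix.diagonal_apply, Pi.single_apply]
    by_cases h : i = j
    · simp [h]
    · simp [h, Ne.symm h]
  have hcover : K ⊆ convexHull ℝ (range v) := by
    intro y hy
    rw [← simplex_hull]
    have hys := hsub hy
    refine ⟨fun j => y j * (1 - u * a j), ?_, ?_⟩
    · intro l
      refine Fin.cases ?_ (fun j => ?_) l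
      · rw [lam_zero]
        have h1 := hfK y hy
        rw [hfe] at h1
        have h2 : 0 ≤ lam 0 y := hys 0
        rw [lam_zero] at h2
        have h3 : ∑ j, y j * (1 - u * a j) = ∑ j, y j - u * ∑ j, y j * a j := by
          rw [Finset.mul_sum, ← Finset.sum_sub_distrib]
          apply Finset.sum_congr rfl
          intro j _
          ring
        have h4 : ∑ j, y j * a j = ∑ j, y j * fj j - c * ∑ j, y j := by
          rw [Finset.mul_sum, ← Finset.sum_sub_distrib]
          apply Finset.sum_congr rfl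
          intro j _
          simp only [a]
          ring
        rw [h3, h4]
        set S := ∑ j, y j with hS
        set F := ∑ j, y j * fj j with hF
        have h5 : 1 - S + u * (F - c * S) ≥ (1 - S) * (1 + u * c) := by
          have : c < F := h1
          nlinarith
        have h6 : 0 ≤ 1 + u * c := by
          have h7 := neg_abs_le c
          have : u * (-|c|) ≤ u * c := mul_le_mul_of_nonneg_left h7 hu0.le
          nlinarith
        have h7 : 0 ≤ (1 - S) * (1 + u * c) := mul_nonneg h2 h6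
        linarith
      · rw [lam_succ]
        exact mul_nonneg (hys j.succ) (hpos j).le
    · ext i
      simp only [aff, hAv, Pi.add_apply, Matrix.mulVec_diagonal, v, Fin.cons_zero, Pi.zero_apply,
        add_zero, d]
      have := (hpos i).ne'
      field_simp
  have h1 := hmin v hcover
  rw [hAv, Matrix.det_diagonal, abs_of_pos (Finset.prod_pos (fun j _ => hd0 j))] at h1
  have h2 : ∏ j, d j = (∏ j, (1 - u * a j))⁻¹ := by
    simp only [d]
    rw [Finset.prod_inv_distrib]
  rw [h2] at h1
  have hpp : 0 < ∏ j, (1 - u * a j) := Finset.prod_pos (fun j _ => hpos j)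
  have h3 : ∏ j, (1 - u * a j) ≤ 1 := by
    have := (one_le_inv₀ hpp).1 h1
    exact this
  have h4 := prod_one_add_ge Finset.univ (fun j => -(u * a j)) (by
    have : ∑ j, |(-(u * a j))| = u * C := by
      rw [hC, Finset.mul_sum]
      apply Finset.sum_congr rfl
      intro j _
      rw [abs_neg, abs_mul, abs_of_pos hu0]
    rw [this]
    linarith)
  have h5 : ∑ j, |(-(u * a j))| = u * C := by
    rw [hC, Finset.mul_sum]
    apply Finset.sum_congr rfl
    intro j _
    rw [abs_neg, abs_mul, abs_of_pos hu0]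
  have h6 : ∑ j, (-(u * a j)) = u * B := by
    rw [hB, ← Finset.sum_neg_distrib, Finset.mul_sum]
    simp only [mul_neg, Finset.sum_neg_distrib]
  rw [h5, h6] at h4
  have h7 : ∏ j, (1 + -(u * a j)) = ∏ j, (1 - u * a j) := by
    apply Finset.prod_congr rfl
    intro j _
    ring
  rw [h7] at h4
  have h8 : u * C ^ 2 < B := by nlinarith
  have h9 : (u * C) ^ 2 < u * B := by
    have : (u * C) ^ 2 = u * (u * C ^ 2) := by ring
    rw [this]
    exact mul_lt_mul_of_pos_left h8 hu0
  linarith

lemma Pp_fc (hn : 0 < n) (pe : Equiv.Perm (Fin (n + 1))) (l : Fin (n + 1)) :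
    Pp pe (fc l) = fc (pe l) := by
  apply eq_of_lam
  intro k
  rw [lam_Pp, lam_fc hn, lam_fc hn]
  by_cases h : k = pe l
  · simp [h]
  · have : pe.symm k ≠ l := by
      intro h2
      apply h
      rw [← h2]
      simp
    simp [h, this]

/-- Klee's lemma: a minimal enclosing simplex is touched at all its facet centroids. -/
theorem klee (hn : 0 < n) {K : Set (Fin n → ℝ)} (hKc : IsClosed K) (hKv : Convex ℝ K)
    (hsub : K ⊆ sig n)
    (hmin : ∀ u : Fin (n + 1) → Fin n → ℝ, K ⊆ convexHull ℝ (range u) → 1 ≤ |(Aw u).det|)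
    (l : Fin (n + 1)) : fc l ∈ K := by
  let pe : Equiv.Perm (Fin (n + 1)) := Equiv.swap 0 l
  let K2 : Set (Fin n → ℝ) := Pp pe.symm ⁻¹' K
  have hK2c : IsClosed K2 := hKc.preimage (Pp_continuous _)
  have hK2v : Convex ℝ K2 := by
    have := hKv.affine_preimage (affMap (Aw (fun l => ee (pe.symm l))) (ee (pe.symm 0)))
    rwa [affMap_coe] at this
  have hK2s : K2 ⊆ sig n := by
    intro y hy
    have h1 : Pp pe.symm y ∈ sig n := hsub hy
    have h2 := Pp_mem pe h1
    have h3 : Pp pe (Pp pe.symm y) = y := Pp_symm pe y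
    rwa [h3] at h2
  have hback : ∀ x, Pp pe.symm (Pp pe x) = x := by
    intro x
    have := Pp_symm pe.symm x
    simpa using this
  have hmin2 : ∀ u : Fin (n + 1) → Fin n → ℝ, K2 ⊆ convexHull ℝ (range u) → 1 ≤ |(Aw u).det| := by
    intro u hu
    have h1 : K ⊆ convexHull ℝ (range (aff (Aw (fun l => ee (pe.symm l))) (ee (pe.symm 0)) ∘ u)) := by
      intro x hx
      rw [hull_comp]
      refine ⟨Pp pe x, hu ?_, hback x⟩
      change Pp pe.symm (Pp pe x) ∈ K
      rw [hback]
      exact hx
    have h2 := hmin _ h1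
    rw [Aw_comp, Matrix.det_mul, abs_mul, Pp_abs_det, one_mul] at h2
    exact h2
  have h0 := klee0 hn hK2c hK2v hK2s hmin2
  have h1 : Pp pe.symm (fc 0) ∈ K := h0
  rw [Pp_fc hn] at h1
  have h2 : pe.symm 0 = l := by simp [pe]
  rwa [h2] at h1

end P254
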