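import Vale.Agent.P254.Crit

open MeasureTheory Set Finset Real
open scoped BigOperators Pointwise

namespace P254

/-- The layer cake identity with polynomial weight. -/
lemma layer_cake {α : Type*} [MeasurableSpace α] (μ : Measure α) [IsFiniteMeasure μ]
    {f G : α → ℝ} (hf : Measurable f) (hG : Measurable G) (hGi : Integrable G μ)
    (h0 : ∀ᵐ x ∂μ, 0 ≤ f x ∧ f x ≤ 1) (a : ℕ) (ha : 0 < a) :
    ∫ x, f x ^ a * G x ∂μ = ∫ x, G x ∂μ
      - ∫ r in Ioc (0 : ℝ) 1, ((a : ℝ) * r ^ (a - 1)) * ∫ x, (if f x ≤ r then G x else 0) ∂μ := by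
  let F : α → ℝ → ℝ := fun x r => ((a : ℝ) * r ^ (a - 1)) * (if f x ≤ r then G x else 0)
  have hFm : Measurable (Function.uncurry F) := by
    have h1 : Measurable (fun z : α × ℝ => ((a : ℝ) * z.2 ^ (a - 1))) := by fun_prop
    have h2 : Measurable (fun z : α × ℝ => if f z.1 ≤ z.2 then G z.1 else 0) :=
      Measurable.ite (measurableSet_le (hf.comp measurable_fst) measurable_snd)
        (hG.comp measurable_fst) measurable_const
    exact h1.mul h2
  let ν : Measure ℝ := volume.restrict (Ioc (0 : ℝ) 1)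
  have hFi : Integrable (Function.uncurry F) (μ.prod ν) := by
    have hb : Integrable (fun z : α × ℝ => (a : ℝ) * |G z.1|) (μ.prod ν) :=
      ((hGi.abs).comp_fst (ν := ν)).const_mul _
    refine hb.mono' hFm.aestronglyMeasurable ?_
    have hae : ∀ᵐ r ∂ν, r ∈ Ioc (0 : ℝ) 1 := ae_restrict_mem measurableSet_Ioc
    have : ∀ᵐ z ∂(μ.prod ν), z.2 ∈ Ioc (0 : ℝ) 1 := by
      have := Measure.quasiMeasurePreserving_snd (μ := μ) (ν := ν) |>.ae hae
      exact this
    filter_upwards [this] with z hz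
    simp only [Function.uncurry, F, Real.norm_eq_abs]
    have hr : |z.2 ^ (a - 1)| ≤ 1 := by
      rw [abs_of_nonneg (pow_nonneg hz.1.le _)]
      exact pow_le_one₀ hz.1.le hz.2
    rw [abs_mul, abs_mul, abs_of_nonneg (Nat.cast_nonneg a)]
    have hite : |if f z.1 ≤ z.2 then G z.1 else 0| ≤ |G z.1| := by
      split_ifs <;> simp
    have hapos : (0 : ℝ) ≤ a := Nat.cast_nonneg a
    calc (a : ℝ) * |z.2 ^ (a - 1)| * |if f z.1 ≤ z.2 then G z.1 else 0|
        ≤ a * 1 * |G z.1| := by gcongr
      _ = _ := by ring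
  have hswap := integral_integral_swap (f := F) hFi
  -- the inner integral in `r`
  have hinner : ∀ᵐ x ∂μ, ∫ r, F x r ∂ν = (1 - f x ^ a) * G x := by
    filter_upwards [h0] with x hx
    obtain ⟨hx0, hx1⟩ := hx
    have hne : ∀ᵐ r ∂ν, r ≠ f x := by
      have : ∀ᵐ r ∂(volume : Measure ℝ), r ≠ f x := by simp [ae_iff]
      exact ae_restrict_of_ae this
    have hae : (fun r => F x r) =ᵐ[ν] (Ioc (f x) 1).indicator
        (fun r => ((a : ℝ) * r ^ (a - 1)) * G x) := by
      filter_upwards [hne, ae_restrict_mem measurableSet_Ioc] with r hr hmem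
      simp only [F, Set.indicator, Set.mem_Ioc]
      by_cases hle : f x ≤ r
      · have hlt : f x < r := lt_of_le_of_ne hle (Ne.symm hr)
        simp [hle, hlt, hmem.2]
      · have : ¬ (f x < r ∧ r ≤ 1) := fun h => hle h.1.le
        simp [hle, this]
    rw [integral_congr_ae hae, integral_indicator measurableSet_Ioc,
      Measure.restrict_restrict measurableSet_Ioc]
    have hset : Ioc (f x) 1 ∩ Ioc (0 : ℝ) 1 = Ioc (f x) 1 := by
      ext r
      simp only [Set.mem_inter_iff, Set.mem_Ioc]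
      constructor
      · exact fun h => h.1
      · exact fun h => ⟨h, lt_of_le_of_lt hx0 h.1, h.2⟩
    rw [hset, integral_mul_const, ← intervalIntegral.integral_of_le hx1]
    have hder : ∀ r ∈ uIcc (f x) 1, HasDerivAt (fun r : ℝ => r ^ a) ((a : ℝ) * r ^ (a - 1)) r :=
      fun r _ => hasDerivAt_pow a r
    have hint : IntervalIntegrable (fun r : ℝ => (a : ℝ) * r ^ (a - 1)) volume (f x) 1 :=
      (by fun_prop : Continuous (fun r : ℝ => (a : ℝ) * r ^ (a - 1))).intervalIntegrable _ _
    rw [intervalIntegral.integral_eq_sub_of_hasDerivAt hder hint]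
    simp
  have hL : ∫ x, ∫ r, F x r ∂ν ∂μ = ∫ x, G x ∂μ - ∫ x, f x ^ a * G x ∂μ := by
    rw [integral_congr_ae hinner]
    simp only [sub_mul, one_mul]
    apply integral_sub hGi
    have hcomb : Integrable (fun x => (1 - f x ^ a) * G x) μ := by
      refine (hGi.norm.mono' ?_ ?_)
      · exact ((by fun_prop : Measurable fun x => (1 - f x ^ a)).mul hG).aestronglyMeasurable
      · filter_upwards [h0] with x hx
        rw [norm_mul]
        have h1 : ‖1 - f x ^ a‖ ≤ 1 := by
          rw [Real.norm_eq_abs, abs_le]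
          have h2 : f x ^ a ≤ 1 := pow_le_one₀ hx.1 hx.2
          have h3 : 0 ≤ f x ^ a := pow_nonneg hx.1 _
          constructor <;> linarith
        calc _ ≤ 1 * ‖G x‖ := by gcongr
          _ = _ := one_mul _
    have : (fun x => f x ^ a * G x) = fun x => G x - (1 - f x ^ a) * G x := by
      ext x; ring
    rw [this]
    exact hGi.sub hcomb
  have hR : ∫ r, ∫ x, F x r ∂μ ∂ν
      = ∫ r in Ioc (0 : ℝ) 1, ((a : ℝ) * r ^ (a - 1)) * ∫ x, (if f x ≤ r then G x else 0) ∂μ := by
    simp only [F, integral_const_mul]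
    rfl
  rw [hL, hR] at hswap
  linarith

end P254
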