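import Vale.Agent.P254.Klee

open MeasureTheory Set Finset Real
open scoped BigOperators Pointwise Topology

namespace P254

variable {n : ℕ}

/-- The radius of the Banach-Mazur neighbourhood. -/
noncomputable def dl (n : ℕ) : ℝ := eps0 n / (4 * ((n : ℝ) + 1) ^ 2)

/-- The offsets of the barycentric coordinates under `x ↦ ρ x + a`. -/
noncomputable def al (ρ : ℝ) (a : Fin n → ℝ) (k : Fin (n + 1)) : ℝ := lam k a - ρ * lam k 0

lemma lam_Tr (ρ : ℝ) (a x : Fin n → ℝ) (k : Fin (n + 1)) :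
    lam k (ρ • x + a) = ρ * lam k x + al ρ a k := by
  unfold al
  rw [lam_affine k (ρ • x + a), lam_affine k x, lam_affine k a]
  simp only [Pi.add_apply, Pi.smul_apply, smul_eq_mul, mul_add, Finset.sum_add_distrib]
  have h : ∑ i, gr k i * (ρ * x i) = ρ * ∑ i, gr k i * x i := by
    rw [Finset.mul_sum]
    apply Finset.sum_congr rfl
    intro i _
    ring
  rw [h]
  ring

lemma sum_al (ρ : ℝ) (a : Fin n → ℝ) : ∑ k, al ρ a k = 1 - ρ := by
  unfold al
  rw [Finset.sum_sub_distrib, ← Finset.mul_sum, lam_sum, lam_sum]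
  ring

lemma ee_mem (l : Fin (n + 1)) : (ee l : Fin n → ℝ) ∈ sig n := by
  intro k
  rw [lam_ee]
  split_ifs <;> norm_num

lemma exists_ne_fin (hn : 0 < n) (k : Fin (n + 1)) : ∃ j : Fin (n + 1), k ≠ j := by
  by_cases h : k = 0
  · refine ⟨Fin.succ ⟨0, hn⟩, ?_⟩
    rw [h]
    exact (Fin.succ_ne_zero _).symm
  · exact ⟨0, h⟩

lemma al_nonneg (hn : 0 < n) {ρ : ℝ} {a : Fin n → ℝ} (hin : ∀ x ∈ sig n, ρ • x + a ∈ sig n)
    (k : Fin (n + 1)) : 0 ≤ al ρ a k := by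
  obtain ⟨j, hj⟩ := exists_ne_fin hn k
  have h1 := hin _ (ee_mem j) k
  rw [lam_Tr, lam_ee, if_neg hj, mul_zero, zero_add] at h1
  exact h1

lemma al_le (hn : 0 < n) {ρ : ℝ} {a : Fin n → ℝ} (hin : ∀ x ∈ sig n, ρ • x + a ∈ sig n)
    (k : Fin (n + 1)) : al ρ a k ≤ 1 - ρ := by
  rw [← sum_al]
  exact Finset.single_le_sum (f := fun k => al ρ a k) (fun k _ => al_nonneg hn hin k)
    (Finset.mem_univ k)

lemma rho_le (hn : 0 < n) {ρ : ℝ} {a : Fin n → ℝ} (hin : ∀ x ∈ sig n, ρ • x + a ∈ sig n) :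
    ρ ≤ 1 := by
  have h := Finset.sum_nonneg (fun k (_ : k ∈ Finset.univ) => al_nonneg hn hin k)
  rw [sum_al] at h
  linarith

lemma T_aff (ρ : ℝ) (a : Fin n → ℝ) :
    (fun x : Fin n → ℝ => ρ • x + a) = aff (ρ • (1 : Matrix (Fin n) (Fin n) ℝ)) a := by
  ext x i
  simp [aff, Matrix.smul_mulVec]

lemma T_det_ne {ρ : ℝ} (hρ : 0 < ρ) : (ρ • (1 : Matrix (Fin n) (Fin n) ℝ)).det ≠ 0 := by
  rw [hom_det]
  positivity

lemma hull_compact (u : Fin (n + 1) → Fin n → ℝ) : IsCompact (convexHull ℝ (range u)) := by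
  rw [← simplex_hull]
  exact sig_compact.image (aff_continuous _ _)

lemma vol_mono {S S' : Set (Fin n → ℝ)} (hS' : IsCompact S') (h : S ⊆ S') : vol S ≤ vol S' :=
  ENNReal.toReal_mono hS'.measure_lt_top.ne (measure_mono h)

lemma vol_hull {u : Fin (n + 1) → Fin n → ℝ} (h : (Aw u).det ≠ 0) :
    vol (convexHull ℝ (range u)) = |(Aw u).det| * v0 n := by
  rw [← simplex_hull, vol_image _ h sig_measurable, sig_vol]

lemma volume_hull_zero {u : Fin (n + 1) → Fin n → ℝ} (h : (Aw u).det = 0) :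
    volume (convexHull ℝ (range u)) = 0 := by
  rw [← simplex_hull]
  have e : aff (Aw u) (u 0) '' sig n
      = (fun y => y + u 0) '' (Matrix.toLin' (Aw u) '' sig n) := by
    rw [Set.image_image]
    rfl
  rw [e, Set.image_add_right, measure_preimage_add_right,
    Measure.addHaar_image_linearMap, LinearMap.det_toLin', h]
  simp

lemma det_ne_of_sub {K : Set (Fin n → ℝ)} (hpos : 0 < vol K) {u : Fin (n + 1) → Fin n → ℝ}
    (h : K ⊆ convexHull ℝ (range u)) : (Aw u).det ≠ 0 := by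
  intro h0
  have h1 : volume K = 0 := measure_mono_null h (volume_hull_zero h0)
  have h2 : vol K = 0 := by simp [vol, h1]
  linarith

lemma TT_lam (p : Fin n → ℝ) (k : Fin (n + 1)) : -(TT p - 1) ≤ lam k p := by
  have h := T_split (fun l => lam l p) (lam_sum p)
  have h2 : TT p = ∑ l, max (lam l p) 0 := rfl
  have h3 : max (-(lam k p)) 0 ≤ ∑ l, max (-(lam l p)) 0 :=
    Finset.single_le_sum (f := fun l => max (-(lam l p)) 0) (fun l _ => le_max_right _ _)
      (Finset.mem_univ k)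
  have h4 := le_max_left (-(lam k p)) 0
  linarith

section
variable {K : Set (Fin n → ℝ)} {ρ : ℝ} {a : Fin n → ℝ}

lemma T_image_sub (hρ : 0 < ρ) (hin : ∀ x ∈ sig n, ρ • x + a ∈ K)
    {u : Fin (n + 1) → Fin n → ℝ} (hu : K ⊆ convexHull ℝ (range u)) {p : Fin n → ℝ} {l : Fin (n + 1)}
    (hp : ρ • p + a = u l) :
    (fun x : Fin n → ℝ => ρ • x + a) '' K0 p ⊆ convexHull ℝ (range u) := by
  rw [T_aff]
  unfold K0
  rw [aff_hull]
  apply convexHull_min _ (convex_convexHull ℝ _)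
  rintro y ⟨z, hz, rfl⟩
  rw [← T_aff]
  rcases hz with rfl | ⟨k, rfl⟩
  · simp only [hp]
    exact subset_convexHull ℝ _ (mem_range_self l)
  · exact hu (hin _ (ee_mem k))

lemma vertex_TT (hρ : 0 < ρ) (hin : ∀ x ∈ sig n, ρ • x + a ∈ K)
    {u : Fin (n + 1) → Fin n → ℝ} (hu : K ⊆ convexHull ℝ (range u)) (hdet : (Aw u).det ≠ 0)
    (h1 : |(Aw u).det| ≤ 1) {p : Fin n → ℝ} {l : Fin (n + 1)} (hp : ρ • p + a = u l) :
    ρ ^ n * TT p ≤ 1 := by
  have hsub := T_image_sub hρ hin hu hp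
  have h2 := vol_mono (hull_compact u) hsub
  rw [vol_hull hdet, T_aff, vol_image _ (T_det_ne hρ) (K0_compact p).measurableSet, K0_vol, hom_det,
    abs_of_pos (by positivity)] at h2
  have hv := v0_pos (n := n)
  have h3 : ρ ^ n * TT p * v0 n ≤ 1 * v0 n := by
    calc _ = ρ ^ n * (TT p * v0 n) := by ring
      _ ≤ |(Aw u).det| * v0 n := h2
      _ ≤ 1 * v0 n := mul_le_mul_of_nonneg_right h1 hv.le
  exact le_of_mul_le_mul_right h3 hv

end

lemma eps0_pos (hn : 0 < n) : 0 < eps0 n := by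
  have hn' : (0 : ℝ) < n := by exact_mod_cast hn
  unfold eps0
  positivity

lemma eps0_le (hn : 0 < n) : eps0 n ≤ 1 / 24 := by
  have hn' : (1 : ℝ) ≤ n := by exact_mod_cast hn
  unfold eps0
  apply one_div_le_one_div_of_le (by norm_num)
  have h6 : (2 : ℝ) ≤ (n : ℝ) * ((n : ℝ) + 1) := by nlinarith
  have h7 : (6 : ℝ) ≤ (n : ℝ) * ((n : ℝ) + 1) * ((n : ℝ) + 2) := by nlinarith
  nlinarith

/-- The elementary bounds on the constants. -/
lemma dl_facts (hn : 0 < n) :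
    0 < dl n ∧ dl n = eps0 n * (1 / ((n : ℝ) + 1)) ^ 2 / 4 ∧ (n : ℝ) * (1 / ((n : ℝ) + 1)) ≤ 1 ∧
      (1 / ((n : ℝ) + 1)) ≤ 1 / 2 := by
  have hn' : (1 : ℝ) ≤ n := by exact_mod_cast hn
  have he := eps0_pos hn
  refine ⟨?_, ?_, ?_, ?_⟩
  · unfold dl
    positivity
  · unfold dl
    field_simp
  · rw [mul_one_div, div_le_one (by positivity)]
    linarith
  · apply one_div_le_one_div_of_le (by norm_num)
    linarith

lemma const_ineq {e s d g N : ℝ} (he0 : 0 < e) (he1 : e ≤ 1 / 24) (hs0 : 0 < s) (hs1 : s ≤ 1 / 2)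
    (hN : 0 ≤ N) (hNs : N * s ≤ 1) (hd : d = e * s ^ 2 / 4) (hg : g = 2 * N * d) :
    e * d + g ≤ e * s * (1 - d - N * g) ∧ N * d ≤ 1 / 2 ∧ 0 ≤ d ∧ d < 1 := by
  have hd0 : 0 ≤ d := by rw [hd]; positivity
  have hs2 : s ^ 2 ≤ 1 / 4 := by nlinarith
  have hd1 : d ≤ 1 / 384 := by rw [hd]; nlinarith
  have hNd : N * d ≤ e * s / 4 := by
    rw [hd]
    have : N * (e * s ^ 2 / 4) = (N * s) * (e * s / 4) := by ring
    rw [this]
    have h2 : 0 ≤ e * s / 4 := by positivity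
    nlinarith
  have hes : e * s ≤ 1 / 48 := by nlinarith
  have hNg : N * g ≤ e / 2 := by
    rw [hg]
    have : N * (2 * N * d) = 2 * (N * (N * d)) := by ring
    rw [this]
    have h3 : N * (N * d) ≤ N * (e * s / 4) := mul_le_mul_of_nonneg_left hNd hN
    have h4 : N * (e * s / 4) = (N * s) * (e / 4) := by ring
    have h5 : (N * s) * (e / 4) ≤ 1 * (e / 4) := mul_le_mul_of_nonneg_right hNs (by positivity)
    rw [h4] at h3
    linarith
  have h1 : e * d ≤ e * s * (e * s / 4) := by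
    rw [hd]
    apply le_of_eq
    ring
  have h2 : e * s * (e * s / 4) ≤ e * s * (1 / 192) :=
    mul_le_mul_of_nonneg_left (by linarith) (by positivity)
  have h3 : 1 - d - N * g ≥ 3 / 4 := by linarith
  have h4 : e * s * (3 / 4) ≤ e * s * (1 - d - N * g) :=
    mul_le_mul_of_nonneg_left h3 (by positivity)
  have h5 : g ≤ e * s / 2 := by
    rw [hg]
    linarith
  have h6 : 0 < e * s := by positivity
  refine ⟨by linarith, by linarith, hd0, by linarith⟩

/-- The lower bound on the barycentric coordinates of the vertices of an enclosing simplex of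
volume at most that of the standard simplex. -/
lemma vertex_lam (hn : 0 < n) {K : Set (Fin n → ℝ)} {ρ : ℝ} {a : Fin n → ℝ}
    (hρ : 1 - dl n ≤ ρ) (hKs : K ⊆ sig n) (hin : ∀ x ∈ sig n, ρ • x + a ∈ K)
    {u : Fin (n + 1) → Fin n → ℝ} (hu : K ⊆ convexHull ℝ (range u)) (hdet : (Aw u).det ≠ 0)
    (h1 : |(Aw u).det| ≤ 1) (l k : Fin (n + 1)) :
    al ρ a k - 2 * (n : ℝ) * dl n ≤ lam k (u l) := by
  obtain ⟨hd0, hd1, hNs, hs1⟩ := dl_facts hn
  have hN : (0 : ℝ) ≤ n := Nat.cast_nonneg n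
  have hes := const_ineq (eps0_pos hn) (eps0_le hn) (by positivity) hs1 hN hNs hd1 rfl
  obtain ⟨_, hNd, _, hd2⟩ := hes
  have hρ0 : 0 < ρ := by linarith
  have hρ1 : ρ ≤ 1 := rho_le hn (fun x hx => hKs (hin x hx))
  let p : Fin n → ℝ := ρ⁻¹ • (u l - a)
  have hp : ρ • p + a = u l := by
    simp only [p, smul_smul, mul_inv_cancel₀ hρ0.ne', one_smul, sub_add_cancel]
  have h2 := vertex_TT hρ0 hin hu hdet h1 hp
  have h3 := TT_lam p k
  have hbern : 1 - (n : ℝ) * dl n ≤ ρ ^ n := by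
    have h4 : 1 + (n : ℝ) * (-(dl n)) ≤ (1 + -(dl n)) ^ n :=
      one_add_mul_le_pow (by linarith) n
    have h5 : (1 + -(dl n)) ^ n ≤ ρ ^ n :=
      pow_le_pow_left₀ (by linarith) (by linarith) n
    linarith
  have hTT0 := TT_pos p
  have h6 : TT p ≤ 1 + 2 * ((n : ℝ) * dl n) := by
    have h7 : (1 - (n : ℝ) * dl n) * TT p ≤ 1 := by
      refine le_trans (mul_le_mul_of_nonneg_right hbern hTT0.le) h2
    have h8 : 0 ≤ (n : ℝ) * dl n := by positivity
    have h9 : 1 ≤ (1 - (n : ℝ) * dl n) * (1 + 2 * ((n : ℝ) * dl n)) := by nlinarith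
    have h10 : 0 < 1 - (n : ℝ) * dl n := by linarith
    by_contra hcon
    push Not at hcon
    have := mul_lt_mul_of_pos_left hcon h10
    linarith
  rw [← hp, lam_Tr]
  have h11 : -(2 * ((n : ℝ) * dl n)) ≤ lam k p := by linarith
  have h12 : 0 ≤ 2 * ((n : ℝ) * dl n) := by positivity
  have h13 : ρ * (-(2 * ((n : ℝ) * dl n))) ≤ ρ * lam k p :=
    mul_le_mul_of_nonneg_left h11 hρ0.le
  have h14 : ρ * (2 * ((n : ℝ) * dl n)) ≤ 1 * (2 * ((n : ℝ) * dl n)) :=
    mul_le_mul_of_nonneg_right hρ1 h12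
  nlinarith

end P254
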