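import Vale.Agent.P254.Local

open MeasureTheory Set Finset Real
open scoped BigOperators Pointwise Topology

namespace P254

variable {n : ℕ}

lemma closed_mem_hull (x : Fin n → ℝ) :
    IsClosed {u : Fin (n + 1) → Fin n → ℝ | x ∈ convexHull ℝ (range u)} := by
  haveI : CompactSpace ↥(sig n) := isCompact_iff_compactSpace.1 sig_compact
  let Φ : ↥(sig n) × (Fin (n + 1) → Fin n → ℝ) → (Fin n → ℝ) :=
    fun q => ∑ l, lam l (q.1 : Fin n → ℝ) • q.2 l
  have hΦ : Continuous Φ := by
    apply continuous_finset_sum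
    intro l _
    exact ((lam_continuous l).comp (continuous_subtype_val.comp continuous_fst)).smul
      ((continuous_apply l).comp continuous_snd)
  have hC : IsClosed (Φ ⁻¹' {x}) := isClosed_singleton.preimage hΦ
  have h := isClosedMap_snd_of_compactSpace _ hC
  convert h using 1
  ext u
  simp only [mem_setOf_eq, mem_image, Set.mem_preimage, mem_singleton_iff]
  rw [← simplex_hull]
  constructor
  · rintro ⟨t, ht, rfl⟩
    exact ⟨(⟨t, ht⟩, u), by simp [Φ, aff_w], rfl⟩
  · rintro ⟨⟨⟨t, ht⟩, u'⟩, h1, rfl⟩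
    exact ⟨t, ht, by rw [aff_w]; exact h1⟩

lemma Aw_continuous : Continuous (Aw : (Fin (n + 1) → Fin n → ℝ) → Matrix (Fin n) (Fin n) ℝ) := by
  apply continuous_matrix
  intro i j
  simp only [Aw, Matrix.of_apply]
  fun_prop

lemma Aw_det_continuous :
    Continuous (fun u : Fin (n + 1) → Fin n → ℝ => |(Aw u).det|) :=
  (Aw_continuous.matrix_det).abs

lemma Aw_ee : Aw (ee : Fin (n + 1) → Fin n → ℝ) = 1 := by
  ext i j
  simp only [Aw, Matrix.of_apply, ee_zero, sub_zero, ee_succ, Matrix.one_apply]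
  by_cases h : i = j
  · simp [h]
  · simp [h, Ne.symm h]

/-- The enclosing simplices of volume at most that of the standard simplex. -/
def Wset (K : Set (Fin n → ℝ)) : Set (Fin (n + 1) → Fin n → ℝ) :=
  {u | K ⊆ convexHull ℝ (range u) ∧ |(Aw u).det| ≤ 1}

lemma Wset_closed (K : Set (Fin n → ℝ)) : IsClosed (Wset K) := by
  have : Wset K = (⋂ x ∈ K, {u : Fin (n + 1) → Fin n → ℝ | x ∈ convexHull ℝ (range u)}) ∩
      {u | |(Aw u).det| ≤ 1} := by
    ext u
    simp only [Wset, mem_setOf_eq, mem_inter_iff, mem_iInter, Set.subset_def]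
  rw [this]
  apply IsClosed.inter
  · exact isClosed_biInter (fun x _ => closed_mem_hull x)
  · exact isClosed_le Aw_det_continuous continuous_const

section
variable {K : Set (Fin n → ℝ)} {ρ : ℝ} {a : Fin n → ℝ}

lemma T_sig_sub (hn : 0 < n) (hρ : 1 - dl n ≤ ρ) (hKc : IsCompact K)
    (hin : ∀ x ∈ sig n, ρ • x + a ∈ K) : 0 < vol K := by
  obtain ⟨hd0, hd1, hNs, hs1⟩ := dl_facts hn
  have hN : (0 : ℝ) ≤ n := Nat.cast_nonneg n
  obtain ⟨_, _, _, hd2⟩ := const_ineq (eps0_pos hn) (eps0_le hn) (by positivity) hs1 hN hNs hd1 rfl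
  have hρ0 : 0 < ρ := by linarith
  have h1 : (fun x : Fin n → ℝ => ρ • x + a) '' sig n ⊆ K := by
    rintro _ ⟨x, hx, rfl⟩
    exact hin x hx
  have h2 := vol_mono hKc h1
  rw [T_aff, vol_image _ (T_det_ne hρ0) sig_measurable, sig_vol, hom_det,
    abs_of_pos (by positivity)] at h2
  have hv := v0_pos (n := n)
  have : 0 < ρ ^ n * v0 n := by positivity
  linarith

lemma Wset_bd (hn : 0 < n) (hρ : 1 - dl n ≤ ρ) (hKc : IsCompact K) (hKs : K ⊆ sig n)
    (hin : ∀ x ∈ sig n, ρ • x + a ∈ K) :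
    ∀ u ∈ Wset K, ∀ (l : Fin (n + 1)) (k : Fin (n + 1)),
      - (2 * (n : ℝ) * dl n) ≤ lam k (u l) := by
  intro u hu l k
  have hpos := T_sig_sub hn hρ hKc hin
  have h1 := vertex_lam hn hρ hKs hin hu.1 (det_ne_of_sub hpos hu.1) hu.2 l k
  have h2 := al_nonneg hn (fun x hx => hKs (hin x hx)) k
  linarith

lemma Wset_compact (hn : 0 < n) (hρ : 1 - dl n ≤ ρ) (hKc : IsCompact K) (hKs : K ⊆ sig n)
    (hin : ∀ x ∈ sig n, ρ • x + a ∈ K) : IsCompact (Wset K) := by
  set g := 2 * (n : ℝ) * dl n with hg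
  set C := 1 + (n : ℝ) * g with hC
  have hd0 := (dl_facts hn).1
  have hN : (0 : ℝ) ≤ n := Nat.cast_nonneg n
  have hg0 : 0 ≤ g := by positivity
  have hsub : Wset K ⊆ Icc (fun _ _ => -(g + C)) (fun _ _ => g + C) := by
    intro u hu
    have hb := Wset_bd hn hρ hKc hKs hin u hu
    constructor
    · intro l i
      have h1 := hb l i.succ
      rw [lam_succ] at h1
      have : 0 ≤ C := by positivity
      simp only
      linarith
    · intro l i
      have h2 := lam_sum (u l)
      have h3 := Finset.add_sum_erase Finset.univ (fun k => lam k (u l)) (Finset.mem_univ i.succ)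
      rw [h2, lam_succ] at h3
      have h4 : ∑ k ∈ Finset.univ.erase i.succ, (-g) ≤ ∑ k ∈ Finset.univ.erase i.succ, lam k (u l) :=
        Finset.sum_le_sum (fun k _ => hb l k)
      simp only [Finset.sum_const, Finset.card_erase_of_mem (Finset.mem_univ _), Finset.card_univ,
        Fintype.card_fin, Nat.add_sub_cancel, nsmul_eq_mul] at h4
      have h5 : (n : ℝ) * -g = -((n : ℝ) * g) := by ring
      rw [h5] at h4
      simp only
      linarith
  exact isCompact_Icc.of_isClosed_subset (Wset_closed K) hsub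

/-- Existence of a simplex of minimal volume around `K`. -/
lemma exists_min_simplex (hn : 0 < n) (hρ : 1 - dl n ≤ ρ) (hKc : IsCompact K) (hKs : K ⊆ sig n)
    (hin : ∀ x ∈ sig n, ρ • x + a ∈ K) :
    ∃ w : Fin (n + 1) → Fin n → ℝ, K ⊆ convexHull ℝ (range w) ∧ |(Aw w).det| ≤ 1 ∧
      ∀ u : Fin (n + 1) → Fin n → ℝ, K ⊆ convexHull ℝ (range u) → |(Aw w).det| ≤ |(Aw u).det| := by
  have hne : (Wset K).Nonempty := by
    refine ⟨ee, ?_, ?_⟩
    · rw [hull_ee]
      exact hKs
    · rw [Aw_ee]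
      simp
  obtain ⟨w, hw, hmin⟩ := (Wset_compact hn hρ hKc hKs hin).exists_isMinOn hne
    Aw_det_continuous.continuousOn
  refine ⟨w, hw.1, hw.2, ?_⟩
  intro u hu
  by_cases h : |(Aw u).det| ≤ 1
  · exact hmin ⟨hu, h⟩
  · push Not at h
    linarith [hw.2]

lemma affInd_of_det {u : Fin (n + 1) → Fin n → ℝ} (h : (Aw u).det ≠ 0) : AffineIndependent ℝ u := by
  have h1 := (ee_affInd (n := n)).map' (affMap (Aw u) (u 0))
    (by rw [affMap_coe]; exact aff_injective _ h)
  rw [affMap_coe] at h1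
  have h2 : aff (Aw u) (u 0) ∘ ee = u := by
    ext l i
    exact congrFun (aff_w_ee u l) i
  rwa [h2] at h1

/-- The shrunk copy of the minimal simplex lies in `K`. -/
lemma thick (hn : 0 < n) (hρ : 1 - dl n ≤ ρ) (hKv : Convex ℝ K) (hKs : K ⊆ sig n)
    (hin : ∀ x ∈ sig n, ρ • x + a ∈ K) {w : Fin (n + 1) → Fin n → ℝ}
    (hu : K ⊆ convexHull ℝ (range w)) (hdet : (Aw w).det ≠ 0) (h1 : |(Aw w).det| ≤ 1) :
    ∀ x ∈ convexHull ℝ (range w),
      (1 - eps0 n) • x + (eps0 n) • ((1 / ((n : ℝ) + 1)) • ∑ k, w k) ∈ K := by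
  classical
  obtain ⟨hd0, hd1, hNs, hs1⟩ := dl_facts hn
  have hN : (0 : ℝ) ≤ n := Nat.cast_nonneg n
  have he0 := eps0_pos hn
  have he1 := eps0_le hn
  obtain ⟨hconst, hNd, _, hd2⟩ := const_ineq he0 he1 (by positivity) hs1 hN hNs hd1 rfl
  have hρ0 : 0 < ρ := by linarith
  have hsig : ∀ x ∈ sig n, ρ • x + a ∈ sig n := fun x hx => hKs (hin x hx)
  have hρ1 : ρ ≤ 1 := rho_le hn hsig
  set e := eps0 n with he
  set c := 1 / ((n : ℝ) + 1) with hc
  have hc0 : 0 < c := by rw [hc]; positivity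
  set g := 2 * (n : ℝ) * dl n with hg
  have hg0 : 0 ≤ g := by positivity
  set b := c • ∑ k, w k with hb
  have hv := fun l k => vertex_lam hn hρ hKs hin hu hdet h1 l k
  have hal := fun k => al_nonneg hn hsig k
  have halle := fun k => al_le hn hsig k
  have hbl : ∀ k, lam k b = c * ∑ l, lam k (w l) := by
    intro k
    have h2 : b = ∑ l, c • w l := by rw [hb, Finset.smul_sum]
    have h3 : ∑ _l : Fin (n + 1), c = 1 := by
      rw [Finset.sum_const, Finset.card_univ, Fintype.card_fin, nsmul_eq_mul, hc]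
      push_cast
      field_simp
    rw [h2, lam_sum_smul k (fun _ => c) h3, Finset.mul_sum]
  have hmax : ∀ k, ∃ l₀, ρ ≤ lam k (w l₀) := by
    intro k
    obtain ⟨l₀, _, hl₀⟩ := Finset.exists_max_image Finset.univ (fun l => lam k (w l))
      ⟨0, Finset.mem_univ _⟩
    refine ⟨l₀, ?_⟩
    have ht : ρ • ee k + a ∈ convexHull ℝ (range w) := hu (hin _ (ee_mem k))
    rw [← simplex_hull] at ht
    obtain ⟨τ, hτ, hτe⟩ := ht
    have h2 : lam k (ρ • ee k + a) = ρ + al ρ a k := by
      rw [lam_Tr, lam_ee]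
      simp
    rw [← hτe, aff_w, lam_sum_smul k _ (lam_sum τ)] at h2
    have h3 : ∑ l, lam l τ * lam k (w l) ≤ ∑ l, lam l τ * lam k (w l₀) :=
      Finset.sum_le_sum (fun l _ => mul_le_mul_of_nonneg_left (hl₀ l (Finset.mem_univ l)) (hτ l))
    rw [← Finset.sum_mul, lam_sum, one_mul, h2] at h3
    have := hal k
    linarith
  have hS : ∀ k, ρ - (n : ℝ) * g ≤ ∑ l, lam k (w l) := by
    intro k
    obtain ⟨l₀, hl₀⟩ := hmax k
    have h3 := Finset.add_sum_erase Finset.univ (fun l => lam k (w l)) (Finset.mem_univ l₀)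
    have h4 : ∑ l ∈ Finset.univ.erase l₀, (-g) ≤ ∑ l ∈ Finset.univ.erase l₀, lam k (w l) :=
      Finset.sum_le_sum (fun l _ => by
        have := hv l k
        have := hal k
        linarith)
    simp only [Finset.sum_const, Finset.card_erase_of_mem (Finset.mem_univ _), Finset.card_univ,
      Fintype.card_fin, Nat.add_sub_cancel, nsmul_eq_mul] at h4
    have h5 : (n : ℝ) * -g = -((n : ℝ) * g) := by ring
    rw [h5] at h4
    linarith
  have hcvx : Convex ℝ {x : Fin n → ℝ | (1 - e) • x + e • b ∈ K} := by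
    intro x hx y hy α β hα hβ hαβ
    have := hKv hx hy hα hβ hαβ
    change (1 - e) • (α • x + β • y) + e • b ∈ K
    have e1 : (1 - e) • (α • x + β • y) + e • b
        = α • ((1 - e) • x + e • b) + β • ((1 - e) • y + e • b) := by
      obtain rfl : β = 1 - α := by linarith
      ext i
      simp only [Pi.add_apply, Pi.smul_apply, smul_eq_mul]
      ring
    rw [e1]
    exact this
  apply convexHull_min _ hcvx
  rintro _ ⟨l, rfl⟩
  change (1 - e) • w l + e • b ∈ K
  set y := (1 - e) • w l + e • b with hy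
  have hly : ∀ k, al ρ a k ≤ lam k y := by
    intro k
    rw [hy, lam_convex k (w l) b (by ring), hbl]
    have h2 := hv l k
    have h3 := hS k
    have h4 := hal k
    have h5 := halle k
    have he2 : 0 ≤ 1 - e := by linarith
    have h6 : (1 - e) * (al ρ a k - g) ≤ (1 - e) * lam k (w l) :=
      mul_le_mul_of_nonneg_left h2 he2
    have h7 : e * (c * (ρ - (n : ℝ) * g)) ≤ e * (c * ∑ l, lam k (w l)) :=
      mul_le_mul_of_nonneg_left (mul_le_mul_of_nonneg_left h3 hc0.le) he0.le
    have h8 : e * c * (1 - dl n - (n : ℝ) * g) ≤ e * (c * (ρ - (n : ℝ) * g)) := by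
      have : e * c * (1 - dl n - (n : ℝ) * g) = e * (c * (1 - dl n - (n : ℝ) * g)) := by ring
      rw [this]
      apply mul_le_mul_of_nonneg_left _ he0.le
      apply mul_le_mul_of_nonneg_left _ hc0.le
      linarith
    have h9 : e * al ρ a k ≤ e * dl n :=
      mul_le_mul_of_nonneg_left (by linarith) he0.le
    have h10 : e * g ≥ 0 := by positivity
    nlinarith
  let z : Fin n → ℝ := ρ⁻¹ • (y - a)
  have hz : ρ • z + a = y := by
    simp only [z, smul_smul, mul_inv_cancel₀ hρ0.ne', one_smul, sub_add_cancel]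
  have hzs : z ∈ sig n := by
    intro k
    have h2 := hly k
    rw [← hz, lam_Tr] at h2
    have h3 : 0 ≤ ρ * lam k z := by linarith
    exact nonneg_of_mul_nonneg_right h3 hρ0
  rw [← hz]
  exact hin z hzs

/-- The main statement for a body inside the standard simplex containing a homothetic copy. -/
theorem local_sigma (hn : 0 < n) (hρ : 1 - dl n ≤ ρ) (hKc : IsCompact K) (hKv : Convex ℝ K)
    (hKs : K ⊆ sig n) (hin : ∀ x ∈ sig n, ρ • x + a ∈ K) :
    0 < vol K ∧ isoD K ≤ CC n ∧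
      (isoD K = CC n → ∃ u : Fin (n + 1) → Fin n → ℝ, AffineIndependent ℝ u ∧
        K = convexHull ℝ (range u)) := by
  have hpos := T_sig_sub hn hρ hKc hin
  obtain ⟨w, hw1, hw2, hw3⟩ := exists_min_simplex hn hρ hKc hKs hin
  have hdet := det_ne_of_sub hpos hw1
  have hind := affInd_of_det hdet
  set T := aff (Aw w) (w 0) with hT
  have hS : T '' sig n = convexHull ℝ (range w) := simplex_hull w
  have hTinj : Function.Injective T := aff_injective _ hdet
  set K' := T ⁻¹' K with hK'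
  have hK's : K' ⊆ sig n := by
    intro x hx
    have h1 : T x ∈ T '' sig n := by
      rw [hS]
      exact hw1 hx
    obtain ⟨y, hy, hyx⟩ := h1
    rw [← hTinj hyx]
    exact hy
  have hK'c : IsClosed K' := hKc.isClosed.preimage (aff_continuous _ _)
  have hK'v : Convex ℝ K' := by
    have := hKv.affine_preimage (affMap (Aw w) (w 0))
    rwa [affMap_coe] at this
  have himage : T '' K' = K := by
    apply Set.image_preimage_eq_of_subset
    intro x hx
    have h1 : x ∈ T '' sig n := by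
      rw [hS]
      exact hw1 hx
    obtain ⟨y, _, hyx⟩ := h1
    exact ⟨y, hyx⟩
  have hmin' : ∀ u : Fin (n + 1) → Fin n → ℝ, K' ⊆ convexHull ℝ (range u) → 1 ≤ |(Aw u).det| := by
    intro u hu
    have h1 : K ⊆ convexHull ℝ (range (T ∘ u)) := by
      rw [hT, hull_comp, ← hT, ← himage]
      exact Set.image_mono hu
    have h2 := hw3 _ h1
    rw [hT, Aw_comp, Matrix.det_mul, abs_mul] at h2
    have h3 : 0 < |(Aw w).det| := abs_pos.2 hdet
    have h4 : |(Aw w).det| * 1 ≤ |(Aw w).det| * |(Aw u).det| := by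
      rw [mul_one]
      exact h2
    exact le_of_mul_le_mul_left h4 h3
  have hfac : ∀ l, (1 / (n : ℝ)) • ∑ k ∈ Finset.univ.erase l, w k ∈ K := by
    intro l
    have h1 := klee hn hK'c hK'v hK's hmin' l
    have h2 : T (fc l) ∈ K := h1
    rwa [hT, aff_fc hn] at h2
  have hth := thick hn hρ hKv hKs hin hw1 hdet hw2
  obtain ⟨_, h2, h3⟩ := near_iso hn w hind hKc hKv hw1 hfac hth
  refine ⟨hpos, h2, ?_⟩
  intro heq
  refine ⟨w, hind, ?_⟩
  by_contra hne
  have := h3 hne
  linarith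

end

end P254
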