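import Vale.Agent.P254.Dirichlet

open MeasureTheory Set Finset Real
open scoped BigOperators Pointwise

namespace P254

variable {n : ℕ}

lemma lam_zero (t : Fin n → ℝ) : lam 0 t = 1 - ∑ i, t i := rfl
lemma lam_succ (i : Fin n) (t : Fin n → ℝ) : lam i.succ t = t i := rfl

lemma lam_continuous (l : Fin (n + 1)) : Continuous (lam l : (Fin n → ℝ) → ℝ) := by
  refine Fin.cases ?_ (fun i => ?_) l
  · have : (lam 0 : (Fin n → ℝ) → ℝ) = fun t => 1 - ∑ i, t i := rfl
    rw [this]; fun_prop
  · have : (lam i.succ : (Fin n → ℝ) → ℝ) = fun t => t i := rfl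
    rw [this]; fun_prop

lemma lam_sum (t : Fin n → ℝ) : ∑ l, lam l t = 1 := by
  rw [Fin.sum_univ_succ, lam_zero]
  simp only [lam_succ]
  ring

lemma sig_closed : IsClosed (sig n) := by
  have : sig n = ⋂ l : Fin (n + 1), {t | 0 ≤ lam l t} := by
    ext t; simp [sig]
  rw [this]
  exact isClosed_iInter (fun l => isClosed_le continuous_const (lam_continuous l))

lemma sig_subset : sig n ⊆ Icc (0 : Fin n → ℝ) 1 := by
  intro t ht
  rw [sig_eq] at ht
  obtain ⟨h1, h2⟩ := ht
  refine ⟨fun i => h1 i, fun i => ?_⟩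
  have : t i ≤ ∑ j, t j := Finset.single_le_sum (fun j _ => h1 j) (Finset.mem_univ i)
  simpa using this.trans h2

lemma sig_compact : IsCompact (sig n) :=
  isCompact_Icc.of_isClosed_subset sig_closed sig_subset

lemma sig_measurable : MeasurableSet (sig n) := sig_closed.measurableSet

lemma cont_int {g : (Fin n → ℝ) → ℝ} (hg : Continuous g) : IntegrableOn g (sig n) :=
  hg.continuousOn.integrableOn_compact sig_compact

lemma lam_prod_int (l m : Fin (n + 1)) :
    IntegrableOn (fun t : Fin n → ℝ => lam l t * lam m t) (sig n) :=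
  cont_int ((lam_continuous l).mul (lam_continuous m))

lemma mono_zero (t : Fin n → ℝ) : mono (0 : Fin n → ℕ) t = 1 := by simp [mono]

lemma mono_single (i : Fin n) (t : Fin n → ℝ) : mono (Pi.single i 1) t = t i := by
  unfold mono
  rw [Finset.prod_eq_single i]
  · simp
  · intro b _ hb; simp [Pi.single_apply, hb]
  · simp

lemma mono_add (a b : Fin n → ℕ) (t : Fin n → ℝ) : mono (a + b) t = mono a t * mono b t := by
  unfold mono
  simp only [Pi.add_apply, pow_add, Finset.prod_mul_distrib]

lemma mom0 : ∫ _t in sig n, (1 : ℝ) = 1 / (n.factorial : ℝ) := by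
  have := dirichlet (n := n) 0
  simpa [mono_zero] using this

lemma mom1 (i : Fin n) : ∫ t in sig n, t i = 1 / ((n + 1).factorial : ℝ) := by
  have := dirichlet (n := n) (Pi.single i 1)
  simp only [mono_single] at this
  rw [this]
  have h1 : ∏ k, (((Pi.single i 1 : Fin n → ℕ) k).factorial : ℝ) = 1 :=
    Finset.prod_eq_one (fun k _ => by
      by_cases hk : k = i
      · subst hk; simp
      · simp [Pi.single_apply, hk])
  have h2 : ∑ k, (Pi.single i 1 : Fin n → ℕ) k = 1 := by simp
  rw [h1, h2]

lemma mom2 (i j : Fin n) :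
    ∫ t in sig n, t i * t j = (if i = j then 2 else 1) / ((n + 2).factorial : ℝ) := by
  have := dirichlet (n := n) (Pi.single i 1 + Pi.single j 1)
  simp only [mono_add, mono_single] at this
  rw [this]
  have h2 : ∑ k, (Pi.single i 1 + Pi.single j 1 : Fin n → ℕ) k = 2 := by
    simp [Finset.sum_add_distrib]
  rw [h2]
  congr 1
  by_cases hij : i = j
  · subst hij
    rw [Finset.prod_eq_single i]
    · simp
    · intro b _ hb; simp [Pi.single_apply, hb]
    · simp
  · rw [if_neg hij]
    apply Finset.prod_eq_one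
    intro k _
    by_cases hk : k = i
    · subst hk
      simp [Pi.single_apply, Ne.symm hij, hij]
    · by_cases hk' : k = j
      · subst hk'
        simp [Pi.single_apply, hk]
      · simp [Pi.single_apply, hk, hk']

/-- The volume of the standard simplex. -/
noncomputable def v0 (n : ℕ) : ℝ := 1 / (n.factorial : ℝ)

lemma v0_pos : 0 < v0 n := by unfold v0; positivity

lemma fact1 : ((n + 1).factorial : ℝ) = (n + 1) * (n.factorial : ℝ) := by
  rw [Nat.factorial_succ]; push_cast; ring

lemma fact2 : ((n + 2).factorial : ℝ) = (n + 2) * ((n + 1) * (n.factorial : ℝ)) := by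
  rw [Nat.factorial_succ, Nat.factorial_succ]; push_cast; ring

lemma lam_mom1 (l : Fin (n + 1)) : ∫ t in sig n, lam l t = v0 n / (n + 1) := by
  have hfac : (n.factorial : ℝ) ≠ 0 := by positivity
  have hn : ((n : ℝ) + 1) ≠ 0 := by positivity
  refine Fin.cases ?_ (fun i => ?_) l
  · simp only [lam_zero]
    rw [integral_sub (cont_int continuous_const) (cont_int (by fun_prop)), mom0,
      integral_finset_sum _ (fun i _ => cont_int (continuous_apply i))]
    simp only [mom1, Finset.sum_const, Finset.card_univ, Fintype.card_fin, nsmul_eq_mul, fact1, v0]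
    field_simp
    ring
  · simp only [lam_succ]
    rw [mom1, fact1, v0]
    field_simp

lemma lam_succ_mom (i j : Fin n) :
    ∫ t in sig n, lam i.succ t * lam j.succ t
      = v0 n * (1 + if i = j then 1 else 0) / ((n + 1) * (n + 2)) := by
  have hfac : (n.factorial : ℝ) ≠ 0 := by positivity
  have hn : ((n : ℝ) + 1) ≠ 0 := by positivity
  have hn2 : ((n : ℝ) + 2) ≠ 0 := by positivity
  simp only [lam_succ]
  rw [mom2, fact2, v0]
  by_cases h : i = j
  · simp only [h, if_true]; field_simp; ring
  · simp only [h, if_false]; field_simp; ring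

lemma sum_ite_fin (j : Fin n) : ∑ i : Fin n, (if i = j then (1 : ℝ) else 0) = 1 := by
  simp

lemma lam_zero_succ_mom (j : Fin n) :
    ∫ t in sig n, lam 0 t * lam j.succ t = v0 n * 1 / ((n + 1) * (n + 2)) := by
  have hfac : (n.factorial : ℝ) ≠ 0 := by positivity
  have hn : ((n : ℝ) + 1) ≠ 0 := by positivity
  have hn2 : ((n : ℝ) + 2) ≠ 0 := by positivity
  have hrew : ∀ t : Fin n → ℝ, lam 0 t * lam j.succ t
      = lam j.succ t - ∑ i : Fin n, lam i.succ t * lam j.succ t := by
    intro t
    simp only [lam_zero, lam_succ, ← Finset.sum_mul]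
    ring
  simp only [hrew]
  have hint : IntegrableOn (fun t : Fin n → ℝ => ∑ i : Fin n, lam i.succ t * lam j.succ t) (sig n) :=
    cont_int (continuous_finset_sum _ (fun i _ => (lam_continuous _).mul (lam_continuous _)))
  rw [integral_sub (cont_int (lam_continuous _)) hint,
    integral_finset_sum _ (fun i _ => lam_prod_int _ _),
    lam_mom1]
  simp only [lam_succ_mom, ← Finset.sum_div, ← Finset.mul_sum, Finset.sum_add_distrib,
    sum_ite_fin, Finset.sum_const, Finset.card_univ, Fintype.card_fin, nsmul_eq_mul, mul_one]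
  field_simp
  ring

lemma lam_zero_zero_mom :
    ∫ t in sig n, lam 0 t * lam 0 t = v0 n * 2 / ((n + 1) * (n + 2)) := by
  have hn : ((n : ℝ) + 1) ≠ 0 := by positivity
  have hn2 : ((n : ℝ) + 2) ≠ 0 := by positivity
  have hrew : ∀ t : Fin n → ℝ, lam 0 t * lam 0 t
      = lam 0 t - ∑ j : Fin n, lam 0 t * lam j.succ t := by
    intro t
    simp only [lam_succ, ← Finset.mul_sum]
    have := lam_zero t
    rw [this]
    ring
  simp only [hrew]
  have hint : IntegrableOn (fun t : Fin n → ℝ => ∑ j : Fin n, lam 0 t * lam j.succ t) (sig n) :=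
    cont_int (continuous_finset_sum _ (fun i _ => (lam_continuous _).mul (lam_continuous _)))
  rw [integral_sub (cont_int (lam_continuous _)) hint,
    integral_finset_sum _ (fun i _ => lam_prod_int _ _),
    lam_mom1]
  simp only [lam_zero_succ_mom, Finset.sum_const, Finset.card_univ, Fintype.card_fin, nsmul_eq_mul]
  field_simp
  ring

/-- The mixed second moments of the barycentric coordinates. -/
lemma lam_mom2 (l m : Fin (n + 1)) :
    ∫ t in sig n, lam l t * lam m t
      = v0 n * (1 + if l = m then 1 else 0) / ((n + 1) * (n + 2)) := by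
  refine Fin.cases ?_ (fun i => ?_) l
  · refine Fin.cases ?_ (fun j => ?_) m
    · rw [lam_zero_zero_mom]; norm_num
    · rw [lam_zero_succ_mom]; simp [Fin.succ_ne_zero, (Fin.succ_ne_zero j).symm]
  · refine Fin.cases ?_ (fun j => ?_) m
    · simp only [mul_comm (lam i.succ _) (lam 0 _)]
      rw [lam_zero_succ_mom]; simp [Fin.succ_ne_zero]
    · rw [lam_succ_mom]; simp [Fin.succ_inj]

end P254
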