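import Vale.Agent.P254.Body

open MeasureTheory Set Finset Real
open scoped BigOperators Pointwise Topology

namespace P254

variable {n : ℕ}

lemma isoD_nonneg {K : Set (Fin n → ℝ)} (hK : IsCompact K) : 0 ≤ isoD K := by
  unfold isoD
  exact div_nonneg (cov_posSemidef hK).det_nonneg (sq_nonneg _)

/-- The image of a facet centroid. -/
lemma aff_fc (hn : 0 < n) (w : Fin (n + 1) → Fin n → ℝ) (l : Fin (n + 1)) :
    aff (Aw w) (w 0) (fc l) = (1 / (n : ℝ)) • ∑ k ∈ Finset.univ.erase l, w k := by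
  rw [aff_w]
  simp only [lam_fc hn]
  rw [Finset.smul_sum, ← Finset.sum_erase (a := l) _ (by simp)]
  apply Finset.sum_congr rfl
  intro k hk
  rw [if_neg (Finset.ne_of_mem_erase hk)]

/-- The image of a point under a homothety about the centroid. -/
lemma aff_hom (w : Fin (n + 1) → Fin n → ℝ) (r : ℝ) (x : Fin n → ℝ) :
    aff (Aw w) (w 0) (hom r x)
      = r • aff (Aw w) (w 0) x + (1 - r) • ((1 / ((n : ℝ) + 1)) • ∑ k, w k) := by
  simp only [aff_w, lam_hom, add_smul, Finset.sum_add_distrib, Finset.smul_sum, smul_smul]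

/-- The constant in the width condition. -/
noncomputable def eps0 (n : ℕ) : ℝ :=
  1 / ((n : ℝ) * ((n : ℝ) + 1) * ((n : ℝ) + 2) * ((n : ℝ) + 3))

lemma eps0_bd (m : ℕ) : ((1 - eps0 (m + 1))⁻¹ - 1) * ((m : ℝ) + 4) ≤ kap m := by
  have hm : (0 : ℝ) ≤ m := Nat.cast_nonneg m
  have h1 : eps0 (m + 1) = 1 / (((m : ℝ) + 1) * ((m : ℝ) + 2) * ((m : ℝ) + 3) * ((m : ℝ) + 4)) := by
    unfold eps0
    push_cast
    congr 1
    ring
  have hD : 24 ≤ ((m : ℝ) + 1) * ((m : ℝ) + 2) * ((m : ℝ) + 3) * ((m : ℝ) + 4) := by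
    have h2 : 1 ≤ (m : ℝ) + 1 := by linarith
    have h3 : 2 ≤ (m : ℝ) + 2 := by linarith
    have h4 : 3 ≤ (m : ℝ) + 3 := by linarith
    have h5 : 4 ≤ (m : ℝ) + 4 := by linarith
    have h6 : (2 : ℝ) ≤ ((m : ℝ) + 1) * ((m : ℝ) + 2) := by nlinarith
    have h7 : (6 : ℝ) ≤ ((m : ℝ) + 1) * ((m : ℝ) + 2) * ((m : ℝ) + 3) := by nlinarith
    nlinarith
  set e := eps0 (m + 1) with he
  have he0 : 0 < e := by rw [h1]; positivity
  have he1 : e ≤ 1 / 24 := by
    rw [h1]
    exact one_div_le_one_div_of_le (by norm_num) hD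
  have h2 : (1 - e)⁻¹ - 1 ≤ 2 * e := by
    have h3 : 0 < 1 - e := by linarith
    rw [sub_le_iff_le_add, inv_le_comm₀ h3 (by positivity)]
    rw [inv_eq_one_div, div_le_iff₀ (by positivity)]
    nlinarith
  have h4 : 2 * e * ((m : ℝ) + 4) = kap m := by
    rw [h1]
    unfold kap
    field_simp
  calc _ ≤ 2 * e * ((m : ℝ) + 4) := mul_le_mul_of_nonneg_right h2 (by positivity)
    _ = kap m := h4

/-- The transported statement. -/
theorem near_iso (hn : 0 < n) (w : Fin (n + 1) → Fin n → ℝ) (hw : AffineIndependent ℝ w)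
    {K : Set (Fin n → ℝ)} (hKc : IsCompact K) (hKv : Convex ℝ K)
    (hsub : K ⊆ convexHull ℝ (range w))
    (hfac : ∀ l, (1 / (n : ℝ)) • ∑ k ∈ Finset.univ.erase l, w k ∈ K)
    (hthick : ∀ x ∈ convexHull ℝ (range w),
      (1 - eps0 n) • x + (eps0 n) • ((1 / ((n : ℝ) + 1)) • ∑ k, w k) ∈ K) :
    0 < vol K ∧ isoD K ≤ CC n ∧ (K ≠ convexHull ℝ (range w) → isoD K < CC n) := by
  obtain ⟨m, rfl⟩ : ∃ m, n = m + 1 := Nat.exists_eq_succ_of_ne_zero hn.ne'
  have hA := det_ne_of_affInd hw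
  set T := aff (Aw w) (w 0) with hT
  have hTc : Continuous T := aff_continuous _ _
  have hS : T '' sig (m + 1) = convexHull ℝ (range w) := simplex_hull w
  have hTinj : Function.Injective T := aff_injective _ hA
  set K' := T ⁻¹' K with hK'
  have hK'sub : K' ⊆ sig (m + 1) := by
    intro x hx
    have h1 : T x ∈ T '' sig (m + 1) := by
      rw [hS]
      exact hsub hx
    obtain ⟨y, hy, hyx⟩ := h1
    rw [← hTinj hyx]
    exact hy
  have hK'c : IsCompact K' :=
    sig_compact.of_isClosed_subset (hKc.isClosed.preimage hTc) hK'sub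
  have hK'v : Convex ℝ K' := by
    have := hKv.affine_preimage (affMap (Aw w) (w 0))
    rwa [affMap_coe] at this
  have himage : T '' K' = K := by
    apply Set.image_preimage_eq_of_subset
    intro x hx
    have h1 : x ∈ T '' sig (m + 1) := by
      rw [hS]
      exact hsub hx
    obtain ⟨y, _, hyx⟩ := h1
    exact ⟨y, hyx⟩
  have hfc : ∀ l, fc l ∈ K' := by
    intro l
    change T (fc l) ∈ K
    rw [hT, aff_fc hn]
    exact hfac l
  have hε := eps0_bd m
  have heps : 0 < eps0 (m + 1) := by unfold eps0; positivity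
  have heps1 : eps0 (m + 1) < 1 := by
    unfold eps0
    rw [div_lt_one (by positivity)]
    push_cast
    have hm : (0 : ℝ) ≤ m := Nat.cast_nonneg m
    have h6 : (1 : ℝ) ≤ ((m : ℝ) + 1) * ((m : ℝ) + 1 + 1) := by nlinarith
    have h7 : (1 : ℝ) ≤ ((m : ℝ) + 1) * ((m : ℝ) + 1 + 1) * ((m : ℝ) + 1 + 2) := by nlinarith
    nlinarith
  have hr0 : 0 < 1 - eps0 (m + 1) := by linarith
  have hr1 : 1 - eps0 (m + 1) ≤ 1 := by linarith
  have hth : ∀ x ∈ sig (m + 1), hom (1 - eps0 (m + 1)) x ∈ K' := by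
    intro x hx
    change T (hom _ x) ∈ K
    rw [hT, aff_hom, sub_sub_cancel]
    apply hthick
    rw [← hS]
    exact ⟨x, hx, rfl⟩
  obtain ⟨h1, h2, h3⟩ := body_core hK'c hK'v hK'sub hfc hr0 hr1 hth hε
  have hvK : vol K = |(Aw w).det| * vol K' := by
    rw [← himage]
    exact vol_image _ hA hK'c.measurableSet
  have hdK : isoD K = isoD K' := by
    rw [← himage]
    exact isoD_image _ hA hK'c h1.ne'
  refine ⟨?_, ?_, ?_⟩
  · rw [hvK]
    have := abs_pos.2 hA
    positivity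
  · rw [hdK]
    exact h2
  · intro hne
    rw [hdK]
    apply h3
    intro heq
    apply hne
    rw [← himage, heq, hS]

end P254
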