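import Vale.Agent.P254.Chord

open MeasureTheory Set Finset Real
open scoped BigOperators Pointwise

namespace P254

variable {m : ℕ}

lemma mem_sig_insert (i : Fin (m + 1)) (x : ℝ) (z : Fin m → ℝ) :
    (Fin.insertNth i x z : Fin (m + 1) → ℝ) ∈ sig (m + 1)
      ↔ (∀ j, 0 ≤ z j) ∧ 0 ≤ x ∧ x ≤ 1 - ∑ j, z j := by
  rw [sig_eq]
  simp only [sigS, Set.mem_setOf_eq]
  rw [Fin.forall_iff_succAbove i, Fin.sum_univ_succAbove _ i]
  simp only [Fin.insertNth_apply_same, Fin.insertNth_apply_succAbove]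
  constructor
  · rintro ⟨⟨h1, h2⟩, h3⟩
    exact ⟨h2, h1, by linarith⟩
  · rintro ⟨h1, h2, h3⟩
    exact ⟨⟨h2, h1⟩, by linarith⟩

lemma insert_continuous (i : Fin (m + 1)) (z : Fin m → ℝ) :
    Continuous (fun x : ℝ => (Fin.insertNth i x z : Fin (m + 1) → ℝ)) := by
  apply continuous_pi
  intro k
  rcases Fin.eq_self_or_eq_succAbove i k with rfl | ⟨j, rfl⟩
  · simp only [Fin.insertNth_apply_same]; exact continuous_id
  · simp only [Fin.insertNth_apply_succAbove]; exact continuous_const

lemma insert_affine (i : Fin (m + 1)) (z : Fin m → ℝ) {a b : ℝ} (hab : a + b = 1) (x y : ℝ) :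
    (Fin.insertNth i (a * x + b * y) z : Fin (m + 1) → ℝ)
      = a • (Fin.insertNth i x z : Fin (m + 1) → ℝ) + b • (Fin.insertNth i y z : Fin (m + 1) → ℝ) := by
  ext k
  rcases Fin.eq_self_or_eq_succAbove i k with rfl | ⟨j, rfl⟩
  · simp
  · simp only [Fin.insertNth_apply_succAbove, Pi.add_apply, Pi.smul_apply, smul_eq_mul]
    rw [← add_mul, hab, one_mul]

/-- The pair inequality for the pair of coordinates `0` and `i + 1`. -/
theorem pair_zero (i : Fin (m + 1)) {ψ : (Fin (m + 1) → ℝ) → ℝ} (hc : Continuous ψ)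
    (hψ : ConvexOn ℝ (sig (m + 1)) ψ) :
    0 ≤ ∫ x in sig (m + 1), (lam 0 x ^ 2 + x i ^ 2 - 4 * lam 0 x * x i) * ψ x := by
  have hl := lam_continuous (n := m + 1) 0
  let w : (Fin (m + 1) → ℝ) → ℝ := fun x => (lam 0 x ^ 2 + x i ^ 2 - 4 * lam 0 x * x i) * ψ x
  have hw : Continuous w := by
    have := continuous_apply (A := fun _ : Fin (m + 1) => ℝ) i
    fun_prop
  let F : (Fin (m + 1) → ℝ) → ℝ := (sig (m + 1)).indicator w
  have hFi : Integrable F := (integrable_indicator_iff sig_measurable).2 (cont_int hw)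
  have hm := volume_preserving_piFinSuccAbove (fun _ : Fin (m + 1) => ℝ) i
  have hms := hm.symm
  have h1 : ∫ x in sig (m + 1), w x = ∫ x, F x := (integral_indicator sig_measurable).symm
  change 0 ≤ ∫ x in sig (m + 1), w x
  rw [h1, ← hms.integral_comp' F]
  have hGi : Integrable (F ∘ (MeasurableEquiv.piFinSuccAbove (fun _ : Fin (m + 1) => ℝ) i).symm)
      ((volume : Measure ℝ).prod (volume : Measure (Fin m → ℝ))) :=
    hms.integrable_comp_of_integrable hFi
  have h2 := integral_prod_symm _ hGi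
  change 0 ≤ ∫ z, (F ∘ (MeasurableEquiv.piFinSuccAbove (fun _ : Fin (m + 1) => ℝ) i).symm) z
    ∂((volume : Measure ℝ).prod (volume : Measure (Fin m → ℝ)))
  rw [h2]
  apply integral_nonneg
  intro z
  simp only [Pi.zero_apply]
  have hsymm : ∀ x : ℝ, (F ∘ (MeasurableEquiv.piFinSuccAbove (fun _ : Fin (m + 1) => ℝ) i).symm) (x, z)
      = F (Fin.insertNth i x z) := fun x => rfl
  simp only [hsymm]
  by_cases hz : ∀ j, 0 ≤ z j
  · by_cases hr : 0 ≤ 1 - ∑ j, z j
    · set r := 1 - ∑ j, z j with hrdef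
      let φ : ℝ → ℝ := fun x => ψ (Fin.insertNth i x z)
      have hφc : Continuous φ := hc.comp (insert_continuous i z)
      have hφ : ConvexOn ℝ (Icc 0 r) φ := by
        refine ⟨convex_Icc 0 r, ?_⟩
        intro x hx y hy a b ha hb hab
        simp only [smul_eq_mul, φ]
        rw [insert_affine i z hab]
        have mx : (Fin.insertNth i x z : Fin (m + 1) → ℝ) ∈ sig (m + 1) :=
          (mem_sig_insert i x z).2 ⟨hz, hx.1, hx.2⟩
        have my : (Fin.insertNth i y z : Fin (m + 1) → ℝ) ∈ sig (m + 1) :=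
          (mem_sig_insert i y z).2 ⟨hz, hy.1, hy.2⟩
        simpa [smul_eq_mul] using hψ.2 mx my ha hb hab
      have hFeq : (fun x : ℝ => F (Fin.insertNth i x z))
          = (Icc 0 r).indicator (fun x => (6 * x ^ 2 - 6 * r * x + r ^ 2) * φ x) := by
        ext x
        simp only [F, Set.indicator, mem_sig_insert, Set.mem_Icc]
        by_cases hx : 0 ≤ x ∧ x ≤ r
        · have hm' : (∀ j, 0 ≤ z j) ∧ 0 ≤ x ∧ x ≤ 1 - ∑ j, z j := ⟨hz, hx⟩
          rw [if_pos hm', if_pos hx]
          simp only [w, φ]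
          congr 1
          rw [lam_zero, Fin.sum_univ_succAbove _ i]
          simp only [Fin.insertNth_apply_same, Fin.insertNth_apply_succAbove]
          rw [hrdef]
          ring
        · have hm' : ¬ ((∀ j, 0 ≤ z j) ∧ 0 ≤ x ∧ x ≤ 1 - ∑ j, z j) := fun h => hx h.2
          rw [if_neg hm', if_neg hx]
      rw [hFeq, integral_indicator measurableSet_Icc, integral_Icc_eq_integral_Ioc,
        ← intervalIntegral.integral_of_le hr]
      exact chord_pairing hr hφc hφ
    · have hFeq : (fun x : ℝ => F (Fin.insertNth i x z)) = fun _ => 0 := by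
        ext x
        simp only [F, Set.indicator, mem_sig_insert]
        rw [if_neg]
        rintro ⟨_, h1, h2⟩
        exact hr (h1.trans h2)
      rw [hFeq]
      simp
  · have hFeq : (fun x : ℝ => F (Fin.insertNth i x z)) = fun _ => 0 := by
      ext x
      simp only [F, Set.indicator, mem_sig_insert]
      rw [if_neg]
      rintro ⟨h, _, _⟩
      exact hz h
    rw [hFeq]
    simp

end P254
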