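import Vale.Agent.P254.Pair

open MeasureTheory Set Finset Real
open scoped BigOperators Pointwise

namespace P254

variable {n : ℕ}

/-- The affine map permuting the vertices of the standard simplex. -/
noncomputable def Pp (pe : Equiv.Perm (Fin (n + 1))) : (Fin n → ℝ) → (Fin n → ℝ) :=
  aff (Aw (fun l => ee (pe l))) (ee (pe 0))

lemma Pp_eq (pe : Equiv.Perm (Fin (n + 1))) (x : Fin n → ℝ) :
    Pp pe x = ∑ l, lam l x • ee (pe l) := aff_w (fun l => ee (pe l)) x

lemma lam_sum_smul (m : Fin (n + 1)) (c : Fin (n + 1) → ℝ) (hc : ∑ l, c l = 1)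
    (z : Fin (n + 1) → Fin n → ℝ) :
    lam m (∑ l, c l • z l) = ∑ l, c l * lam m (z l) := by
  have h : ∀ l, lam m (z l) = lam m 0 + ∑ i, gr m i * z l i := fun l => lam_affine m (z l)
  simp only [h, mul_add, Finset.sum_add_distrib, ← Finset.sum_mul, hc, one_mul]
  rw [lam_affine m (∑ l, c l • z l)]
  congr 1
  simp only [Finset.sum_apply, Pi.smul_apply, smul_eq_mul, Finset.mul_sum]
  rw [Finset.sum_comm]
  apply Finset.sum_congr rfl; intro l _
  apply Finset.sum_congr rfl; intro i _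
  ring

lemma lam_Pp (pe : Equiv.Perm (Fin (n + 1))) (m : Fin (n + 1)) (x : Fin n → ℝ) :
    lam m (Pp pe x) = lam (pe.symm m) x := by
  rw [Pp_eq, lam_sum_smul m _ (lam_sum x)]
  simp only [lam_ee]
  rw [Finset.sum_eq_single (pe.symm m)]
  · simp
  · intro b _ hb
    have : m ≠ pe b := by
      intro h
      apply hb
      rw [h]
      simp
    simp [this]
  · simp

lemma eq_of_lam {x y : Fin n → ℝ} (h : ∀ l, lam l x = lam l y) : x = y := by
  ext i
  exact h i.succ

lemma Pp_symm (pe : Equiv.Perm (Fin (n + 1))) (x : Fin n → ℝ) : Pp pe (Pp pe.symm x) = x := by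
  apply eq_of_lam
  intro l
  rw [lam_Pp, lam_Pp]
  simp

lemma Pp_sig (pe : Equiv.Perm (Fin (n + 1))) : Pp pe '' sig n = sig n := by
  ext y
  constructor
  · rintro ⟨x, hx, rfl⟩ m
    rw [lam_Pp]
    exact hx _
  · intro hy
    refine ⟨Pp pe.symm y, ?_, Pp_symm pe y⟩
    intro m
    rw [lam_Pp]
    exact hy _

lemma Pp_mem (pe : Equiv.Perm (Fin (n + 1))) {x : Fin n → ℝ} (hx : x ∈ sig n) : Pp pe x ∈ sig n :=
  Pp_sig pe ▸ Set.mem_image_of_mem _ hx

lemma Pp_det_ne (pe : Equiv.Perm (Fin (n + 1))) : (Aw (fun l => ee (pe l))).det ≠ 0 := by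
  apply det_ne_of_affInd
  exact (ee_affInd (n := n)).comp_embedding pe.toEmbedding

lemma Pp_abs_det (pe : Equiv.Perm (Fin (n + 1))) : |(Aw (fun l => ee (pe l))).det| = 1 := by
  have h := vol_image (ee (pe 0)) (Pp_det_ne pe) (sig_measurable (n := n))
  have h2 : aff (Aw (fun l => ee (pe l))) (ee (pe 0)) '' sig n = sig n := Pp_sig pe
  rw [h2, sig_vol] at h
  have hv := v0_pos (n := n)
  have : (|(Aw (fun l => ee (pe l))).det| - 1) * v0 n = 0 := by linarith
  rcases mul_eq_zero.1 this with h3 | h3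
  · linarith
  · exact absurd h3 hv.ne'

lemma perm_integral (pe : Equiv.Perm (Fin (n + 1))) (G : (Fin n → ℝ) → ℝ) :
    ∫ x in sig n, G x = ∫ x in sig n, G (Pp pe x) := by
  have h := image_integral (ee (pe 0)) (Pp_det_ne pe) (sig_measurable (n := n)) G
  have h2 : aff (Aw (fun l => ee (pe l))) (ee (pe 0)) '' sig n = sig n := Pp_sig pe
  rw [h2, Pp_abs_det, one_mul] at h
  exact h

lemma Pp_continuous (pe : Equiv.Perm (Fin (n + 1))) : Continuous (Pp pe) :=
  aff_continuous _ _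

/-- Composition of a convex function with an affine map into the simplex. -/
lemma convex_comp_aff {A : Matrix (Fin n) (Fin n) ℝ} {b : Fin n → ℝ} {ψ : (Fin n → ℝ) → ℝ}
    {S : Set (Fin n → ℝ)} (hψ : ConvexOn ℝ S ψ) {S' : Set (Fin n → ℝ)} (hS' : Convex ℝ S')
    (hmap : ∀ x ∈ S', aff A b x ∈ S) : ConvexOn ℝ S' (fun x => ψ (aff A b x)) := by
  have h := hψ.comp_affineMap (affMap A b)
  rw [affMap_coe] at h
  exact h.subset hmap hS'

lemma sig_convex : Convex ℝ (sig n) := by
  rw [← hull_ee]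
  exact convex_convexHull ℝ _

/-- The pair inequality for an arbitrary pair of barycentric coordinates. -/
theorem pair_general {m : ℕ} {j k : Fin (m + 2)} (hjk : j ≠ k) {ψ : (Fin (m + 1) → ℝ) → ℝ}
    (hc : Continuous ψ) (hψ : ConvexOn ℝ (sig (m + 1)) ψ) :
    0 ≤ ∫ x in sig (m + 1), (lam j x ^ 2 + lam k x ^ 2 - 4 * lam j x * lam k x) * ψ x := by
  let pe : Equiv.Perm (Fin (m + 2)) := Equiv.swap 0 j
  rw [perm_integral pe]
  have hj : pe.symm j = 0 := by simp [pe]
  have hk : pe.symm k ≠ 0 := by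
    intro h
    have : k = pe 0 := by rw [← h]; simp
    rw [show pe 0 = j by simp [pe]] at this
    exact hjk this.symm
  obtain ⟨i, hi⟩ := Fin.exists_succ_eq.2 hk
  simp only [lam_Pp, hj, ← hi, lam_succ]
  exact pair_zero i (ψ := fun x => ψ (Pp pe x)) (hc.comp (Pp_continuous pe))
    (convex_comp_aff hψ sig_convex (fun x hx => Pp_mem pe hx))

end P254
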