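import Vale.Agent.P254.Layer

open MeasureTheory Set Finset Real
open scoped BigOperators Pointwise

namespace P254

variable {n : ℕ}

/-- The centroid of the standard simplex. -/
noncomputable def bc (n : ℕ) : Fin n → ℝ := fun _ => 1 / ((n : ℝ) + 1)

lemma lam_bc (l : Fin (n + 1)) : lam l (bc n) = 1 / ((n : ℝ) + 1) := by
  have hn : ((n : ℝ) + 1) ≠ 0 := by positivity
  refine Fin.cases ?_ (fun i => ?_) l
  · simp only [lam_zero, bc, Finset.sum_const, Finset.card_univ, Fintype.card_fin, nsmul_eq_mul]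
    field_simp
    ring
  · simp [lam_succ, bc]

/-- The affine functions whose maximum is the gauge of the simplex about its centroid. -/
noncomputable def tl (l : Fin (n + 1)) (x : Fin n → ℝ) : ℝ := 1 - ((n : ℝ) + 1) * lam l x

/-- The gauge of the simplex about its centroid. -/
noncomputable def tt (x : Fin n → ℝ) : ℝ :=
  Finset.univ.sup' Finset.univ_nonempty (fun l : Fin (n + 1) => tl l x)

lemma tt_le_iff {x : Fin n → ℝ} {a : ℝ} : tt x ≤ a ↔ ∀ l, tl l x ≤ a := by
  unfold tt
  rw [Finset.sup'_le_iff]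
  simp

lemma tl_le_tt (l : Fin (n + 1)) (x : Fin n → ℝ) : tl l x ≤ tt x :=
  Finset.le_sup' (fun l : Fin (n + 1) => tl l x) (Finset.mem_univ l)

lemma exists_tt (x : Fin n → ℝ) : ∃ l : Fin (n + 1), tt x = tl l x := by
  obtain ⟨l, _, hl⟩ := Finset.exists_mem_eq_sup' (s := Finset.univ) Finset.univ_nonempty
    (fun l : Fin (n + 1) => tl l x)
  exact ⟨l, hl⟩

lemma tl_continuous (l : Fin (n + 1)) : Continuous (tl l : (Fin n → ℝ) → ℝ) := by
  have := lam_continuous (n := n) l
  unfold tl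
  fun_prop

lemma tt_continuous : Continuous (tt : (Fin n → ℝ) → ℝ) := by
  unfold tt
  exact Continuous.finset_sup'_apply _ (fun l _ => tl_continuous l)

lemma mem_sig_iff {x : Fin n → ℝ} : x ∈ sig n ↔ tt x ≤ 1 := by
  have hn : (0 : ℝ) < (n : ℝ) + 1 := by positivity
  rw [tt_le_iff]
  constructor
  · intro h l
    have := h l
    unfold tl
    nlinarith
  · intro h l
    have := h l
    unfold tl at this
    nlinarith

lemma sum_tl (x : Fin n → ℝ) : ∑ l, tl l x = 0 := by
  unfold tl
  rw [Finset.sum_sub_distrib, ← Finset.mul_sum, lam_sum]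
  simp

lemma tt_nonneg (x : Fin n → ℝ) : 0 ≤ tt x := by
  by_contra h
  push Not at h
  have : ∑ l, tl l x < 0 := by
    apply Finset.sum_neg _ ⟨0, Finset.mem_univ _⟩
    intro l _
    exact lt_of_le_of_lt (tl_le_tt l x) h
  rw [sum_tl] at this
  exact lt_irrefl _ this

lemma tt_nonpos_imp {x : Fin n → ℝ} (h : tt x ≤ 0) : x = bc n := by
  have hn : (0 : ℝ) < (n : ℝ) + 1 := by positivity
  have h0 : ∀ l, tl l x ≤ 0 := tt_le_iff.1 h
  have h1 : ∀ l ∈ (Finset.univ : Finset (Fin (n + 1))), 0 ≤ - tl l x :=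
    fun l _ => by have := h0 l; linarith
  have h2 : ∑ l, - tl l x = 0 := by rw [Finset.sum_neg_distrib, sum_tl]; simp
  have h3 := (Finset.sum_eq_zero_iff_of_nonneg h1).1 h2
  ext i
  have := h3 i.succ (Finset.mem_univ _)
  simp only [tl, lam_succ] at this
  simp only [bc]
  field_simp
  linarith

/-- The homothety about the centroid. -/
noncomputable def hom (r : ℝ) (x : Fin n → ℝ) : Fin n → ℝ := AffineMap.homothety (bc n) r x

lemma hom_eq (r : ℝ) (x : Fin n → ℝ) : hom r x = r • x + (1 - r) • bc n := by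
  unfold hom
  rw [AffineMap.homothety_apply]
  simp only [vsub_eq_sub, vadd_eq_add, smul_sub, sub_smul, one_smul]
  abel

lemma lam_hom (r : ℝ) (l : Fin (n + 1)) (x : Fin n → ℝ) :
    lam l (hom r x) = r * lam l x + (1 - r) * (1 / ((n : ℝ) + 1)) := by
  rw [hom_eq, lam_convex l x (bc n) (by ring), lam_bc]

lemma tl_hom (r : ℝ) (l : Fin (n + 1)) (x : Fin n → ℝ) : tl l (hom r x) = r * tl l x := by
  have hn : ((n : ℝ) + 1) ≠ 0 := by positivity
  unfold tl
  rw [lam_hom]
  field_simp
  ring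

lemma tt_hom {r : ℝ} (hr : 0 ≤ r) (x : Fin n → ℝ) : tt (hom r x) = r * tt x := by
  apply le_antisymm
  · rw [tt_le_iff]
    intro l
    rw [tl_hom]
    exact mul_le_mul_of_nonneg_left (tl_le_tt l x) hr
  · obtain ⟨l, hl⟩ := exists_tt x
    rw [hl, ← tl_hom]
    exact tl_le_tt l _

lemma hom_hom (r r' : ℝ) (x : Fin n → ℝ) : hom r (hom r' x) = hom (r * r') x := by
  simp only [hom_eq, smul_add, smul_smul, add_assoc, ← add_smul]
  congr 2
  ring

lemma hom_one (x : Fin n → ℝ) : hom 1 x = x := by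
  simp [hom_eq]

/-- Functions of direction only. -/
def Deg0 {β : Type*} (Y : (Fin n → ℝ) → β) : Prop := ∀ r : ℝ, 0 < r → ∀ x, Y (hom r x) = Y x

lemma hom_image {β : Type*} {Y : (Fin n → ℝ) → β} (hY : Deg0 Y) (B : Set β) {r : ℝ} (hr0 : 0 < r)
    (hr1 : r ≤ 1) :
    hom r '' (Y ⁻¹' B ∩ sig n) = (tt ⁻¹' Iic r ∩ Y ⁻¹' B) ∩ sig n := by
  ext x
  constructor
  · rintro ⟨z, ⟨hzB, hz⟩, rfl⟩
    have hz' := mem_sig_iff.1 hz
    have htt : tt (hom r z) ≤ r := by
      rw [tt_hom hr0.le]
      nlinarith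
    refine ⟨⟨htt, ?_⟩, mem_sig_iff.2 (htt.trans hr1)⟩
    simp only [Set.mem_preimage, hY r hr0 z]
    exact hzB
  · rintro ⟨⟨h1, h2⟩, _⟩
    refine ⟨hom r⁻¹ x, ⟨?_, ?_⟩, ?_⟩
    · simp only [Set.mem_preimage, hY _ (inv_pos.2 hr0) x]
      exact h2
    · rw [mem_sig_iff, tt_hom (inv_pos.2 hr0).le]
      have h1' : tt x ≤ r := h1
      rw [inv_mul_le_iff₀ hr0]
      linarith
    · rw [hom_hom, mul_inv_cancel₀ hr0.ne', hom_one]

/-- The uniform measure on the simplex, up to normalisation. -/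
noncomputable def PP (n : ℕ) : Measure (Fin n → ℝ) := volume.restrict (sig n)

instance : IsFiniteMeasure (PP n) := ⟨by
  rw [PP, Measure.restrict_apply_univ]
  exact sig_compact.measure_lt_top⟩

lemma tt_measurable : Measurable (tt : (Fin n → ℝ) → ℝ) := tt_continuous.measurable

lemma scale_meas (hn : 0 < n) {β : Type*} [MeasurableSpace β] {Y : (Fin n → ℝ) → β}
    (hYm : Measurable Y) (hY : Deg0 Y) {B : Set β} (hB : MeasurableSet B) {r : ℝ} (hr0 : 0 < r)
    (hr1 : r ≤ 1) :
    PP n (tt ⁻¹' Iic r ∩ Y ⁻¹' B) = ENNReal.ofReal (r ^ n) * PP n (Y ⁻¹' B) := by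
  rw [PP, Measure.restrict_apply ((tt_measurable measurableSet_Iic).inter (hYm hB)),
    Measure.restrict_apply (hYm hB), ← hom_image hY B hr0 hr1]
  have : (hom r : (Fin n → ℝ) → (Fin n → ℝ)) = AffineMap.homothety (bc n) r := rfl
  rw [this, Measure.addHaar_image_homothety]
  simp only [Module.finrank_fintype_fun_eq_card, Fintype.card_fin]
  rw [abs_of_nonneg (pow_nonneg hr0.le n)]

lemma PP_univ : PP n Set.univ = volume (sig n) := by
  rw [PP, Measure.restrict_apply_univ]

lemma sig_volume_ne_top : volume (sig n) ≠ ⊤ := sig_compact.measure_lt_top.ne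

lemma sig_volume_ne_zero : volume (sig n) ≠ 0 := by
  intro h
  have h1 : vol (sig n) = 0 := by simp [vol, h]
  rw [sig_vol] at h1
  exact v0_pos.ne' h1

/-- The law of the radial variable, normalised to a probability measure. -/
noncomputable def rho (n : ℕ) : Measure ℝ := (volume (sig n))⁻¹ • (PP n).map tt

instance : IsFiniteMeasure (rho n) := by
  unfold rho
  have : IsFiniteMeasure ((PP n).map (tt : (Fin n → ℝ) → ℝ)) := inferInstance
  exact Measure.smul_finite _ (ENNReal.inv_ne_top.2 sig_volume_ne_zero)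

lemma PP_Iic_of_nonpos (hn : 0 < n) {a : ℝ} (ha : a ≤ 0) (E : Set (Fin n → ℝ)) :
    PP n (tt ⁻¹' Iic a ∩ E) = 0 := by
  haveI : Nonempty (Fin n) := ⟨⟨0, hn⟩⟩
  apply measure_mono_null (t := {bc n})
  · rintro x ⟨hx, _⟩
    have : tt x ≤ a := hx
    exact tt_nonpos_imp (this.trans ha)
  · have : volume ({bc n} : Set (Fin n → ℝ)) = 0 := measure_singleton _
    exact (Measure.restrict_apply_le _ _).trans_eq this |> fun h => le_antisymm h bot_le

lemma PP_Iic_of_one_le {a : ℝ} (ha : 1 ≤ a) {E : Set (Fin n → ℝ)} (hE : MeasurableSet E) :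
    PP n (tt ⁻¹' Iic a ∩ E) = PP n E := by
  rw [PP, Measure.restrict_apply ((tt_measurable measurableSet_Iic).inter hE),
    Measure.restrict_apply hE]
  congr 1
  ext x
  simp only [Set.mem_inter_iff, Set.mem_preimage, Set.mem_Iic]
  constructor
  · rintro ⟨⟨_, h2⟩, h3⟩
    exact ⟨h2, h3⟩
  · rintro ⟨h2, h3⟩
    exact ⟨⟨(mem_sig_iff.1 h3).trans ha, h2⟩, h3⟩

/-- Independence of the radial variable and functions of direction. -/
theorem polar_prod (hn : 0 < n) {β : Type*} [MeasurableSpace β] {Y : (Fin n → ℝ) → β}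
    (hYm : Measurable Y) (hY : Deg0 Y) :
    (rho n).prod ((PP n).map Y) = (PP n).map (fun x => (tt x, Y x)) := by
  apply Measure.prod_eq
  intro A B hA hB
  have hΞ : Measurable (fun x : Fin n → ℝ => (tt x, Y x)) := tt_measurable.prodMk hYm
  rw [Measure.map_apply hΞ (hA.prod hB), Measure.map_apply hYm hB]
  have hset : (fun x : Fin n → ℝ => (tt x, Y x)) ⁻¹' A ×ˢ B = tt ⁻¹' A ∩ Y ⁻¹' B := rfl
  rw [hset]
  -- two measures on the line
  let μ₁ : Measure ℝ := ((PP n).restrict (Y ⁻¹' B)).map tt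
  let μ₂ : Measure ℝ := (PP n (Y ⁻¹' B)) • rho n
  have hEq : μ₁ = μ₂ := by
    apply Measure.ext_of_Iic
    intro a
    have h1 : μ₁ (Iic a) = PP n (tt ⁻¹' Iic a ∩ Y ⁻¹' B) := by
      simp only [μ₁]
      rw [Measure.map_apply tt_measurable measurableSet_Iic,
        Measure.restrict_apply (tt_measurable measurableSet_Iic)]
    have h2 : μ₂ (Iic a) = PP n (Y ⁻¹' B) * ((volume (sig n))⁻¹ * PP n (tt ⁻¹' Iic a)) := by
      simp only [μ₂, rho, Measure.smul_apply, smul_eq_mul]
      rw [Measure.map_apply tt_measurable measurableSet_Iic]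
    rw [h1, h2]
    have huniv : (tt : (Fin n → ℝ) → ℝ) ⁻¹' Iic a = tt ⁻¹' Iic a ∩ Set.univ := (Set.inter_univ _).symm
    rcases le_or_gt a 0 with ha | ha
    · rw [PP_Iic_of_nonpos hn ha, huniv, PP_Iic_of_nonpos hn ha]
      simp
    · rcases le_or_gt 1 a with ha1 | ha1
      · rw [PP_Iic_of_one_le ha1 (hYm hB), huniv, PP_Iic_of_one_le ha1 MeasurableSet.univ, PP_univ,
          ENNReal.inv_mul_cancel sig_volume_ne_zero sig_volume_ne_top, mul_one]
      · have e1 := scale_meas hn hYm hY hB ha ha1.le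
        have e2 := scale_meas hn (β := Unit) (Y := fun _ => ()) measurable_const (fun _ _ _ => rfl)
          (B := Set.univ) MeasurableSet.univ ha ha1.le
        simp only [Set.preimage_univ, Set.inter_univ] at e2
        have hc : (volume (sig n))⁻¹ * volume (sig n) = 1 :=
          ENNReal.inv_mul_cancel sig_volume_ne_zero sig_volume_ne_top
        rw [e1, e2, PP_univ]
        calc ENNReal.ofReal (a ^ n) * PP n (Y ⁻¹' B)
            = ENNReal.ofReal (a ^ n) * PP n (Y ⁻¹' B) * ((volume (sig n))⁻¹ * volume (sig n)) := by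
              rw [hc, mul_one]
          _ = _ := by ring
  have h3 := congrArg (fun m : Measure ℝ => m A) hEq
  simp only [μ₁, μ₂] at h3
  rw [Measure.map_apply tt_measurable hA, Measure.restrict_apply (tt_measurable hA)] at h3
  simp only [Measure.smul_apply, smul_eq_mul] at h3
  rw [h3, mul_comm]

lemma hom_aff (r : ℝ) : (hom r : (Fin n → ℝ) → (Fin n → ℝ))
    = aff (r • (1 : Matrix (Fin n) (Fin n) ℝ)) ((1 - r) • bc n) := by
  ext x i
  simp [hom_eq, aff, Matrix.smul_mulVec]

lemma hom_det (r : ℝ) : (r • (1 : Matrix (Fin n) (Fin n) ℝ)).det = r ^ n := by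
  simp [Matrix.det_smul]

lemma sig_trunc {c : ℝ} (hc0 : 0 < c) (hc1 : c ≤ 1) (a : ℕ) :
    ∫ x in sig n, (if tt x ≤ c then tt x ^ a else 0) = c ^ (n + a) * ∫ x in sig n, tt x ^ a := by
  have h1 : (fun x : Fin n → ℝ => if tt x ≤ c then tt x ^ a else 0)
      = (tt ⁻¹' Iic c).indicator (fun x => tt x ^ a) := by
    ext x
    simp [Set.indicator]
  rw [h1, setIntegral_indicator (tt_measurable measurableSet_Iic)]
  have h2 : sig n ∩ tt ⁻¹' Iic c = hom c '' sig n := by
    have := hom_image (n := n) (β := Unit) (Y := fun _ => ()) (fun _ _ _ => rfl) Set.univ hc0 hc1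
    simp only [Set.preimage_univ, Set.univ_inter, Set.inter_univ] at this
    rw [this, Set.inter_comm]
  have hdet : (c • (1 : Matrix (Fin n) (Fin n) ℝ)).det ≠ 0 := by
    rw [hom_det]; positivity
  rw [h2, hom_aff, image_integral _ hdet sig_measurable, hom_det, abs_of_pos (by positivity),
    ← hom_aff]
  have h3 : ∀ x : Fin n → ℝ, tt (hom c x) ^ a = c ^ a * tt x ^ a := by
    intro x; rw [tt_hom hc0.le, mul_pow]
  simp only [h3, integral_const_mul, pow_add]
  ring

lemma tt_pow_measurable (a : ℕ) : Measurable (fun x : Fin n → ℝ => tt x ^ a) :=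
  (tt_continuous.pow a).measurable

lemma sig_tt_moment (hn : 0 < n) (a : ℕ) :
    ∫ x in sig n, tt x ^ a = (n : ℝ) / ((n : ℝ) + a) * v0 n := by
  have hn' : (0 : ℝ) < n := by exact_mod_cast hn
  rcases Nat.eq_zero_or_pos a with rfl | ha
  · simp only [pow_zero, Nat.cast_zero, add_zero]
    rw [mom0]
    rw [div_self hn'.ne', one_mul]
    rfl
  · have h := layer_cake (PP n) (f := tt) (G := fun _ => 1) tt_measurable measurable_const
      (integrable_const _)
      (by
        filter_upwards [ae_restrict_mem sig_measurable] with x hx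
        exact ⟨tt_nonneg x, mem_sig_iff.1 hx⟩) a ha
    simp only [mul_one, PP] at h
    rw [h, mom0]
    have h2 : ∀ r ∈ Ioc (0 : ℝ) 1, ((a : ℝ) * r ^ (a - 1)) *
        ∫ x in sig n, (if tt x ≤ r then (1 : ℝ) else 0)
        = (a : ℝ) * v0 n * r ^ (n + a - 1) := by
      intro r hr
      have := sig_trunc (n := n) hr.1 hr.2 0
      simp only [pow_zero, add_zero] at this
      rw [this, mom0]
      have e : n + a - 1 = (a - 1) + n := by omega
      rw [e, pow_add]
      unfold v0
      ring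
    rw [setIntegral_congr_fun measurableSet_Ioc h2, integral_const_mul,
      ← intervalIntegral.integral_of_le zero_le_one, integral_pow]
    have hc : ((n + a - 1 : ℕ) : ℝ) + 1 = (n : ℝ) + a := by
      have : n + a - 1 + 1 = n + a := by omega
      exact_mod_cast this
    rw [hc]
    have ha' : (0 : ℝ) < a := by exact_mod_cast ha
    have hs : (0 : ℝ) < (n : ℝ) + a := by positivity
    have : ((1 : ℝ) ^ (n + a - 1 + 1) - 0 ^ (n + a - 1 + 1)) = 1 := by simp
    rw [this]
    unfold v0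
    field_simp
    ring

/-- The radial integration formula. -/
theorem radial_formula (hn : 0 < n) (a : ℕ) {c f : (Fin n → ℝ) → ℝ} (hcm : Measurable c)
    (hfm : Measurable f) (hc : Deg0 c) (hf : Deg0 f)
    (hc1 : ∀ x ∈ sig n, 0 < c x ∧ c x ≤ 1) {C : ℝ} (hC : ∀ x ∈ sig n, |f x| ≤ C) :
    ∫ x in sig n, (if tt x ≤ c x then tt x ^ a else 0) * f x
      = (n : ℝ) / ((n : ℝ) + a) * ∫ x in sig n, c x ^ (n + a) * f x := by
  let Y : (Fin n → ℝ) → ℝ × ℝ := fun x => (c x, f x)
  have hYm : Measurable Y := hcm.prodMk hfm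
  have hY : Deg0 Y := fun r hr x => by simp only [Y, hc r hr x, hf r hr x]
  let Ξ : (Fin n → ℝ) → ℝ × (ℝ × ℝ) := fun x => (tt x, Y x)
  have hΞ : Measurable Ξ := tt_measurable.prodMk hYm
  let H : ℝ × (ℝ × ℝ) → ℝ := fun z => (if z.1 ≤ z.2.1 then z.1 ^ a else 0) * z.2.2
  have hH : Measurable H := by
    have h1 : Measurable (fun z : ℝ × (ℝ × ℝ) => if z.1 ≤ z.2.1 then z.1 ^ a else 0) :=
      Measurable.ite (measurableSet_le measurable_fst (measurable_fst.comp measurable_snd))
        (by fun_prop) measurable_const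
    exact h1.mul (measurable_snd.comp measurable_snd)
  have hprod := polar_prod hn hYm hY
  have hIntΞ : Integrable (H ∘ Ξ) (PP n) := by
    refine Integrable.mono' (g := fun _ => C) (integrable_const _) (hH.comp hΞ).aestronglyMeasurable ?_
    filter_upwards [ae_restrict_mem sig_measurable] with x hx
    simp only [Function.comp, H, Ξ, Y, Real.norm_eq_abs]
    rw [abs_mul]
    have ht := mem_sig_iff.1 hx
    have ht0 := tt_nonneg x
    have h1 : |if tt x ≤ c x then tt x ^ a else 0| ≤ 1 := by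
      split_ifs
      · rw [abs_of_nonneg (pow_nonneg ht0 _)]
        exact pow_le_one₀ ht0 ht
      · simp
    calc _ ≤ 1 * |f x| := by gcongr
      _ ≤ C := by rw [one_mul]; exact hC x hx
  have hIntH : Integrable H ((rho n).prod ((PP n).map Y)) := by
    rw [hprod]
    exact (integrable_map_measure hH.aestronglyMeasurable hΞ.aemeasurable).2 hIntΞ
  have h1 : ∫ x in sig n, (if tt x ≤ c x then tt x ^ a else 0) * f x = ∫ z, H z ∂((rho n).prod ((PP n).map Y)) := by
    rw [hprod, integral_map hΞ.aemeasurable hH.aestronglyMeasurable]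
    rfl
  rw [h1, integral_prod_symm _ hIntH]
  have hG : StronglyMeasurable (fun y : ℝ × ℝ => ∫ s, H (s, y) ∂(rho n)) :=
    hH.stronglyMeasurable.integral_prod_left'
  rw [integral_map hYm.aemeasurable hG.aestronglyMeasurable]
  have hΛ : ∀ x ∈ sig n, ∫ s, H (s, Y x) ∂(rho n)
      = (n : ℝ) / ((n : ℝ) + a) * (c x ^ (n + a) * f x) := by
    intro x hx
    obtain ⟨h0, h1'⟩ := hc1 x hx
    simp only [H, Y]
    rw [integral_mul_const]
    unfold rho
    rw [integral_smul_measure, integral_map tt_measurable.aemeasurable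
      ((Measurable.ite measurableSet_Iic (by fun_prop) measurable_const).aestronglyMeasurable)]
    have e : ∫ y, (if tt y ≤ c x then tt y ^ a else 0) ∂(PP n) = c x ^ (n + a) * ∫ y in sig n, tt y ^ a :=
      sig_trunc h0 h1' a
    rw [e, sig_tt_moment hn a]
    have hV : ((volume (sig n))⁻¹).toReal = (v0 n)⁻¹ := by
      rw [ENNReal.toReal_inv]
      congr 1
      exact sig_vol
    rw [hV]
    have hv := v0_pos (n := n)
    simp only [smul_eq_mul]
    field_simp
  change ∫ x in sig n, ∫ s, H (s, Y x) ∂(rho n) = _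
  rw [setIntegral_congr_fun sig_measurable hΛ, integral_const_mul]

end P254
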