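import Vale.Agent.P254.Perm

open MeasureTheory Set Finset Real
open scoped BigOperators Pointwise

namespace P254

variable {m : ℕ}

/-- The tail sum. -/
noncomputable def ss (y : Fin (m + 1) → ℝ) : ℝ := ∑ a : Fin m, y a.succ

/-- The full sum. -/
noncomputable def ts (y : Fin (m + 1) → ℝ) : ℝ := ∑ i, y i

lemma ts_eq (y : Fin (m + 1) → ℝ) : ts y = y 0 + ss y := Fin.sum_univ_succ _

lemma ss_continuous : Continuous (ss : (Fin (m + 1) → ℝ) → ℝ) := by
  unfold ss; fun_prop

lemma ts_continuous : Continuous (ts : (Fin (m + 1) → ℝ) → ℝ) := by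
  unfold ts; fun_prop

lemma sig_nonneg {y : Fin (m + 1) → ℝ} (hy : y ∈ sig (m + 1)) (i : Fin (m + 1)) : 0 ≤ y i :=
  hy i.succ

lemma sig_ts_le {y : Fin (m + 1) → ℝ} (hy : y ∈ sig (m + 1)) : ts y ≤ 1 := by
  have := hy 0
  rw [lam_zero] at this
  unfold ts
  linarith

lemma mem_sig_of {y : Fin (m + 1) → ℝ} (h1 : ∀ i, 0 ≤ y i) (h2 : ts y ≤ 1) : y ∈ sig (m + 1) := by
  intro l
  refine Fin.cases ?_ (fun i => ?_) l
  · rw [lam_zero]
    unfold ts at h2
    linarith
  · exact h1 i

lemma ss_nonneg {y : Fin (m + 1) → ℝ} (hy : y ∈ sig (m + 1)) : 0 ≤ ss y :=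
  Finset.sum_nonneg (fun a _ => sig_nonneg hy a.succ)

lemma ss_le_ts {y : Fin (m + 1) → ℝ} (hy : y ∈ sig (m + 1)) : ss y ≤ ts y := by
  rw [ts_eq]
  have := sig_nonneg hy 0
  linarith

/-- The projection on the distinguished edge. -/
noncomputable def edgeP (y : Fin (m + 1) → ℝ) : Fin (m + 1) → ℝ := Fin.cons (ts y) (fun _ => 0)

lemma edgeP_zero (y : Fin (m + 1) → ℝ) : edgeP y 0 = ts y := rfl
lemma edgeP_succ (y : Fin (m + 1) → ℝ) (a : Fin m) : edgeP y a.succ = 0 := rfl

lemma ts_edgeP (y : Fin (m + 1) → ℝ) : ts (edgeP y) = ts y := by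
  rw [ts_eq, edgeP_zero]
  simp [ss, edgeP_succ]

lemma edgeP_mem {y : Fin (m + 1) → ℝ} (hy : y ∈ sig (m + 1)) : edgeP y ∈ sig (m + 1) := by
  apply mem_sig_of
  · intro i
    refine Fin.cases ?_ (fun a => ?_) i
    · rw [edgeP_zero, ts_eq]
      have := sig_nonneg hy 0
      have := ss_nonneg hy
      linarith
    · rw [edgeP_succ]
  · rw [ts_edgeP]
    exact sig_ts_le hy

/-- The matrix of the dilation towards the distinguished edge. -/
noncomputable def Aa (α : ℝ) : Matrix (Fin (m + 1)) (Fin (m + 1)) ℝ :=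
  Matrix.of fun i j => Fin.cases (Fin.cases 1 (fun _ => 1 - α) j)
    (fun _ => if i = j then α else 0) i

lemma Aa_mulVec (α : ℝ) (y : Fin (m + 1) → ℝ) :
    (Aa α).mulVec y = α • y + (1 - α) • edgeP y := by
  ext i
  simp only [Matrix.mulVec, dotProduct, Pi.add_apply, Pi.smul_apply, smul_eq_mul]
  refine Fin.cases ?_ (fun a => ?_) i
  · rw [Fin.sum_univ_succ]
    simp only [Aa, Matrix.of_apply, Fin.cases_zero, Fin.cases_succ, edgeP_zero, ts_eq]
    rw [← Finset.mul_sum]
    simp only [ss]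
    ring
  · simp only [Aa, Matrix.of_apply, Fin.cases_succ, edgeP_succ, mul_zero, add_zero]
    rw [Finset.sum_eq_single a.succ]
    · simp
    · intro b _ hb
      simp [Ne.symm hb]
    · simp

lemma Aa_det (α : ℝ) : (Aa α : Matrix (Fin (m + 1)) (Fin (m + 1)) ℝ).det = α ^ m := by
  rw [Matrix.det_of_upperTriangular, Fin.prod_univ_succ]
  · simp [Aa]
  · intro i j hij
    simp only [id] at hij
    revert hij
    refine Fin.cases ?_ (fun a => ?_) i
    · intro hij
      exact absurd hij (Fin.not_lt_zero j)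
    · intro hij
      have : a.succ ≠ j := fun h => absurd hij (by rw [h]; exact lt_irrefl _)
      simp [Aa, this]

/-- The dilation towards the distinguished edge. -/
noncomputable def Dil (α : ℝ) (y : Fin (m + 1) → ℝ) : Fin (m + 1) → ℝ :=
  α • y + (1 - α) • edgeP y

lemma Dil_eq_aff (α : ℝ) : (Dil α : (Fin (m + 1) → ℝ) → (Fin (m + 1) → ℝ)) = aff (Aa α) 0 := by
  ext y i
  simp only [aff, add_zero, Aa_mulVec, Dil]

lemma Dil_zero (α : ℝ) (y : Fin (m + 1) → ℝ) : Dil α y 0 = y 0 + (1 - α) * ss y := by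
  simp only [Dil, Pi.add_apply, Pi.smul_apply, smul_eq_mul, edgeP_zero, ts_eq]
  ring

lemma Dil_succ (α : ℝ) (y : Fin (m + 1) → ℝ) (a : Fin m) : Dil α y a.succ = α * y a.succ := by
  simp only [Dil, Pi.add_apply, Pi.smul_apply, smul_eq_mul, edgeP_succ]
  ring

lemma ss_Dil (α : ℝ) (y : Fin (m + 1) → ℝ) : ss (Dil α y) = α * ss y := by
  simp only [ss, Dil_succ, Finset.mul_sum]

lemma ts_Dil (α : ℝ) (y : Fin (m + 1) → ℝ) : ts (Dil α y) = ts y := by
  rw [ts_eq, ts_eq, ss_Dil, Dil_zero]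
  ring

lemma Dil_image {α : ℝ} (h0 : 0 < α) (h1 : α ≤ 1) :
    (Dil α : (Fin (m + 1) → ℝ) → (Fin (m + 1) → ℝ)) '' sig (m + 1)
      = sig (m + 1) ∩ {y | ss y ≤ α * ts y} := by
  ext z
  constructor
  · rintro ⟨y, hy, rfl⟩
    refine ⟨mem_sig_of ?_ ?_, ?_⟩
    · intro i
      refine Fin.cases ?_ (fun a => ?_) i
      · rw [Dil_zero]
        have := sig_nonneg hy 0
        have := ss_nonneg hy
        have : 0 ≤ (1 - α) * ss y := mul_nonneg (by linarith) this
        linarith
      · rw [Dil_succ]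
        exact mul_nonneg h0.le (sig_nonneg hy _)
    · rw [ts_Dil]
      exact sig_ts_le hy
    · simp only [Set.mem_setOf_eq, ss_Dil, ts_Dil]
      exact mul_le_mul_of_nonneg_left (ss_le_ts hy) h0.le
  · rintro ⟨hz, hz2⟩
    have hz2' : ss z ≤ α * ts z := hz2
    refine ⟨Dil α⁻¹ z, ?_, ?_⟩
    · apply mem_sig_of
      · intro i
        refine Fin.cases ?_ (fun a => ?_) i
        · rw [Dil_zero, ts_eq] at *
          have e : z 0 + (1 - α⁻¹) * ss z = (z 0 + ss z) - α⁻¹ * ss z := by ring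
          rw [e]
          have : α⁻¹ * ss z ≤ z 0 + ss z := by
            rw [inv_mul_le_iff₀ h0]
            exact hz2'
          linarith
        · rw [Dil_succ]
          exact mul_nonneg (inv_pos.2 h0).le (sig_nonneg hz _)
      · rw [ts_Dil]
        exact sig_ts_le hz
    · ext i
      refine Fin.cases ?_ (fun a => ?_) i
      · rw [Dil_zero, ss_Dil, Dil_zero]
        field_simp
        ring
      · rw [Dil_succ, Dil_succ]
        field_simp

/-- The radial inequality: for a nonnegative convex function vanishing on the distinguished edge,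
`∫ s² ψ ≥ n / (n + 2) ∫ t² ψ`. -/
theorem radial_ineq {ψ : (Fin (m + 1) → ℝ) → ℝ} (hc : Continuous ψ)
    (hψ : ConvexOn ℝ (sig (m + 1)) ψ) (h0 : ∀ y ∈ sig (m + 1), 0 ≤ ψ y)
    (hedge : ∀ y ∈ sig (m + 1), (∀ a : Fin m, y a.succ = 0) → ψ y = 0) :
    ((m : ℝ) + 1) / ((m : ℝ) + 3) * ∫ y in sig (m + 1), ts y ^ 2 * ψ y
      ≤ ∫ y in sig (m + 1), ss y ^ 2 * ψ y := by
  have htc := ts_continuous (m := m)
  have hsc := ss_continuous (m := m)
  let f : (Fin (m + 1) → ℝ) → ℝ := fun y => ss y / ts y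
  let G : (Fin (m + 1) → ℝ) → ℝ := fun y => ts y ^ 2 * ψ y
  have hGc : Continuous G := by fun_prop
  have hfm : Measurable f := hsc.measurable.div htc.measurable
  have hGi : Integrable G (PP (m + 1)) := cont_int hGc
  have hfb : ∀ y ∈ sig (m + 1), 0 ≤ f y ∧ f y ≤ 1 := by
    intro y hy
    have h1 := ss_nonneg hy
    have h2 := ss_le_ts hy
    refine ⟨div_nonneg h1 (h1.trans h2), div_le_one_of_le₀ h2 (h1.trans h2)⟩
  have hf2 : ∀ y ∈ sig (m + 1), f y ^ 2 * G y = ss y ^ 2 * ψ y := by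
    intro y hy
    simp only [f, G]
    have h1 := ss_nonneg hy
    have h2 := ss_le_ts hy
    rcases (h1.trans h2).eq_or_lt with h3 | h3
    · have : ss y = 0 := le_antisymm (by rw [← h3] at h2; exact h2) h1
      rw [← h3, this]
      simp
    · field_simp
  have hl := layer_cake (PP (m + 1)) hfm hGc.measurable hGi
    (by
      filter_upwards [ae_restrict_mem sig_measurable] with y hy
      exact hfb y hy) 2 (by norm_num)
  have hLHS : ∫ y, f y ^ 2 * G y ∂(PP (m + 1)) = ∫ y in sig (m + 1), ss y ^ 2 * ψ y :=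
    setIntegral_congr_fun sig_measurable hf2
  have hM0 : ∀ y ∈ sig (m + 1), 0 ≤ G y := fun y hy => mul_nonneg (sq_nonneg _) (h0 y hy)
  rw [hLHS] at hl
  set M := ∫ y in sig (m + 1), G y with hM
  have hMdef : ∫ y, G y ∂(PP (m + 1)) = M := rfl
  rw [hMdef] at hl
  -- the truncated integrals
  have htrunc : ∀ r ∈ Ioc (0 : ℝ) 1,
      ∫ y, (if f y ≤ r then G y else 0) ∂(PP (m + 1)) ≤ r ^ (m + 1) * M := by
    intro r hr
    have hset : ∀ y ∈ sig (m + 1), (if f y ≤ r then G y else 0)
        = ({y | ss y ≤ r * ts y} : Set (Fin (m + 1) → ℝ)).indicator G y := by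
      intro y hy
      have h1 := ss_nonneg hy
      have h2 := ss_le_ts hy
      have hiff : f y ≤ r ↔ ss y ≤ r * ts y := by
        rcases (h1.trans h2).eq_or_lt with h3 | h3
        · have h4 : ss y = 0 := le_antisymm (by rw [← h3] at h2; exact h2) h1
          simp only [f, ← h3, h4, div_zero, mul_zero, le_refl, iff_true]
          exact hr.1.le
        · simp only [f]
          rw [div_le_iff₀ h3]
      simp only [Set.indicator, Set.mem_setOf_eq, hiff]
    have hmeasS : MeasurableSet ({y | ss y ≤ r * ts y} : Set (Fin (m + 1) → ℝ)) :=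
      measurableSet_le hsc.measurable (htc.measurable.const_mul r)
    have e1 : ∫ y, (if f y ≤ r then G y else 0) ∂(PP (m + 1))
        = ∫ y in sig (m + 1) ∩ {y | ss y ≤ r * ts y}, G y := by
      rw [← setIntegral_indicator hmeasS]
      exact setIntegral_congr_fun sig_measurable hset
    have hdet : (Aa r : Matrix (Fin (m + 1)) (Fin (m + 1)) ℝ).det ≠ 0 := by
      rw [Aa_det]; exact pow_ne_zero _ hr.1.ne'
    rw [e1, ← Dil_image hr.1 hr.2, Dil_eq_aff, image_integral _ hdet sig_measurable, Aa_det,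
      abs_of_pos (pow_pos hr.1 _), ← Dil_eq_aff]
    have hmono : ∫ y in sig (m + 1), G (Dil r y) ≤ ∫ y in sig (m + 1), r * G y := by
      apply setIntegral_mono_on
      · apply cont_int
        rw [Dil_eq_aff]
        exact hGc.comp (aff_continuous _ _)
      · exact cont_int (hGc.const_mul r)
      · exact sig_measurable
      · intro y hy
        simp only [G]
        rw [ts_Dil]
        have hconv := hψ.2 hy (edgeP_mem hy) hr.1.le (by linarith [hr.2] : 0 ≤ 1 - r) (by ring)
        have hz : ψ (edgeP y) = 0 := hedge _ (edgeP_mem hy) (fun a => edgeP_succ y a)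
        simp only [smul_eq_mul, hz, mul_zero, add_zero] at hconv
        have : ψ (Dil r y) ≤ r * ψ y := hconv
        have hts : 0 ≤ ts y ^ 2 := sq_nonneg _
        nlinarith
    rw [integral_const_mul] at hmono
    calc r ^ m * ∫ y in sig (m + 1), G (Dil r y) ≤ r ^ m * (r * M) :=
          mul_le_mul_of_nonneg_left hmono (pow_nonneg hr.1.le _)
      _ = r ^ (m + 1) * M := by ring
  have hMnn : 0 ≤ M := setIntegral_nonneg sig_measurable hM0
  have hbound : ∫ r in Ioc (0 : ℝ) 1, (((2 : ℕ) : ℝ) * r ^ (2 - 1)) *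
        ∫ y, (if f y ≤ r then G y else 0) ∂(PP (m + 1))
      ≤ ∫ r in Ioc (0 : ℝ) 1, (2 * M) * r ^ (m + 2) := by
    apply integral_mono_of_nonneg
    · filter_upwards [ae_restrict_mem measurableSet_Ioc] with r hr
      apply mul_nonneg (by have := hr.1; positivity)
      apply setIntegral_nonneg sig_measurable
      intro y hy
      split_ifs
      · exact hM0 y hy
      · exact le_rfl
    · exact ((by fun_prop : Continuous fun r : ℝ => (2 * M) * r ^ (m + 2)).integrableOn_Icc).mono_set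
        Ioc_subset_Icc_self
    · filter_upwards [ae_restrict_mem measurableSet_Ioc] with r hr
      have := htrunc r hr
      have hr0 : 0 ≤ ((2 : ℕ) : ℝ) * r ^ (2 - 1) := by have := hr.1; positivity
      calc _ ≤ ((2 : ℕ) : ℝ) * r ^ (2 - 1) * (r ^ (m + 1) * M) :=
            mul_le_mul_of_nonneg_left this hr0
        _ = _ := by
            simp only [Nat.add_one_sub_one, pow_one]
            push_cast
            ring
  have hval : ∫ r in Ioc (0 : ℝ) 1, (2 * M) * r ^ (m + 2) = 2 * M / ((m : ℝ) + 3) := by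
    rw [integral_const_mul, ← intervalIntegral.integral_of_le zero_le_one, integral_pow]
    simp
    have : ((m : ℝ) + 2 + 1) = (m : ℝ) + 3 := by ring
    rw [this]
    ring
  rw [hval] at hbound
  rw [hl]
  have hm3 : (0 : ℝ) < (m : ℝ) + 3 := by positivity
  have e : ((m : ℝ) + 1) / ((m : ℝ) + 3) * M = M - 2 * M / ((m : ℝ) + 3) := by
    field_simp
    ring
  rw [e]
  linarith

end P254
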