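import Vale.Agent.P254.Local2

open MeasureTheory Set Finset Real
open scoped BigOperators Pointwise Topology

namespace P254

variable {n : ℕ}

/-- The sandwich statement inside the standard simplex. -/
theorem sandwich_sigma (hn : 0 < n) {K : Set (Fin n → ℝ)} (hKc : IsCompact K) (hKs : K ⊆ sig n)
    (hball : ∀ x ∈ sig n, ∑ l, lam l x ^ 2 < 2 / ((n : ℝ) + 1) → x ∈ K) :
    0 < vol K ∧ isoD K ≤ CC n ∧ (K ≠ sig n → isoD K < CC n) := by
  have hN : (0 : ℝ) < (n : ℝ) + 1 := by positivity
  set c0 : ℝ := 1 / ((n : ℝ) + 1) with hc0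
  have hc0pos : 0 < c0 := by positivity
  have huu : ∀ x : Fin n → ℝ, ∑ l, lam l x ^ 2 = uu x + c0 := by
    intro x
    unfold uu
    rw [← hc0]
    have h1 : ∀ l : Fin (n + 1), (lam l x - c0) ^ 2 = lam l x ^ 2 - 2 * c0 * lam l x + c0 ^ 2 := by
      intro l; ring
    simp only [h1]
    rw [Finset.sum_add_distrib, Finset.sum_sub_distrib, ← Finset.mul_sum, lam_sum, Finset.sum_const,
      Finset.card_univ, Fintype.card_fin, nsmul_eq_mul]
    push_cast
    have h2 : ((n : ℝ) + 1) * c0 = 1 := by rw [hc0]; field_simp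
    have h3 : ((n : ℝ) + 1) * c0 ^ 2 = c0 := by
      rw [sq, ← mul_assoc, h2, one_mul]
    rw [h3]
    ring
  have hb2 : ∀ x ∈ sig n, uu x < c0 → x ∈ K := by
    intro x hx h
    apply hball x hx
    rw [huu]
    have : 2 / ((n : ℝ) + 1) = 2 * c0 := by rw [hc0]; ring
    rw [this]
    linarith
  -- positivity of the volume
  have hVpos : 0 < vol K := by
    let W : Set (Fin n → ℝ) := (⋂ l, {y | 0 < lam l y}) ∩ {y | uu y < c0}
    have hWo : IsOpen W :=
      (isOpen_iInter_of_finite (fun l => isOpen_lt continuous_const (lam_continuous l))).inter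
        (isOpen_lt uu_continuous continuous_const)
    have hWn : W.Nonempty := by
      refine ⟨bc n, ?_, ?_⟩
      · simp only [mem_iInter, mem_setOf_eq]
        intro l
        rw [lam_bc]
        positivity
      · have h1 := uu_le_tt (bc n)
        have h2 : tt (bc n) = 0 := by
          apply le_antisymm _ (tt_nonneg _)
          rw [tt_le_iff]
          intro l
          unfold tl
          rw [lam_bc]
          have : ((n : ℝ) + 1) * (1 / ((n : ℝ) + 1)) = 1 := by field_simp
          rw [this]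
          simp
        rw [h2] at h1
        have h3 : uu (bc n) ≤ 0 := by simpa using h1
        show uu (bc n) < c0
        linarith
    have hWK : W ⊆ K := by
      rintro y ⟨h1, h2⟩
      have hy : y ∈ sig n := fun l => le_of_lt (Set.mem_iInter.1 h1 l)
      exact hb2 y hy h2
    have hv : 0 < volume W := hWo.measure_pos volume hWn
    have hv2 : 0 < volume K := lt_of_lt_of_le hv (measure_mono hWK)
    exact ENNReal.toReal_pos hv2.ne' hKc.measure_lt_top.ne
  have hVle : vol K ≤ v0 n := by
    have := vol_mono sig_compact hKs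
    rwa [sig_vol] at this
  set A := sig n \ K with hA
  have hAm : MeasurableSet A := sig_measurable.diff hKc.measurableSet
  have hAs : A ⊆ sig n := Set.diff_subset
  have hphi : Continuous (fun x : Fin n → ℝ => uu x - c0) := uu_continuous.sub continuous_const
  have hφi : IntegrableOn (fun x : Fin n → ℝ => uu x - c0) A := (cont_int hphi).mono_set hAs
  have hφ0 : ∀ x ∈ A, 0 ≤ uu x - c0 := by
    rintro x ⟨h1, h2⟩
    by_contra hcon
    push Not at hcon
    exact h2 (hb2 x h1 (by linarith))
  have hI0 : 0 ≤ ∫ x in A, (uu x - c0) := setIntegral_nonneg hAm hφ0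
  have hid : ∫ x in A, (uu x - c0)
      = v0 n * n / (((n : ℝ) + 1) * (n + 2)) - (v0 n - vol K) / ((n : ℝ) + 1) - ∫ x in K, uu x := by
    have h1 : ∫ x in A, uu x = (∫ x in sig n, uu x) - ∫ x in K, uu x :=
      integral_diff hKc.measurableSet (cont_int uu_continuous) hKs
    have h2 : ∫ _x in A, (1 : ℝ) = (∫ _x in sig n, (1 : ℝ)) - ∫ _x in K, (1 : ℝ) :=
      integral_diff hKc.measurableSet (cont_int continuous_const) hKs
    have h3 : ∫ x in A, (uu x - c0) = (∫ x in A, uu x) - c0 * ∫ _x in A, (1 : ℝ) := by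
      rw [integral_sub ((cont_int uu_continuous).mono_set hAs)
        ((cont_int continuous_const).mono_set hAs), ← integral_const_mul]
      simp
    rw [h3, h1, h2, sig_uu, ← vol_eq_integral, ← vol_eq_integral, sig_vol, hc0]
    ring
  have hcrit := crit hn hKc hVpos hVle (by linarith)
  refine ⟨hVpos, hcrit.1, ?_⟩
  intro hne
  apply hcrit.2
  have hnot : ¬ sig n ⊆ K := fun h => hne (Set.Subset.antisymm hKs h)
  obtain ⟨x0, hx0, hx0K⟩ := Set.not_subset.1 hnot
  have hpc : Continuous (fun r : ℝ => (hom r x0 : Fin n → ℝ)) := by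
    have : (fun r : ℝ => (hom r x0 : Fin n → ℝ)) = fun r => r • x0 + (1 - r) • bc n := by
      ext r
      rw [hom_eq]
    rw [this]
    fun_prop
  have hSo : IsOpen {r : ℝ | hom r x0 ∉ K} := hKc.isClosed.isOpen_compl.preimage hpc
  have h1S : (1 : ℝ) ∈ {r : ℝ | hom r x0 ∉ K} := by
    simp only [mem_setOf_eq, hom_one]
    exact hx0K
  obtain ⟨ε, hε, hball'⟩ := Metric.isOpen_iff.1 hSo 1 h1S
  set η := min ε 1 with hη
  have hη0 : 0 < η := lt_min hε one_pos
  have hηε : η ≤ ε := min_le_left _ _
  have hη1 : η ≤ 1 := min_le_right _ _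
  have hmemS : ∀ r : ℝ, 1 - η < r → r ≤ 1 → hom r x0 ∉ K := by
    intro r h1 h2
    apply hball'
    rw [Metric.mem_ball, Real.dist_eq, abs_lt]
    constructor <;> linarith
  set r1 := 1 - η / 2 with hr1
  set r2 := 1 - η / 4 with hr2
  have hr10 : 0 < r1 := by rw [hr1]; linarith
  have hr12 : r1 < r2 := by rw [hr1, hr2]; linarith
  have hr21 : r2 < 1 := by rw [hr2]; linarith
  have hint : ∀ r : ℝ, 0 < r → r < 1 → hom r x0 ∈ sig n ∧ ∀ l, 0 < lam l (hom r x0) := by
    intro r h0 h1
    have h2 : ∀ l, 0 < lam l (hom r x0) := by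
      intro l
      rw [lam_hom]
      have h3 := hx0 l
      have h4 : 0 ≤ r * lam l x0 := mul_nonneg h0.le h3
      have h5 : 0 < (1 - r) * (1 / ((n : ℝ) + 1)) := by
        apply mul_pos (by linarith)
        positivity
      linarith
    exact ⟨fun l => (h2 l).le, h2⟩
  have h1u : c0 ≤ uu (hom r1 x0) := by
    by_contra hcon
    push Not at hcon
    exact hmemS r1 (by rw [hr1]; linarith) (by rw [hr1]; linarith) (hb2 _ (hint r1 hr10 (by rw [hr1]; linarith)).1 hcon)
  rw [uu_hom] at h1u
  have hu0 : 0 < uu x0 := by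
    by_contra hcon
    push Not at hcon
    have : r1 ^ 2 * uu x0 ≤ 0 := mul_nonpos_of_nonneg_of_nonpos (sq_nonneg _) hcon
    linarith
  have h2u : c0 < uu (hom r2 x0) := by
    rw [uu_hom]
    have : r1 ^ 2 < r2 ^ 2 := by nlinarith
    have := mul_lt_mul_of_pos_right this hu0
    linarith
  let W : Set (Fin n → ℝ) := Kᶜ ∩ ((⋂ l, {y | 0 < lam l y}) ∩ {y | c0 < uu y})
  have hWo : IsOpen W :=
    hKc.isClosed.isOpen_compl.inter
      ((isOpen_iInter_of_finite (fun l => isOpen_lt continuous_const (lam_continuous l))).inter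
        (isOpen_lt continuous_const uu_continuous))
  have hWn : W.Nonempty := by
    refine ⟨hom r2 x0, hmemS r2 (by rw [hr2]; linarith) hr21.le, ?_, h2u⟩
    simp only [mem_iInter, mem_setOf_eq]
    exact (hint r2 (by linarith) hr21).2
  have hWv : 0 < volume W := hWo.measure_pos volume hWn
  have hWsub : W ⊆ Function.support (fun x : Fin n → ℝ => uu x - c0) ∩ A := by
    rintro y ⟨h1, h2, h3⟩
    have hy : y ∈ sig n := fun l => le_of_lt (Set.mem_iInter.1 h2 l)
    refine ⟨?_, hy, h1⟩
    have h3' : c0 < uu y := h3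
    simp only [Function.mem_support]
    linarith
  have hpos : 0 < ∫ x in A, (uu x - c0) :=
    (setIntegral_pos_iff_support_of_nonneg_ae
      ((ae_restrict_iff' hAm).2 (Filter.Eventually.of_forall hφ0)) hφi).2
      (lt_of_lt_of_le hWv (measure_mono hWsub))
  linarith

end P254
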