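import Vale.Agent.P254.Formula

open MeasureTheory Set Finset Real
open scoped BigOperators Pointwise

namespace P254

variable {n : ℕ}

/-- The matrix whose columns are the edges at the first vertex. -/
def Aw (w : Fin (n + 1) → Fin n → ℝ) : Matrix (Fin n) (Fin n) ℝ :=
  Matrix.of fun i j => w j.succ i - w 0 i

lemma aff_w (w : Fin (n + 1) → Fin n → ℝ) (t : Fin n → ℝ) :
    aff (Aw w) (w 0) t = ∑ l, lam l t • w l := by
  ext i
  rw [aff_apply, Finset.sum_apply, Fin.sum_univ_succ]
  simp only [Aw, Matrix.of_apply, lam_zero, lam_succ, Pi.smul_apply, smul_eq_mul, sub_mul,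
    Finset.sum_sub_distrib]
  have h : ∑ k, w 0 i * t k = (∑ k, t k) * w 0 i := by
    rw [← Finset.mul_sum]; ring
  have h2 : ∑ k, w k.succ i * t k = ∑ k, t k * w k.succ i :=
    Finset.sum_congr rfl (fun k _ => mul_comm _ _)
  rw [h, h2]
  ring

lemma aff_w_ee (w : Fin (n + 1) → Fin n → ℝ) (l : Fin (n + 1)) :
    aff (Aw w) (w 0) (ee l) = w l := by
  rw [aff_w]
  simp only [lam_ee]
  rw [Finset.sum_eq_single l]
  · simp
  · intro m _ hm; simp [hm]
  · simp

lemma det_ne_of_affInd {w : Fin (n + 1) → Fin n → ℝ} (hw : AffineIndependent ℝ w) :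
    (Aw w).det ≠ 0 := by
  intro h0
  obtain ⟨v, hv, hAv⟩ := Matrix.exists_mulVec_eq_zero_iff.2 h0
  let W : Fin (n + 1) → ℝ := Fin.cons (-(∑ j, v j)) v
  have h1 : ∑ l, W l = 0 := by
    rw [Fin.sum_univ_succ]
    simp [W]
  have h2 : ∑ l, W l • w l = 0 := by
    rw [Fin.sum_univ_succ]
    simp only [W, Fin.cons_zero, Fin.cons_succ]
    ext i
    have := congrFun hAv i
    simp only [Matrix.mulVec, dotProduct, Aw, Matrix.of_apply, Pi.zero_apply, sub_mul,
      Finset.sum_sub_distrib] at this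
    simp only [Pi.add_apply, Pi.smul_apply, smul_eq_mul, Finset.sum_apply, Pi.zero_apply]
    have e1 : ∑ x, w 0 i * v x = (∑ x, v x) * w 0 i := by
      rw [← Finset.mul_sum]; ring
    have e2 : ∑ x, w x.succ i * v x = ∑ x, v x * w x.succ i :=
      Finset.sum_congr rfl (fun k _ => mul_comm _ _)
    rw [e1, e2] at this
    linarith
  have h3 := affineIndependent_iff.1 hw Finset.univ W h1 h2
  apply hv
  ext j
  have := h3 j.succ (Finset.mem_univ _)
  simpa [W] using this

/-- The affine map behind `aff`. -/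
noncomputable def affMap (A : Matrix (Fin n) (Fin n) ℝ) (b : Fin n → ℝ) :
    (Fin n → ℝ) →ᵃ[ℝ] (Fin n → ℝ) :=
  (Matrix.toLin' A).toAffineMap + AffineMap.const ℝ (Fin n → ℝ) b

lemma affMap_coe (A : Matrix (Fin n) (Fin n) ℝ) (b : Fin n → ℝ) : ⇑(affMap A b) = aff A b := by
  ext t i
  simp [affMap, aff]

lemma aff_hull (A : Matrix (Fin n) (Fin n) ℝ) (b : Fin n → ℝ) (S : Set (Fin n → ℝ)) :
    aff A b '' convexHull ℝ S = convexHull ℝ (aff A b '' S) := by
  rw [← affMap_coe]
  exact (affMap A b).image_convexHull S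

lemma ee_affInd : AffineIndependent ℝ (ee : Fin (n + 1) → Fin n → ℝ) := by
  rw [affineIndependent_iff]
  intro s W hW hs
  have hsucc : ∀ i : Fin n, i.succ ∈ s → W i.succ = 0 := by
    intro i hi
    have := congrFun hs i
    simp only [Finset.sum_apply, Pi.smul_apply, smul_eq_mul, Pi.zero_apply, ee] at this
    rw [Finset.sum_eq_single_of_mem i.succ hi] at this
    · simpa using this
    · intro b _ hb; simp [hb]
  intro e he
  refine Fin.cases ?_ (fun i hi => hsucc i hi) e he
  intro h0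
  rw [Finset.sum_eq_single_of_mem 0 h0] at hW
  · exact hW
  · intro b hb hb0
    obtain ⟨i, rfl⟩ := Fin.exists_succ_eq.2 hb0
    exact hsucc i hb

lemma simplex_image {A : Matrix (Fin n) (Fin n) ℝ} (b : Fin n → ℝ) (hA : A.det ≠ 0) :
    ∃ u : Fin (n + 1) → Fin n → ℝ, AffineIndependent ℝ u ∧
      aff A b '' sig n = convexHull ℝ (range u) := by
  refine ⟨aff A b ∘ ee, ?_, ?_⟩
  · have h := ee_affInd (n := n).map' (affMap A b) (by rw [affMap_coe]; exact aff_injective b hA)
    rwa [affMap_coe] at h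
  · rw [← hull_ee, aff_hull, Set.range_comp]

lemma aff_comp (A A' : Matrix (Fin n) (Fin n) ℝ) (b b' : Fin n → ℝ) (S : Set (Fin n → ℝ)) :
    aff A b '' (aff A' b' '' S) = aff (A * A') (A.mulVec b' + b) '' S := by
  rw [Set.image_image]
  apply Set.image_congr
  intro t _
  simp only [aff, Matrix.mulVec_add, Matrix.mulVec_mulVec]
  abel

lemma exists_preimage {A : Matrix (Fin n) (Fin n) ℝ} (b : Fin n → ℝ) (hA : A.det ≠ 0)
    (p : Fin n → ℝ) : ∃ p' : Fin n → ℝ, aff A b p' = p := by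
  have hu : IsUnit A.det := isUnit_iff_ne_zero.2 hA
  refine ⟨A⁻¹.mulVec (p - b), ?_⟩
  simp only [aff, Matrix.mulVec_mulVec, Matrix.mul_nonsing_inv _ hu, Matrix.one_mulVec]
  abel

lemma K_image (w : Fin (n + 1) → Fin n → ℝ) (p' : Fin n → ℝ) :
    aff (Aw w) (w 0) '' K0 p' = convexHull ℝ (insert (aff (Aw w) (w 0) p') (range w)) := by
  unfold K0
  rw [aff_hull, Set.image_insert_eq, ← Set.range_comp]
  congr 3
  ext l i
  exact congrFun (aff_w_ee w l) i

lemma simplex_hull (w : Fin (n + 1) → Fin n → ℝ) :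
    aff (Aw w) (w 0) '' sig n = convexHull ℝ (range w) := by
  rw [← hull_ee, aff_hull, ← Set.range_comp]
  congr 2
  ext l i
  exact congrFun (aff_w_ee w l) i

/-- Elementary bound: sum of squares at most the square of the sum. -/
lemma sum_sq_le {ι : Type*} (s : Finset ι) (x : ι → ℝ) (hx : ∀ i ∈ s, 0 ≤ x i) :
    ∑ i ∈ s, x i ^ 2 ≤ (∑ i ∈ s, x i) ^ 2 := by
  rw [sq (∑ i ∈ s, x i), Finset.sum_mul]
  apply Finset.sum_le_sum
  intro i hi
  rw [sq]
  exact mul_le_mul_of_nonneg_left (Finset.single_le_sum hx hi) (hx i hi)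

/-- Splitting coordinates into positive and negative parts. -/
lemma T_split (c : Fin (n + 1) → ℝ) (hc : ∑ l, c l = 1) :
    ∑ l, max (c l) 0 = 1 + ∑ l, max (-(c l)) 0 := by
  rw [← hc, ← Finset.sum_add_distrib]
  apply Finset.sum_congr rfl
  intro l _
  rcases le_or_gt (c l) 0 with h | h
  · rw [max_eq_right h, max_eq_left (by linarith)]
    ring
  · rw [max_eq_left h.le, max_eq_right (by linarith)]
    ring

lemma T_pos (c : Fin (n + 1) → ℝ) (hc : ∑ l, c l = 1) : 0 < ∑ l, max (c l) 0 := by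
  rw [T_split c hc]
  have : 0 ≤ ∑ l, max (-(c l)) 0 := Finset.sum_nonneg (fun l _ => le_max_right _ _)
  linarith

lemma aa_le_one (c : Fin (n + 1) → ℝ) (hc : ∑ l, c l = 1) : aa c ≤ 1 := by
  unfold aa
  have hT := T_pos c hc
  rw [div_le_one (by positivity)]
  exact sum_sq_le _ _ (fun l _ => le_max_right _ _)

lemma aa_nonneg (c : Fin (n + 1) → ℝ) : 0 ≤ aa c := by
  unfold aa
  positivity

lemma bb_pos (c : Fin (n + 1) → ℝ) (hc : ∑ l, c l = 1) : 0 < bb c := by
  unfold bb
  have hT := T_pos c hc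
  positivity

lemma bb_le_one (c : Fin (n + 1) → ℝ) (hc : ∑ l, c l = 1) : bb c ≤ 1 := by
  unfold bb
  have hT := T_pos c hc
  rw [div_le_one (by positivity), T_split c hc]
  have h1 := sum_sq_le Finset.univ (fun l => max (-(c l)) 0) (fun l _ => le_max_right _ _)
  have h2 : 0 ≤ ∑ l, max (-(c l)) 0 := Finset.sum_nonneg (fun l _ => le_max_right _ _)
  nlinarith

/-- If `bb c = 1` then no coordinate is negative. -/
lemma bb_eq_one (c : Fin (n + 1) → ℝ) (hc : ∑ l, c l = 1) (h : bb c = 1) (l : Fin (n + 1)) :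
    0 ≤ c l := by
  unfold bb at h
  have hT := T_pos c hc
  rw [div_eq_one_iff_eq (by positivity), T_split c hc] at h
  have h1 := sum_sq_le Finset.univ (fun l => max (-(c l)) 0) (fun l _ => le_max_right _ _)
  have h2 : 0 ≤ ∑ l, max (-(c l)) 0 := Finset.sum_nonneg (fun l _ => le_max_right _ _)
  have h3 : ∑ l, max (-(c l)) 0 = 0 := by nlinarith
  have h4 := (Finset.sum_eq_zero_iff_of_nonneg (fun l _ => le_max_right _ _)).1 h3 l
    (Finset.mem_univ l)
  have h5 := le_max_left (-(c l)) 0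
  linarith

/-- If `aa c = 1` then at most one coordinate is positive. -/
lemma aa_eq_one (c : Fin (n + 1) → ℝ) (hc : ∑ l, c l = 1) (h : aa c = 1) {k l : Fin (n + 1)}
    (hk : 0 < c k) (hl : 0 < c l) : k = l := by
  by_contra hne
  unfold aa at h
  have hT := T_pos c hc
  rw [div_eq_one_iff_eq (by positivity)] at h
  classical
  set x : Fin (n + 1) → ℝ := fun l => max (c l) 0 with hx
  have hx0 : ∀ m, 0 ≤ x m := fun m => le_max_right _ _
  have hxk : 0 < x k := lt_of_lt_of_le hk (le_max_left _ _)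
  have hxl : 0 < x l := lt_of_lt_of_le hl (le_max_left _ _)
  set T := ∑ m, x m with hTdef
  have hzero : ∑ m, x m * (T - x m) = 0 := by
    have : ∑ m, x m * (T - x m) = T ^ 2 - ∑ m, x m ^ 2 := by
      rw [sq T]
      nth_rewrite 1 [hTdef]
      rw [Finset.sum_mul, ← Finset.sum_sub_distrib]
      apply Finset.sum_congr rfl
      intro m _
      ring
    rw [this, h]
    ring
  have hle : ∀ m, x m ≤ T := fun m => Finset.single_le_sum (fun m _ => hx0 m) (Finset.mem_univ m)
  have h0 := (Finset.sum_eq_zero_iff_of_nonneg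
    (fun m _ => mul_nonneg (hx0 m) (sub_nonneg.2 (hle m)))).1 hzero k (Finset.mem_univ k)
  have hTk : T = x k := by
    rcases mul_eq_zero.1 h0 with h' | h'
    · exact absurd h' hxk.ne'
    · linarith
  have h2 : x k + x l ≤ T := by
    have : ∑ m ∈ ({k, l} : Finset (Fin (n + 1))), x m ≤ T :=
      Finset.sum_le_sum_of_subset_of_nonneg (Finset.subset_univ _) (fun m _ _ => hx0 m)
    rwa [Finset.sum_pair hne] at this
  linarith

end P254
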